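import Crest.Agent.R91.Rot

/-! Sparsity and localisation of the atoms. -/

set_option autoImplicit false
set_option linter.unusedSectionVars false

namespace Crest.Agent.R91

open Filter Topology Set
open scoped InnerProductSpace ZeroAtInfty ENNReal

theorem le_of_sq_le_sq_aux {a b : ℝ} (hb : 0 ≤ b) (h : a ^ 2 ≤ b ^ 2) : a ≤ b :=
  (abs_le_of_sq_le_sq' h hb).2

theorem atom_exp_neg_le {x : ℝ} (hx : 0 ≤ x) : Real.exp (-x) ≤ 1 - x + x ^ 2 / 2 := by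
  have h1 := Real.quadratic_le_exp_of_nonneg hx
  have h2 : 0 < 1 + x + x ^ 2 / 2 := by positivity
  have h3 : 0 ≤ 1 - x + x ^ 2 / 2 := by nlinarith [sq_nonneg (x - 1)]
  rw [Real.exp_neg, inv_le_iff_one_le_mul₀ (Real.exp_pos _)]
  have h4 := mul_le_mul_of_nonneg_left h1 h3
  nlinarith [sq_nonneg (x ^ 2)]

/-- a sequence with small second differences and bounded values has a small first difference -/
theorem atom_second_diff {E : Type*} [NormedAddCommGroup E] [NormedSpace ℝ E] (x : ℕ → E) {c : ℝ}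
    (hc : 0 ≤ c) (h : ∀ k, ‖x (k + 2) - (2 : ℝ) • x (k + 1) + x k‖ ≤ c) (m : ℕ) :
    (m : ℝ) * ‖x 1 - x 0‖ ≤ ‖x m‖ + ‖x 0‖ + c * m ^ 2 := by
  have h1 : ∀ k : ℕ, ‖(x (k + 1) - x k) - (x 1 - x 0)‖ ≤ c * k := by
    intro k
    induction k with
    | zero => simp
    | succ k ih =>
      have e : (x (k + 1 + 1) - x (k + 1)) - (x 1 - x 0)
          = (x (k + 2) - (2 : ℝ) • x (k + 1) + x k) + ((x (k + 1) - x k) - (x 1 - x 0)) := by
        rw [two_smul]; abel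
      rw [e]
      refine (norm_add_le _ _).trans ?_
      have := h k
      push_cast
      linarith
  have h2 : ∀ k : ℕ, ‖(x k - x 0) - (k : ℝ) • (x 1 - x 0)‖ ≤ c * k ^ 2 := by
    intro k
    induction k with
    | zero => simp
    | succ k ih =>
      have e : (x (k + 1) - x 0) - ((k + 1 : ℕ) : ℝ) • (x 1 - x 0)
          = ((x (k + 1) - x k) - (x 1 - x 0)) + ((x k - x 0) - (k : ℝ) • (x 1 - x 0)) := by
        push_cast
        rw [add_smul, one_smul]; abel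
      rw [e]
      refine (norm_add_le _ _).trans ?_
      have := h1 k
      have hk : (0 : ℝ) ≤ k := Nat.cast_nonneg _
      push_cast
      nlinarith [mul_nonneg hc hk]
  have e : (m : ℝ) • (x 1 - x 0) = (x m - x 0) - ((x m - x 0) - (m : ℝ) • (x 1 - x 0)) := by abel
  have e2 : (m : ℝ) * ‖x 1 - x 0‖ = ‖(m : ℝ) • (x 1 - x 0)‖ := by
    rw [norm_smul, Real.norm_natCast]
  rw [e2, e]
  exact (norm_sub_le _ _).trans (add_le_add (norm_sub_le _ _) (h2 m))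

namespace Dat

variable {H D : Type} [NormedAddCommGroup H] [InnerProductSpace ℝ H] [CompleteSpace H]
  [NormedAddCommGroup D] [InnerProductSpace ℝ D] (T : Dat H D)

/-- Bessel: pick unit vectors `h s` with `⟪Vs (ξ s) e, h s⟫ = ‖Vs (ξ s) e‖`; then
`card * ε ≤ ⟪e, ∑ V (ξ s) (h s)⟫ ≤ ‖∑ V (ξ s) (h s)‖` and `norm_sum_sq_le`. -/
theorem bessel {ι : Type*} (F : Finset ι) (ξ : ι → H) {e : H} (he : ‖e‖ ≤ 1) {ε : ℝ} (hε : 0 < ε)
    (h1 : ∀ s ∈ F, ‖ξ s‖ = 1) (h2 : ∀ s ∈ F, ∀ t ∈ F, s ≠ t → |⟪ξ s, ξ t⟫_ℝ| ≤ ε ^ 2 / 2)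
    (h3 : ∀ s ∈ F, ε ≤ ‖T.Vs (ξ s) e‖) : (F.card : ℝ) ≤ 2 / ε ^ 2 := by
  set h : ι → H := fun s => (‖T.Vs (ξ s) e‖)⁻¹ • T.Vs (ξ s) e with hh
  have hn : ∀ s ∈ F, ‖h s‖ = 1 := by
    intro s hs
    have hp : 0 < ‖T.Vs (ξ s) e‖ := hε.trans_le (h3 s hs)
    simp only [hh, norm_smul, norm_inv, norm_norm]
    exact inv_mul_cancel₀ hp.ne'
  have hi : ∀ s ∈ F, ε ≤ ⟪e, T.V (ξ s) (h s)⟫_ℝ := by
    intro s hs
    have hp : 0 < ‖T.Vs (ξ s) e‖ := hε.trans_le (h3 s hs)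
    rw [← T.inner_Vs]
    simp only [hh, inner_smul_right, real_inner_self_eq_norm_sq]
    have : (‖T.Vs (ξ s) e‖)⁻¹ * ‖T.Vs (ξ s) e‖ ^ 2 = ‖T.Vs (ξ s) e‖ := by
      field_simp
    rw [this]
    exact h3 s hs
  have hlow : (F.card : ℝ) * ε ≤ ‖∑ s ∈ F, T.V (ξ s) (h s)‖ := by
    have a1 : (F.card : ℝ) * ε ≤ ⟪e, ∑ s ∈ F, T.V (ξ s) (h s)⟫_ℝ := by
      rw [inner_sum, ← nsmul_eq_mul]
      exact Finset.card_nsmul_le_sum _ _ _ hi
    refine a1.trans ((real_inner_le_norm _ _).trans ?_)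
    exact mul_le_of_le_one_left (norm_nonneg _) he
  have hup := norm_sum_sq_le F (fun s => T.V (ξ s) (h s)) (B := 1) (κ := ε ^ 2 / 2)
    (by positivity) (fun s hs => by rw [T.norm_V, h1 s hs, hn s hs, one_mul])
    (fun s hs t ht hst => by
      rw [T.inner_V, abs_mul]
      have a1 : |⟪h s, h t⟫_ℝ| ≤ 1 := by
        have := abs_real_inner_le_norm (h s) (h t)
        rwa [hn s hs, hn t ht, one_mul] at this
      exact (mul_le_of_le_one_right (abs_nonneg _) a1).trans (h2 s hs t ht hst))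
  have hc : (0 : ℝ) ≤ F.card := Nat.cast_nonneg _
  have hsq : ((F.card : ℝ) * ε) ^ 2 ≤ 1 ^ 2 * F.card + ε ^ 2 / 2 * (F.card : ℝ) ^ 2 :=
    (pow_le_pow_left₀ (by positivity) hlow 2).trans hup
  rw [le_div_iff₀ (by positivity)]
  rcases hc.eq_or_lt with h0 | h0
  · rw [← h0]; norm_num
  · have : (F.card : ℝ) * ((F.card : ℝ) * ε ^ 2) ≤ F.card * 2 := by nlinarith
    exact le_of_mul_le_mul_left this h0

/-- `‖γ (a+h) - 2 γ a + γ (a-h)‖² = 6 - 8 exp (-t) + 2 exp (-4t) ≤ 16 t²` with `t = ‖h‖²`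
(from `1 - t ≤ exp (-t)` and `exp (-x) ≤ 1 - x + x²/2` for `x ≥ 0`) -/
theorem norm_γ_second (a h : H) :
    ‖T.γ (a + h) - (2 : ℝ) • T.γ a + T.γ (a - h)‖ ≤ 4 * ‖h‖ ^ 2 := by
  set t := ‖h‖ ^ 2 with ht
  have ht0 : 0 ≤ t := by positivity
  have e1 : ⟪T.γ (a + h), T.γ a⟫_ℝ = Real.exp (-t) := by
    rw [T.inner_γ, add_sub_cancel_left]
  have e2 : ⟪T.γ a, T.γ (a - h)⟫_ℝ = Real.exp (-t) := by
    rw [T.inner_γ, sub_sub_cancel]
  have e3 : ⟪T.γ (a + h), T.γ (a - h)⟫_ℝ = Real.exp (-(4 * t)) := by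
    rw [T.inner_γ]
    have : a + h - (a - h) = (2 : ℝ) • h := by rw [two_smul]; abel
    rw [this, norm_smul, ht]
    congr 1
    norm_num
    ring
  have key : ‖T.γ (a + h) - (2 : ℝ) • T.γ a + T.γ (a - h)‖ ^ 2
      = 6 - 8 * Real.exp (-t) + 2 * Real.exp (-(4 * t)) := by
    rw [norm_add_sq_real, norm_sub_sq_real, inner_sub_left, inner_smul_left, inner_smul_right,
      norm_smul, e1, e2, e3, T.norm_γ, T.norm_γ, T.norm_γ]
    simp only [Real.norm_ofNat, conj_trivial]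
    ring
  have b1 : 1 - t ≤ Real.exp (-t) := by
    have := Real.add_one_le_exp (-t)
    linarith
  have b2 := atom_exp_neg_le (x := 4 * t) (by positivity)
  refine le_of_sq_le_sq_aux (by positivity) ?_
  rw [key]
  nlinarith

theorem Vs_second (ξ η ζ z : H) :
    T.Vs ξ z - (2 : ℝ) • T.Vs η z + T.Vs ζ z = T.Vs (ξ - (2 : ℝ) • η + ζ) z := by
  have e : ξ - (2 : ℝ) • η + ζ = (ξ - η) - (η - ζ) := by rw [two_smul]; abel
  rw [e, T.Vs_sub, T.Vs_sub, T.Vs_sub, two_smul]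
  abel

theorem norm_feat_second (j : ℤ) (a h : H) :
    ‖T.feat j (a + h) - (2 : ℝ) • T.feat j a + T.feat j (a - h)‖
      ≤ 4 * (‖h‖ / (24 * sc (j + 1))) ^ 2 := by
  have hσ : 0 < 24 * sc (j + 1) := by have := sc_pos (j + 1); positivity
  unfold feat
  rw [← map_smul, ← map_sub, ← map_add, T.norm_V, T.orth.norm_eq_one, one_mul, smul_add, smul_sub]
  refine (T.norm_γ_second _ _).trans (le_of_eq ?_)
  rw [norm_smul, norm_inv, Real.norm_eq_abs, abs_of_pos hσ, inv_mul_eq_div]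

/-- Landau–Kolmogorov.  Put `F a = Vs (feat j a) e`, `σ = 24 sc (j+1)`.  If `‖F‖ ≤ ε` at the points
`a + k h` with `k ‖h‖ ≤ σ`, then with `m` such that `τ σ ≤ m ‖h‖ ≤ 2 τ σ` the second difference
bound `4 ‖h‖²/σ²` gives `m ‖F (a+h) - F a‖ ≤ 2 ε + 4 m² ‖h‖²/σ²`. -/
theorem landau (δ : ℝ) (hδ : 0 < δ) : ∃ ε τ : ℝ, 0 < ε ∧ ε ≤ δ ∧ 0 < τ ∧ τ ≤ 1 ∧ 2 * ε ≤ δ * τ ∧
    ∀ (j : ℤ) (e a h : H), ‖e‖ ≤ 1 → ‖h‖ ≤ τ * (24 * sc (j + 1)) →
      (∀ k : ℕ, k * ‖h‖ ≤ 24 * sc (j + 1) → ‖T.Vs (T.feat j (a + (k : ℝ) • h)) e‖ ≤ ε) →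
      ‖T.Vs (T.feat j (a + h)) e - T.Vs (T.feat j a) e‖ ≤ δ * ‖h‖ / (24 * sc (j + 1)) := by
  set τ : ℝ := min (δ / 32) (1 / 2) with hτ
  have hτ0 : 0 < τ := lt_min (by positivity) (by norm_num)
  have hτ1 : τ ≤ δ / 32 := min_le_left _ _
  have hτ2 : τ ≤ 1 / 2 := min_le_right _ _
  refine ⟨δ * τ / 4, τ, by positivity, by nlinarith, hτ0, by linarith, by nlinarith, ?_⟩
  intro j e a h he hh hk
  set σ : ℝ := 24 * sc (j + 1) with hσ
  have hσ0 : 0 < σ := by have := sc_pos (j + 1); positivity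
  rcases (norm_nonneg h).eq_or_lt with h0 | h0
  · have : h = 0 := norm_eq_zero.1 h0.symm
    subst this
    simp
  set x : ℕ → H := fun k => T.Vs (T.feat j (a + (k : ℝ) • h)) e with hx
  have hsec : ∀ k, ‖x (k + 2) - (2 : ℝ) • x (k + 1) + x k‖ ≤ 4 * (‖h‖ / σ) ^ 2 := by
    intro k
    have e1 : a + ((k + 2 : ℕ) : ℝ) • h = (a + ((k + 1 : ℕ) : ℝ) • h) + h := by
      push_cast
      rw [add_smul, add_smul, two_smul, one_smul]; abel
    have e2 : a + (k : ℝ) • h = (a + ((k + 1 : ℕ) : ℝ) • h) - h := by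
      push_cast
      rw [add_smul, one_smul]; abel
    simp only [hx]
    rw [T.Vs_second, e1]
    conv_lhs => rw [e2]
    refine (T.norm_Vs_le _ _).trans ?_
    refine (mul_le_of_le_one_right (norm_nonneg _) he).trans ?_
    have := T.norm_feat_second j (a + ((k + 1 : ℕ) : ℝ) • h) h
    simpa only [hσ] using this
  set m : ℕ := ⌈τ * σ / ‖h‖⌉₊ with hm
  have hm1 : τ * σ ≤ m * ‖h‖ := by
    rw [← div_le_iff₀ h0]; exact Nat.le_ceil _
  have hm2 : m * ‖h‖ ≤ 2 * τ * σ := by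
    have : (m : ℝ) < τ * σ / ‖h‖ + 1 := Nat.ceil_lt_add_one (by positivity)
    have h2 : (m : ℝ) * ‖h‖ ≤ (τ * σ / ‖h‖ + 1) * ‖h‖ :=
      mul_le_mul_of_nonneg_right this.le h0.le
    rw [add_mul, div_mul_cancel₀ _ h0.ne'] at h2
    linarith
  have hmain := atom_second_diff x (by positivity) hsec m
  have hxm : ‖x m‖ ≤ δ * τ / 4 := hk m (by nlinarith)
  have hx0 : ‖x 0‖ ≤ δ * τ / 4 := hk 0 (by simpa using hσ0.le)
  have ex : x 1 - x 0 = T.Vs (T.feat j (a + h)) e - T.Vs (T.feat j a) e := by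
    simp [hx]
  rw [← ex]
  set d := ‖x 1 - x 0‖ with hd
  have hd0 : 0 ≤ d := norm_nonneg _
  have hq : 4 * (‖h‖ / σ) ^ 2 * (m : ℝ) ^ 2 ≤ 16 * τ ^ 2 := by
    have e : 4 * (‖h‖ / σ) ^ 2 * (m : ℝ) ^ 2 = 4 * ((m * ‖h‖) / σ) ^ 2 := by ring
    have b : (m * ‖h‖) / σ ≤ 2 * τ := by rw [div_le_iff₀ hσ0]; exact hm2
    have b2 := pow_le_pow_left₀ (by positivity) b 2
    rw [e]; nlinarith
  have hmd : (m : ℝ) * d ≤ δ * τ := by nlinarith
  rw [le_div_iff₀ hσ0]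
  have b1 : d * (τ * σ) ≤ d * (m * ‖h‖) := mul_le_mul_of_nonneg_left hm1 hd0
  have b2 : (m * d) * ‖h‖ ≤ δ * τ * ‖h‖ := mul_le_mul_of_nonneg_right hmd h0.le
  have b3 : τ * (d * σ) ≤ τ * (δ * ‖h‖) := by nlinarith
  exact le_of_mul_le_mul_left b3 hτ0

theorem atom_eq (n : ℕ) (S : Set ℤ) (e : H) (w : MM H D) :
    T.atom n S e w = ⟪mix (fun j a => T.Vs (T.feat j a) e) S (T.Tn n w) (lv ‖w n‖),
      T.Yf (T.vS n univ w) (w n)⟫_ℝ := by
  rw [atom, Th, ← T.inner_Vs, ← T.Vs_mix]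
  rfl

theorem atom_single_eq (n : ℕ) (j : ℤ) (e : H) (w : MM H D) :
    T.atom n {j} e w = ⟪T.Vs (T.feat j (T.Tn n w)) e,
      kap (lv ‖w n‖ - j) • T.Yf (T.vS n univ w) (w n)⟫_ℝ := by
  rw [atom_eq, mix_singleton, inner_smul_left, inner_smul_right]
  simp

theorem norm_kapY_le (n : ℕ) (j : ℤ) (w : MM H D) :
    ‖kap (lv ‖w n‖ - j) • T.Yf (T.vS n univ w) (w n)‖ ≤ 2 * sc (j + 1) := by
  have hs := sc_pos (j + 1)
  have hY := T.norm_Yf_le (T.norm_vS_univ n w) (w n)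
  rw [norm_smul, Real.norm_eq_abs, abs_of_nonneg (kap_nonneg _)]
  by_cases hk : kap (lv ‖w n‖ - j) = 0
  · rw [hk, zero_mul]; positivity
  have h1 : ‖w n‖ ≤ sc (j + 1) := by
    rcases (norm_nonneg (w n)).eq_or_lt with h0 | h0
    · rw [← h0]; exact hs.le
    · exact (sc_le_of_kap_ne_zero h0 hk).2
  refine (mul_le_of_le_one_left (norm_nonneg _) (kap_le_one _)).trans ?_
  linarith

theorem norm_kapY_sub (n : ℕ) (j : ℤ) (w w' : MM H D) :
    ‖kap (lv ‖w n‖ - j) • T.Yf (T.vS n univ w) (w n)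
      - kap (lv ‖w' n‖ - j) • T.Yf (T.vS n univ w') (w' n)‖ ≤ 4 * ‖w - w'‖ := by
  wlog hle : ‖w n‖ ≤ ‖w' n‖ generalizing w w'
  · rw [norm_sub_rev, norm_sub_rev w w']
    exact this w' w (not_le.1 hle).le
  set Y := T.Yf (T.vS n univ w) (w n) with hY
  set Y' := T.Yf (T.vS n univ w') (w' n) with hY'
  set κ := kap (lv ‖w n‖ - j) with hκ
  set κ' := kap (lv ‖w' n‖ - j) with hκ'
  have e : κ • Y - κ' • Y' = (κ - κ') • Y + κ' • (Y - Y') := by
    rw [sub_smul, smul_sub]; abel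
  have h1 : ‖Y‖ ≤ 2 * ‖w n‖ := T.norm_Yf_le (T.norm_vS_univ n w) (w n)
  have h2 : ‖Y - Y'‖ ≤ 3 * ‖w - w'‖ := T.norm_Yf_vS_sub n w w'
  have h3 : |κ - κ'| ≤ 2 * |lv ‖w n‖ - lv ‖w' n‖| := by
    have := abs_kap_sub (lv ‖w n‖ - j) (lv ‖w' n‖ - j)
    rwa [sub_sub_sub_cancel_right] at this
  have h4 := min_mul_abs_lv_sub (norm_nonneg (w n)) (norm_nonneg (w' n))
  rw [min_eq_left hle] at h4
  have h5 : |‖w n‖ - ‖w' n‖| ≤ ‖w - w'‖ :=
    (abs_norm_sub_norm_le _ _).trans (norm_apply_le (w - w') n)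
  have h6 : |κ - κ'| * ‖Y‖ ≤ (2 * |lv ‖w n‖ - lv ‖w' n‖|) * (2 * ‖w n‖) :=
    mul_le_mul h3 h1 (norm_nonneg _) (by positivity)
  have h7 : |κ'| * ‖Y - Y'‖ ≤ ‖Y - Y'‖ := by
    refine mul_le_of_le_one_left (norm_nonneg _) ?_
    rw [abs_of_nonneg (kap_nonneg _)]
    exact kap_le_one _
  rw [e]
  refine (norm_add_le _ _).trans ?_
  rw [norm_smul, norm_smul, Real.norm_eq_abs, Real.norm_eq_abs]
  have := norm_nonneg (w - w')
  nlinarith

theorem abs_inner_sub_le (p p' y y' : H) :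
    |⟪p, y⟫_ℝ - ⟪p', y'⟫_ℝ| ≤ ‖p - p'‖ * ‖y‖ + ‖p'‖ * ‖y - y'‖ := by
  have e : ⟪p, y⟫_ℝ - ⟪p', y'⟫_ℝ = ⟪p - p', y⟫_ℝ + ⟪p', y - y'⟫_ℝ := by
    rw [inner_sub_left, inner_sub_right]; ring
  rw [e]
  exact (abs_add_le _ _).trans
    (add_le_add (abs_real_inner_le_norm _ _) (abs_real_inner_le_norm _ _))

/-- `J` = the scales `j ∈ S` with `ε' ≤ ‖Vs (feat j a) e‖` for some `a` (`bessel`, orthogonal
features).  `atom n S e w = ⟪mix (fun j a => Vs (feat j a) e) S (Tn n w) (lv ‖w n‖), Y w⟫`; use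
`landau` (globally), `norm_mix_le`, `min_mul_norm_mix_sub`, `norm_Yf_vS_sub`, `norm_Yf_le`. -/
theorem atom_sparse (ε : ℝ) (hε : 0 < ε) : ∃ N : ℕ, ∀ (n : ℕ) (S : Set ℤ) (e : H), ‖e‖ ≤ 1 →
    ∃ J : Finset ℤ, (J : Set ℤ) ⊆ S ∧ J.card ≤ N ∧ Lip ε (T.atom n (S \ J) e) := by
  classical
  obtain ⟨η, τ, hη, hηδ, hτ, hτ1, hητ, hL⟩ := T.landau (ε / 7) (by positivity)
  set δ := ε / 7 with hδ
  have hδ0 : 0 < δ := by positivity
  refine ⟨⌈2 / η ^ 2⌉₊, fun n S e he => ?_⟩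
  set A : Set ℤ := {j | j ∈ S ∧ ∃ a, η ≤ ‖T.Vs (T.feat j a) e‖} with hA
  have hcard : ∀ F : Finset ℤ, (F : Set ℤ) ⊆ A → F.card ≤ ⌈2 / η ^ 2⌉₊ := by
    intro F hF
    have hex : ∀ j : ℤ, ∃ a : H, j ∈ F → η ≤ ‖T.Vs (T.feat j a) e‖ := by
      intro j
      by_cases hj : j ∈ F
      · obtain ⟨a, ha⟩ := (hF hj).2
        exact ⟨a, fun _ => ha⟩
      · exact ⟨0, fun h => absurd h hj⟩
    choose a ha using hex
    have := T.bessel F (fun j => T.feat j (a j)) he hη (fun j _ => T.norm_feat _ _)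
      (fun s _ t _ hst => by rw [T.inner_feat_of_ne hst, abs_zero]; positivity) ha
    exact_mod_cast this.trans (Nat.le_ceil _)
  have hfin : A.Finite := by
    by_contra hinf
    obtain ⟨F, hF, hc⟩ := Set.Infinite.exists_subset_card_eq hinf (⌈2 / η ^ 2⌉₊ + 1)
    have := hcard F hF
    omega
  refine ⟨hfin.toFinset, fun j hj => (hfin.mem_toFinset.1 hj).1, hcard _ (by simp), ?_⟩
  set S' : Set ℤ := S \ (hfin.toFinset : Set ℤ) with hS'
  set G : ℤ → H → H := fun j a => T.Vs (T.feat j a) e with hG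
  have hB : ∀ j ∈ S', ∀ a, ‖G j a‖ ≤ η := by
    intro j hj a
    by_contra hcon
    exact hj.2 (hfin.mem_toFinset.2 ⟨hj.1, a, (not_le.1 hcon).le⟩)
  have hΛ : ∀ j ∈ S', ∀ a a', ‖G j a - G j a'‖ ≤ δ / 24 * ‖a - a'‖ / sc (j + 1) := by
    intro j hj a a'
    have hs := sc_pos (j + 1)
    have e1 : δ / 24 * ‖a - a'‖ / sc (j + 1) = δ * ‖a - a'‖ / (24 * sc (j + 1)) := by
      field_simp
    rw [e1]
    rcases le_total ‖a - a'‖ (τ * (24 * sc (j + 1))) with h | h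
    · have := hL j e a' (a - a') he h (fun k _ => hB j hj _)
      rwa [add_sub_cancel] at this
    · refine (norm_sub_le _ _).trans ?_
      rw [le_div_iff₀ (by positivity)]
      have b1 := hB j hj a
      have b2 := hB j hj a'
      have b3 : (‖G j a‖ + ‖G j a'‖) * (24 * sc (j + 1)) ≤ (δ * τ) * (24 * sc (j + 1)) :=
        mul_le_mul_of_nonneg_right (by linarith) (by positivity)
      have b4 := mul_le_mul_of_nonneg_left h hδ0.le
      nlinarith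
  intro w w'
  wlog hle : ‖w n‖ ≤ ‖w' n‖ generalizing w w'
  · rw [abs_sub_comm, norm_sub_rev]
    exact this w' w (not_le.1 hle).le
  rw [T.atom_eq, T.atom_eq]
  refine (abs_inner_sub_le _ _ _ _).trans ?_
  have h1 := T.norm_Yf_le (T.norm_vS_univ n w) (w n)
  have h2 := T.norm_Yf_vS_sub n w w'
  have h3 := min_mul_norm_mix_sub hη.le (by positivity : 0 ≤ δ / 24) hB hΛ (T.Tn n w) (T.Tn n w')
    (norm_nonneg (w n)) (norm_nonneg (w' n))
  rw [min_eq_left hle] at h3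
  have h4 := norm_mix_le hη.le hB (T.Tn n w') (lv ‖w' n‖)
  have h5 : |‖w n‖ - ‖w' n‖| ≤ ‖w - w'‖ :=
    (abs_norm_sub_norm_le _ _).trans (norm_apply_le (w - w') n)
  have h6 : ‖T.Tn n w - T.Tn n w'‖ ≤ ‖w - w'‖ := T.dd_le n w w'
  have h7 := mul_le_mul_of_nonneg_left h1
    (norm_nonneg (mix G S' (T.Tn n w) (lv ‖w n‖) - mix G S' (T.Tn n w') (lv ‖w' n‖)))
  have h8 := mul_le_mul h4 h2 (norm_nonneg _) (by positivity)
  have h9 := mul_le_mul_of_nonneg_left h6 hδ0.le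
  have h10 := mul_le_mul hηδ h5 (abs_nonneg _) hδ0.le
  have h11 := mul_le_mul_of_nonneg_right hηδ (norm_nonneg (w - w'))
  have h12 : 0 ≤ δ * ‖w - w'‖ := by positivity
  have e7 : ε = 7 * δ := by rw [hδ]; ring
  rw [e7]
  nlinarith

/-- Take a maximal family of points `b` with `ε' ≤ ‖Vs (feat j (Tn n b)) e‖` and pairwise
`dd n ≥ R₀ σ` (`σ = 24 sc (j+1)`, `exp (-R₀²) ≤ ε'²/2`, `bessel`, `exists_maximal_family`), and
replace `b` by `ofFun n b`.  If `w` is outside the cells then either `sc (j+1) < ‖w n‖`, and the atom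
vanishes near `w` (`supp_Th`), or `dd n w b > (R₀ + 1) σ` for all centres (`dd_succ_le`), so that
`landau` applies with `a = Tn n w`, `h = Tn n (w' - w)`; write
`atom n {j} e w = ⟪Vs (feat j (Tn n w)) e, kap (lv ‖w n‖ - j) • Y w⟫`, where the second factor is
bounded by `2 sc (j+1)` and `4`-Lipschitz. -/
theorem exists_atomLoc (ε : ℝ) (hε : 0 < ε) : ∃ N : ℕ, T.AtomLoc ε N := by
  classical
  have hs1 := sc_pos 1
  set δ : ℝ := ε / (5 + 2 * sc 1) with hδ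
  have hδ0 : 0 < δ := by positivity
  have hδε : ε = δ * (5 + 2 * sc 1) := by rw [hδ]; field_simp
  obtain ⟨η, τ, hη, hηδ, hτ, hτ1, hητ, hL⟩ := T.landau δ hδ0
  obtain ⟨R₀, hR₀, hR⟩ : ∃ R₀ : ℝ, 0 < R₀ ∧ Real.exp (-R₀ ^ 2) ≤ η ^ 2 / 2 := by
    refine ⟨1 + 2 / η ^ 2, by positivity, ?_⟩
    have h0 : 0 < 2 / η ^ 2 := by positivity
    have h1 := Real.add_one_le_exp ((1 + 2 / η ^ 2) ^ 2)
    have h2 : 2 / η ^ 2 ≤ Real.exp ((1 + 2 / η ^ 2) ^ 2) := by nlinarith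
    rw [Real.exp_neg]
    refine (inv_anti₀ h0 h2).trans (le_of_eq ?_)
    rw [inv_div]
  refine ⟨⌈2 / η ^ 2⌉₊, ((R₀ + 1) * 24 + 1) * sc 1, fun n j e he => ?_⟩
  have hs := sc_pos (j + 1)
  have hsj := sc_pos j
  have hsc : sc (j + 1) = sc j * sc 1 := sc_add j 1
  set σ : ℝ := 24 * sc (j + 1) with hσ
  have hσ0 : 0 < σ := by positivity
  obtain ⟨F, hFc, -, hF⟩ := exists_maximal_family
    (fun b : MM H D => η ≤ ‖T.Vs (T.feat j (T.Tn n b)) e‖) (fun b b' => R₀ * σ ≤ T.dd n b b')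
    (fun x y h => by rwa [T.dd_comm]) (fun x => by rw [T.dd_self]; exact not_le.2 (by positivity))
    ⌈2 / η ^ 2⌉₊ (fun F hQ hfar => by
      have := T.bessel F (fun b => T.feat j (T.Tn n b)) he hη (fun _ _ => T.norm_feat _ _)
        (fun s hs t ht hst => by
          rw [T.inner_feat, abs_of_pos (Real.exp_pos _)]
          refine le_trans (Real.exp_le_exp.2 (neg_le_neg ?_)) hR
          refine pow_le_pow_left₀ hR₀.le ?_ 2
          rw [le_div_iff₀ hσ0]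
          exact hfar s hs t ht hst) hQ
      exact_mod_cast this.trans (Nat.le_ceil _))
  refine ⟨F.image fun b : MM H D => ofFun n b, Finset.card_image_le.trans hFc, fun w hw => ?_⟩
  rcases lt_or_ge (sc (j + 1)) ‖w n‖ with hcase | hcase
  · have hz : ∀ w' : MM H D, sc (j + 1) < ‖w' n‖ → T.atom n {j} e w' = 0 := by
      intro w' h
      have : T.Th n {j} w' = 0 := by
        by_contra hne
        exact absurd (T.supp_Th hne).2 (not_le.2 h)
      rw [atom, this, inner_zero_right]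
    refine ⟨(sl_of_const (c := 0) ?_).mono hε.le, by rw [hz w hcase, abs_zero]; positivity⟩
    filter_upwards [Metric.ball_mem_nhds w (sub_pos.2 hcase)] with w' hw'
    refine hz w' ?_
    rw [mem_ball_iff_norm'] at hw'
    have h5 : ‖w n‖ - ‖w' n‖ ≤ ‖w - w'‖ :=
      (norm_sub_norm_le _ _).trans (norm_apply_le (w - w') n)
    linarith
  · have hfar : ∀ b ∈ F, (R₀ + 1) * σ < T.dd n w b := by
      intro b hb
      have h1 := hw _ (Finset.mem_image_of_mem (fun b : MM H D => ofFun n b) hb)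
      have h2 := T.dd_succ_le n w (ofFun n b)
      have h3 : T.dd n w (ofFun n b) = T.dd n w b := by
        unfold dd
        rw [T.Tn_congr (w := ofFun n b) (w' := b) (fun i hi => by simp [hi])]
      have h4 : ‖w n - ofFun n b n‖ = ‖w n‖ := by simp
      rw [h3, h4] at h2
      have h5 : ((R₀ + 1) * 24 + 1) * sc 1 * sc j = (R₀ + 1) * σ + sc (j + 1) := by
        rw [hσ, hsc]; ring
      linarith
    have hsmall : ∀ x : MM H D, T.dd n w x ≤ σ → ‖T.Vs (T.feat j (T.Tn n x)) e‖ ≤ η := by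
      intro x hx
      by_contra hcon
      obtain ⟨b, hb, hxb⟩ := hF x (not_le.1 hcon).le
      have h1 := hfar b hb
      have h2 := T.dd_triangle n w x b
      have h3 := not_le.1 hxb
      linarith
    have hw0 : ‖T.Vs (T.feat j (T.Tn n w)) e‖ ≤ η := hsmall w (by rw [T.dd_self]; exact hσ0.le)
    constructor
    · filter_upwards [Metric.closedBall_mem_nhds w (mul_pos hτ hσ0)] with w' hw'
      rw [mem_closedBall_iff_norm] at hw'
      have hh : ‖T.Tn n (w' - w)‖ ≤ ‖w' - w‖ := by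
        rw [T.Tn_sub]; exact T.dd_le n w' w
      have h1 := hL j e (T.Tn n w) (T.Tn n (w' - w)) he (hh.trans hw') (fun k hk => by
        rw [← T.Tn_smul, ← T.Tn_add]
        refine hsmall _ ?_
        unfold dd
        rw [T.Tn_add, T.Tn_smul, sub_add_cancel_left, norm_neg, norm_smul, Real.norm_natCast]
        exact hk)
      rw [← T.Tn_add, add_sub_cancel] at h1
      rw [T.atom_single_eq, T.atom_single_eq]
      refine (abs_inner_sub_le _ _ _ _).trans ?_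
      have h2 := T.norm_kapY_le n j w'
      have h3 := T.norm_kapY_sub n j w' w
      have h4 := mul_le_mul h1 h2 (norm_nonneg _) (by positivity)
      have h5 := mul_le_mul (hw0.trans hηδ) h3 (norm_nonneg _) hδ0.le
      have h6 : δ * ‖T.Tn n (w' - w)‖ / (24 * sc (j + 1)) * (2 * sc (j + 1))
          = δ * ‖T.Tn n (w' - w)‖ / 12 := by
        field_simp; ring
      have h7 := mul_le_mul_of_nonneg_left hh hδ0.le
      have h8 : 0 ≤ δ * ‖w' - w‖ := by positivity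
      have h9 : 0 ≤ δ * ‖w' - w‖ * sc 1 := by positivity
      rw [hδε]
      nlinarith
    · rw [T.atom_single_eq]
      refine (abs_real_inner_le_norm _ _).trans ?_
      have h2 := T.norm_kapY_le n j w
      have h4 := mul_le_mul (hw0.trans hηδ) h2 (norm_nonneg _) hδ0.le
      have h8 : 0 ≤ δ * sc j := by positivity
      rw [hδε]
      rw [hsc] at h4
      nlinarith

end Dat

end Crest.Agent.R91
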