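import Mathlib

/-!
Definitions for row 91 (S0120, S0121): a separable Banach space `Z` without a copy of `c₀` which
is Lipschitz isomorphic to `Z × c₀(D)`.
-/

set_option autoImplicit false

namespace Crest.Agent.R91

open Filter Topology Set
open scoped InnerProductSpace ZeroAtInfty ENNReal

/-! ### Generic notions -/

section generic

variable {M : Type*} [NormedAddCommGroup M]

/-- `f` is `L`-Lipschitz -/
def Lip (L : ℝ) (f : M → ℝ) : Prop := ∀ w w', |f w - f w'| ≤ L * ‖w - w'‖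

/-- `f` has slope at most `L` at the point `w` -/
def Sl (f : M → ℝ) (w : M) (L : ℝ) : Prop := ∀ᶠ w' in 𝓝 w, |f w' - f w| ≤ L * ‖w' - w‖

/-- bounded and Lipschitz -/
def BL (C : ℝ) (f : M → ℝ) : Prop := (∀ w, |f w| ≤ C) ∧ Lip C f

/-- the ultrafilter used throughout -/
noncomputable def UU : Ultrafilter ℕ := hyperfilter ℕ

/-- a relation that holds for typical pairs -/
def Typ (R : ℕ → ℕ → Prop) : Prop := ∀ᶠ k in (UU : Filter ℕ), ∀ᶠ l in (UU : Filter ℕ), R k l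

/-- the filter of large typical finite sets -/
def FF : Filter (Finset ℕ) where
  sets := {A | ∃ (R : ℕ → ℕ → Prop) (N : ℕ), Typ R ∧
    ∀ F : Finset ℕ, (∀ k ∈ F, ∀ l ∈ F, k < l → R k l) → N ≤ F.card → F ∈ A}
  univ_sets := ⟨fun _ _ => True, 0, by simp [Typ], fun _ _ _ => mem_univ _⟩
  sets_of_superset := by
    rintro A B ⟨R, N, hR, h⟩ hAB
    exact ⟨R, N, hR, fun F h1 h2 => hAB (h F h1 h2)⟩
  inter_sets := by
    rintro A B ⟨R, N, hR, h⟩ ⟨R', N', hR', h'⟩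
    refine ⟨fun k l => R k l ∧ R' k l, max N N', ?_, fun F h1 h2 =>
      ⟨h F (fun k hk l hl hkl => (h1 k hk l hl hkl).1) (le_trans (le_max_left _ _) h2),
       h' F (fun k hk l hl hkl => (h1 k hk l hl hkl).2) (le_trans (le_max_right _ _) h2)⟩⟩
    filter_upwards [hR, hR'] with k h1 h2
    exact h1.and h2

/-- strongly null sequences of functions -/
def SN (s : ℕ → M → ℝ) : Prop :=
  ∀ ε : ℝ, 0 < ε → ∀ᶠ F in FF, (∀ w, ∑ k ∈ F, |s k w| ≤ ε * F.card) ∧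
    ∀ w w', ∑ k ∈ F, |s k w - s k w'| ≤ ε * F.card * ‖w - w'‖

/-- strongly convergent sequences of functions -/
def SC (u : ℕ → M → ℝ) : Prop :=
  ∃ (v : M → ℝ) (C : ℝ), (∀ᶠ k in (UU : Filter ℕ), BL C (u k)) ∧ BL C v ∧
    SN (fun k w => u k w - v w)

/-- pairing of a finitely supported measure with a function -/
noncomputable def ev {α : Type*} (μ : α →₀ ℝ) (g : α → ℝ) : ℝ := μ.sum fun w c => c * g w

end generic

/-! ### Scalar functions -/

/-- the scales -/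
noncomputable def sc (j : ℤ) : ℝ := Real.exp (32 * j)

/-- logarithmic scale parameter -/
noncomputable def lv (r : ℝ) : ℝ := Real.log r / 32

/-- square root of a partition of unity -/
noncomputable def kap (t : ℝ) : ℝ := Real.cos (Real.pi / 2 * max (-1) (min t 1))

/-- the switch: one on `(-∞, 1/2]`, zero on `[1, ∞)` -/
noncomputable def sw (x : ℝ) : ℝ := max 0 (min 1 (2 - 2 * x))

/-- thresholds of the switches -/
noncomputable def eta (j : ℤ) (q : ℕ) : ℝ := sc (j - 1) / 2 ^ q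

/-- what is needed from the profile of the flattening cut-off -/
structure IsPsi (ℓ : ℕ) (ψ : ℝ → ℝ) : Prop where
  nonneg : ∀ y, 0 ≤ ψ y
  le_one : ∀ y, ψ y ≤ 1
  zero : ∀ y, y ≤ 1 / 2 → ψ y = 0
  one : ∃ θ : ℝ, 0 < θ ∧ ∀ y, 1 - θ ≤ y → ψ y = 1
  c11 : ∃ C : ℝ, (∀ x y, |ψ x - ψ y| ≤ C * |x - y|) ∧
    ∀ x x' δ, |(ψ (x + δ) - ψ x) - (ψ (x' + δ) - ψ x')| ≤ C * |δ| * |x - x'|
  slope : ∀ s : ℝ, 0 ≤ s → ∃ Λ : ℝ, 0 ≤ Λ ∧ s * Λ * 2 ^ ℓ ≤ 1 ∧
    ∀ᶠ s' in 𝓝 s, |ψ (Real.exp (-s' ^ 2)) - ψ (Real.exp (-s ^ 2))| ≤ Λ * |s' - s|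

/-- the profile of the flattening cut-off -/
noncomputable def psi (ℓ : ℕ) : ℝ → ℝ := Classical.epsilon (IsPsi ℓ)

/-! ### Sequence spaces -/

section seq

variable {X : Type} [NormedAddCommGroup X]

/-- the finitely supported sequence with the first `ℓ` coordinates of `β` -/
noncomputable def ofFun (ℓ : ℕ) (β : ℕ → X) : C₀(ℕ, X) where
  toFun i := if i < ℓ then β i else 0
  continuous_toFun := continuous_of_discreteTopology
  zero_at_infty' := by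
    rw [cocompact_eq_cofinite, Nat.cofinite_eq_atTop]
    refine tendsto_const_nhds.congr' ?_
    filter_upwards [eventually_ge_atTop ℓ] with i hi
    simp [not_lt.2 hi]

open Classical in
/-- supremum of the norms of the coordinates in `I` -/
noncomputable def NI (I : Set ℕ) (w : C₀(ℕ, X)) : ℝ := ⨆ i, if i ∈ I then ‖w i‖ else 0

/-- product of switches -/
noncomputable def tau (m : ℕ) (j : ℤ) (I : ℕ → Set ℕ) (w : C₀(ℕ, X)) : ℝ :=
  ∏ q ∈ Finset.range m, sw (NI (I q) w / eta j q)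

end seq

open Classical in
/-- interpolation between neighbouring scales -/
noncomputable def mix {H E : Type} [NormedAddCommGroup E] [NormedSpace ℝ E] (G : ℤ → H → E)
    (S : Set ℤ) (a : H) (u : ℝ) : E :=
  ∑ j ∈ ({⌊u⌋, ⌊u⌋ + 1} : Finset ℤ), (if j ∈ S then kap (u - j) else 0) • G j a

/-! ### The Hilbert space data -/

/-- Hilbert hotel, tensor product, Gaussian features and an orthonormal sequence -/
structure Dat (H D : Type) [NormedAddCommGroup H] [InnerProductSpace ℝ H]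
    [NormedAddCommGroup D] [InnerProductSpace ℝ D] where
  J : WithLp 2 (H × D) ≃ₗᵢ[ℝ] H
  V : H →L[ℝ] H →L[ℝ] H
  inner_V : ∀ ξ η h g, ⟪V ξ h, V η g⟫_ℝ = ⟪ξ, η⟫_ℝ * ⟪h, g⟫_ℝ
  γ : H → H
  inner_γ : ∀ a b, ⟪γ a, γ b⟫_ℝ = Real.exp (-‖a - b‖ ^ 2)
  e : ℤ → H
  orth : Orthonormal ℝ e

/-- the level space -/
abbrev XX (H D : Type) := WithLp 2 (H × D)

/-- the metric space on which everything happens -/
abbrev MM (H D : Type) [NormedAddCommGroup H] [NormedAddCommGroup D] := C₀(ℕ, XX H D)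

namespace Dat

variable {H D : Type} [NormedAddCommGroup H] [InnerProductSpace ℝ H] [CompleteSpace H]
  [NormedAddCommGroup D] [InnerProductSpace ℝ D] (T : Dat H D)

/-- weighted Hilbertian image of the first `n` coordinates -/
noncomputable def Tn (n : ℕ) (w : MM H D) : H :=
  ∑ i ∈ Finset.range n, ((1 / 2 : ℝ) ^ (i + 1)) • T.V (T.e i) (T.J (w i))

/-- the corresponding pseudo-distance -/
noncomputable def dd (n : ℕ) (w w' : MM H D) : ℝ := ‖T.Tn n w - T.Tn n w'‖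

/-- the feature vector of the point `a` at scale `j` -/
noncomputable def feat (j : ℤ) (a : H) : H := T.V (T.e j) (T.γ ((24 * sc (j + 1))⁻¹ • a))

/-- adjoint of `V ξ` -/
noncomputable def Vs (ξ : H) : H →L[ℝ] H := ContinuousLinearMap.adjoint (T.V ξ)

noncomputable def Yf (ξ : H) (x : XX H D) : H :=
  T.J (WithLp.toLp 2 (T.Vs ξ x.fst, x.snd)) - T.Vs ξ x.fst

/-- the Hilbert hotel at the unit vector `ξ` -/
noncomputable def Uf (ξ : H) (x : XX H D) : H := x.fst + T.V ξ (T.Yf ξ x)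

/-- the position vector of level `n`, restricted to the scales in `S` -/
noncomputable def vS (n : ℕ) (S : Set ℤ) (w : MM H D) : H :=
  mix T.feat S (T.Tn n w) (lv ‖w n‖)

noncomputable def Th (n : ℕ) (S : Set ℤ) (w : MM H D) : H :=
  T.V (T.vS n S w) (T.Yf (T.vS n univ w) (w n))

/-- the atoms -/
noncomputable def atom (n : ℕ) (S : Set ℤ) (e : H) (w : MM H D) : ℝ := ⟪e, T.Th n S w⟫_ℝ

/-- cut-off around `b` -/
noncomputable def bump (ℓ : ℕ) (ρ : ℝ) (b w : MM H D) : ℝ :=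
  psi ℓ ⟪T.γ ((2 ^ ℓ / ρ) • T.Tn ℓ b), T.γ ((2 ^ ℓ / ρ) • T.Tn ℓ w)⟫_ℝ

/-- the correction that flattens `g` near the points of `B` -/
noncomputable def flat (g : MM H D → ℝ) (ℓ : ℕ) (ρ : ℝ) (B : Finset (MM H D)) (w : MM H D) : ℝ :=
  ∑ b ∈ B, (g w - g b) * T.bump ℓ ρ b w

/-- localisation of a function at scale `j` and depth `ℓ` -/
def Loc (ε : ℝ) (N : ℕ) (R : ℝ) (j : ℤ) (ℓ : ℕ) (c : MM H D → ℝ) : Prop :=
  ∃ B : Finset (MM H D), B.card ≤ N ∧
    ∀ w, (∀ b ∈ B, R * sc j < T.dd ℓ w b) → Sl c w ε ∧ |c w| ≤ ε * sc j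

/-- the atoms of one scale are localised with at most `N` cells -/
def AtomLoc (ε : ℝ) (N : ℕ) : Prop :=
  ∃ R : ℝ, ∀ n j e, ‖e‖ ≤ 1 → T.Loc ε N R j (n + 1) (T.atom n {j} e)

/-- number of points at which flattening is allowed at stage `m` -/
noncomputable def pp (m : ℕ) : ℕ :=
  ∑ i ∈ Finset.range (m + 1), Classical.epsilon (T.AtomLoc ((1 / 4) ^ i))

/-- a core times a product of switches -/
def IsPiece (C : ℤ → ℕ → ℕ → (MM H D → ℝ) → Prop) (m : ℕ) (j : ℤ) (n ℓ : ℕ) (I : ℕ → Set ℕ)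
    (g : MM H D → ℝ) : Prop :=
  ∃ c, C j n ℓ c ∧ ((∀ q < m, I q = ∅) ∨ 1 ≤ ℓ * sc j) ∧ g = fun w => c w * tau m j I w

/-- the cores of stage `m`, with scale `j`, anchor `n` and depth `ℓ` -/
def Core : ℕ → ℤ → ℕ → ℕ → (MM H D → ℝ) → Prop
  | 0, j, n, ℓ, c => ℓ = n + 1 ∧ ∃ e, ‖e‖ ≤ 1 ∧ c = T.atom n {j} e
  | m + 1, j, n, ℓ, c => Core m j n ℓ c ∨
      ∃ (j' : ℤ) (ℓ' : ℕ) (I : ℕ → Set ℕ) (g : MM H D → ℝ) (B : Finset (MM H D)),
        IsPiece (Core m) m j' n ℓ' I g ∧ ℓ' ≤ ℓ ∧ (∀ q < m, I q ⊆ Iio ℓ) ∧ B.card ≤ T.pp (m + 1) ∧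
        (∀ b ∈ B, ∀ b' ∈ B, b ≠ b' → 2 * sc j < T.dd ℓ b b') ∧
        j + 2 ≤ j' ∧ j ≤ -|j'| ∧ j ≤ -(ℓ : ℤ) ∧ c = T.flat g ℓ (sc j) B

/-- the norming family of stage `m` -/
def GG (m : ℕ) (g : MM H D → ℝ) : Prop :=
  (∃ n S e, ‖e‖ ≤ 1 ∧ g = T.atom n S e) ∨ ∃ j n ℓ I, IsPiece (T.Core m) m j n ℓ I g

/-- `g` is dominated by `C` times the family of stage `m` -/
def Dom (m : ℕ) (C : ℝ) (g : MM H D → ℝ) : Prop :=
  ∀ (μ : MM H D →₀ ℝ) (t : ℝ), (∀ h, T.GG m h → |ev μ h| ≤ t) → |ev μ g| ≤ C * t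

/-- the functions that define the `m`-th seminorm -/
def Gam (m : ℕ) : Set (MM H D → ℝ) :=
  {g | g 0 = 0 ∧ Lip ((1 / 2) ^ (m + 6)) g ∧ T.Dom m (2 ^ m) g}

/-- a sequence of measures whose signed sums are bounded in all seminorms -/
def Wuc (μ : ℕ → MM H D →₀ ℝ) (K : ℝ) : Prop :=
  ∀ m, ∀ g ∈ T.Gam m, ∀ (F : Finset ℕ) (s : ℕ → ℝ), (∀ k, s k = 1 ∨ s k = -1) →
    |∑ k ∈ F, s k * ev (μ k) g| ≤ K

end Dat

end Crest.Agent.R91
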