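import Crest.Agent.R91.Tools

/-! Ultrafilter combinatorics and strongly convergent sequences of functions. -/

set_option autoImplicit false

namespace Crest.Agent.R91

open Filter Topology Set
open scoped InnerProductSpace ZeroAtInfty ENNReal

theorem UU_le_atTop : (UU : Filter ℕ) ≤ atTop := by
  rw [← Nat.cofinite_eq_atTop]
  exact hyperfilter_le_cofinite

theorem exists_typ_finset {R : ℕ → ℕ → Prop} (hR : Typ R) (N : ℕ) :
    ∃ F : Finset ℕ, (∀ k ∈ F, ∀ l ∈ F, k < l → R k l) ∧ F.card = N := by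
  suffices h : ∃ F : Finset ℕ, (∀ k ∈ F, ∀ᶠ l in (UU : Filter ℕ), R k l) ∧
      (∀ k ∈ F, ∀ l ∈ F, k < l → R k l) ∧ F.card = N by
    obtain ⟨F, -, h⟩ := h
    exact ⟨F, h⟩
  induction N with
  | zero => exact ⟨∅, by simp, by simp, rfl⟩
  | succ N ih =>
    obtain ⟨F, h1, h2, h3⟩ := ih
    have e1 : ∀ᶠ l in (UU : Filter ℕ), ∀ k ∈ F, R k l := (eventually_all_finset F).2 h1
    have e2 : ∀ᶠ l in (UU : Filter ℕ), ∀ k ∈ F, k < l :=
      (eventually_all_finset F).2 fun k _ => UU_le_atTop (eventually_gt_atTop k)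
    obtain ⟨l, hl1, hl2, hl3⟩ := (e1.and (e2.and hR)).exists
    have hl : l ∉ F := fun h => lt_irrefl _ (hl2 l h)
    refine ⟨insert l F, ?_, ?_, by rw [Finset.card_insert_of_notMem hl, h3]⟩
    · intro k hk
      rcases Finset.mem_insert.1 hk with rfl | hk
      exacts [hl3, h1 k hk]
    · intro a ha b hb hab
      rcases Finset.mem_insert.1 ha with rfl | ha' <;> rcases Finset.mem_insert.1 hb with rfl | hb'
      · exact absurd hab (lt_irrefl _)
      · exact absurd hab (not_lt.2 (hl2 b hb').le)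
      · exact hl1 a ha'
      · exact h2 a ha' b hb' hab

instance : FF.NeBot := by
  refine forall_mem_nonempty_iff_neBot.1 ?_
  rintro A ⟨R, N, hR, h⟩
  obtain ⟨F, h1, h2⟩ := exists_typ_finset hR N
  exact ⟨F, h F h1 h2.ge⟩

theorem FF_pair {R : ℕ → ℕ → Prop} (hR : Typ R) :
    ∀ᶠ F in FF, ∀ k ∈ F, ∀ l ∈ F, k < l → R k l :=
  ⟨R, 0, hR, fun _ h _ => h⟩

theorem FF_card (N : ℕ) : ∀ᶠ F in FF, N ≤ F.card :=
  ⟨fun _ _ => True, N, by simp [Typ], fun _ _ h => h⟩

theorem FF_card_real (x : ℝ) : ∀ᶠ F in FF, x ≤ (F.card : ℝ) := by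
  filter_upwards [FF_card ⌈x⌉₊] with F hF
  exact (Nat.le_ceil x).trans (by exact_mod_cast hF)

theorem FF_mem {P : ℕ → Prop} (hP : ∀ᶠ k in (UU : Filter ℕ), P k) : ∀ᶠ F in FF, ∀ k ∈ F, P k := by
  have hR : Typ fun k l => P k ∧ P l := by
    filter_upwards [hP] with k hk
    filter_upwards [hP] with l hl
    exact ⟨hk, hl⟩
  filter_upwards [FF_pair hR, FF_card 2] with F h1 h2 k hk
  obtain ⟨l, hl, hlk⟩ := Finset.exists_mem_ne (show 1 < F.card by omega) k
  rcases lt_or_gt_of_ne hlk with h | h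
  · exact (h1 l hl k hk h).2
  · exact (h1 k hk l hl h).1

theorem tendsto_zero_of_FF {x : ℕ → ℝ}
    (h : ∀ δ : ℝ, 0 < δ → ∀ᶠ F in FF, ∑ k ∈ F, |x k| ≤ δ * F.card) :
    Tendsto x (UU : Filter ℕ) (𝓝 0) := by
  rw [Metric.tendsto_nhds]
  intro δ hδ
  by_contra hcon
  have h1 := Ultrafilter.eventually_not.2 hcon
  obtain ⟨F, h2, h3, h4⟩ := ((h (δ / 2) (by positivity)).and ((FF_mem h1).and (FF_card 1))).exists
  have h5 : (F.card : ℝ) * δ ≤ ∑ k ∈ F, |x k| := by
    have := Finset.card_nsmul_le_sum F (fun k => |x k|) δ fun k hk => by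
      simpa [Real.dist_eq] using h3 k hk
    simpa using this
  have h6 : (1 : ℝ) ≤ F.card := by exact_mod_cast h4
  nlinarith

theorem UU_const_of_finite {α : Type*} {x : ℕ → α} {s : Set α} (hs : s.Finite)
    (h : ∀ᶠ k in (UU : Filter ℕ), x k ∈ s) : ∃ a, ∀ᶠ k in (UU : Filter ℕ), x k = a := by
  have h1 : ∀ᶠ k in (UU : Filter ℕ), ∃ a ∈ s, x k = a := h.mono fun k hk => ⟨_, hk, rfl⟩
  obtain ⟨a, -, ha⟩ := (Ultrafilter.eventually_exists_mem_iff hs).1 h1
  exact ⟨a, ha⟩

theorem UU_nat (x : ℕ → ℕ) :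
    Tendsto x (UU : Filter ℕ) atTop ∨ ∃ a, ∀ᶠ k in (UU : Filter ℕ), x k = a := by
  by_cases h : Tendsto x (UU : Filter ℕ) atTop
  · exact Or.inl h
  · rw [tendsto_atTop] at h
    push Not at h
    obtain ⟨b, hb⟩ := h
    refine Or.inr (UU_const_of_finite (finite_Iio b) ?_)
    exact hb

theorem UU_int (x : ℕ → ℤ) : Tendsto x (UU : Filter ℕ) atBot ∨ Tendsto x (UU : Filter ℕ) atTop ∨
    ∃ a, ∀ᶠ k in (UU : Filter ℕ), x k = a := by
  by_cases h : Tendsto x (UU : Filter ℕ) atBot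
  · exact Or.inl h
  by_cases h' : Tendsto x (UU : Filter ℕ) atTop
  · exact Or.inr (Or.inl h')
  rw [tendsto_atBot] at h
  rw [tendsto_atTop] at h'
  push Not at h h'
  obtain ⟨a, ha⟩ := h
  obtain ⟨b, hb⟩ := h'
  refine Or.inr (Or.inr (UU_const_of_finite (finite_Ioo a b) ?_))
  filter_upwards [ha, hb] with k h1 h2
  exact ⟨h1, h2⟩

theorem UU_lim_real {x : ℕ → ℝ} {C : ℝ} (h : ∀ᶠ k in (UU : Filter ℕ), |x k| ≤ C) :
    ∃ a, |a| ≤ C ∧ Tendsto x (UU : Filter ℕ) (𝓝 a) := by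
  obtain ⟨a, ha, h'⟩ := (isCompact_Icc (a := -C) (b := C)).ultrafilter_le_nhds (UU.map x)
    (by
      rw [le_principal_iff]
      exact h.mono fun k hk => abs_le.1 hk)
  exact ⟨a, abs_le.2 ha, h'⟩

theorem UU_sep {X : Type*} [NormedAddCommGroup X] [CompleteSpace X] {x : ℕ → X}
    (h : ¬ ∃ a, Tendsto x (UU : Filter ℕ) (𝓝 a)) :
    ∃ η : ℝ, 0 < η ∧ ∀ y, ∀ᶠ l in (UU : Filter ℕ), η < ‖y - x l‖ := by
  by_contra hcon
  push Not at hcon
  refine h (cauchy_map_iff_exists_tendsto.1 ?_)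
  refine Metric.cauchy_iff.2 ⟨inferInstance, fun ε hε => ?_⟩
  obtain ⟨y, hy⟩ := hcon (ε / 3) (by positivity)
  refine ⟨{z | ‖y - z‖ ≤ ε / 3}, hy, fun a ha b hb => ?_⟩
  have h1 : ‖y - a‖ ≤ ε / 3 := ha
  have h2 : ‖y - b‖ ≤ ε / 3 := hb
  rw [dist_eq_norm]
  have := norm_sub_le_norm_sub_add_norm_sub a y b
  rw [norm_sub_rev a y] at this
  linarith

section SC

variable {M : Type*} [NormedAddCommGroup M] {s s' u u' : ℕ → M → ℝ} {C : ℝ}

theorem BL.nonneg {f : M → ℝ} (h : BL C f) : 0 ≤ C := (abs_nonneg _).trans (h.1 0)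

theorem SN.congr (h : SN s) (e : ∀ᶠ k in (UU : Filter ℕ), s' k = s k) : SN s' := by
  intro ε hε
  filter_upwards [h ε hε, FF_mem e] with F h1 h2
  refine ⟨fun w => ?_, fun w w' => ?_⟩
  · rw [Finset.sum_congr rfl fun k hk => by rw [h2 k hk]]
    exact h1.1 w
  · rw [Finset.sum_congr rfl fun k hk => by rw [h2 k hk]]
    exact h1.2 w w'

theorem SN.add (h : SN s) (h' : SN s') : SN (fun k w => s k w + s' k w) := by
  intro ε hε
  filter_upwards [h (ε / 2) (by positivity), h' (ε / 2) (by positivity)] with F h1 h2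
  refine ⟨fun w => ?_, fun w w' => ?_⟩
  · refine (Finset.sum_le_sum fun k _ => abs_add_le _ _).trans ?_
    rw [Finset.sum_add_distrib]
    linarith [h1.1 w, h2.1 w]
  · have e : ∀ k, s k w + s' k w - (s k w' + s' k w') = (s k w - s k w') + (s' k w - s' k w') :=
      fun k => by ring
    simp only [e]
    refine (Finset.sum_le_sum fun k _ => abs_add_le _ _).trans ?_
    rw [Finset.sum_add_distrib]
    linarith [h1.2 w w', h2.2 w w']

theorem SN.mul (h : SN s) (hu : ∀ᶠ k in (UU : Filter ℕ), BL C (u k)) :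
    SN (fun k w => s k w * u k w) := by
  intro ε hε
  have hC : 0 ≤ C := hu.exists.choose_spec.nonneg
  filter_upwards [h (ε / (2 * C + 1)) (by positivity), FF_mem hu] with F h1 h2
  have hle : ε / (2 * C + 1) * (2 * C) ≤ ε := by
    rw [div_mul_eq_mul_div, div_le_iff₀ (by positivity)]
    nlinarith
  have hc : (0 : ℝ) ≤ F.card := Nat.cast_nonneg _
  have hp : 0 ≤ ε / (2 * C + 1) := by positivity
  refine ⟨fun w => ?_, fun w w' => ?_⟩
  · have h3 : ∑ k ∈ F, |s k w * u k w| ≤ (∑ k ∈ F, |s k w|) * C := by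
      rw [Finset.sum_mul]
      refine Finset.sum_le_sum fun k hk => ?_
      rw [abs_mul]
      exact mul_le_mul_of_nonneg_left ((h2 k hk).1 w) (abs_nonneg _)
    have h4 := mul_le_mul_of_nonneg_right (h1.1 w) hC
    have h5 := mul_le_mul_of_nonneg_right hle hc
    have h6 : 0 ≤ ε / (2 * C + 1) * F.card * C := by positivity
    nlinarith
  · have h3 : ∑ k ∈ F, |s k w * u k w - s k w' * u k w'|
        ≤ (∑ k ∈ F, |s k w - s k w'|) * C + (∑ k ∈ F, |s k w'|) * (C * ‖w - w'‖) := by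
      rw [Finset.sum_mul, Finset.sum_mul, ← Finset.sum_add_distrib]
      refine Finset.sum_le_sum fun k hk => ?_
      have e : s k w * u k w - s k w' * u k w'
          = (s k w - s k w') * u k w + s k w' * (u k w - u k w') := by ring
      rw [e]
      refine (abs_add_le _ _).trans ?_
      rw [abs_mul, abs_mul]
      exact add_le_add (mul_le_mul_of_nonneg_left ((h2 k hk).1 w) (abs_nonneg _))
        (mul_le_mul_of_nonneg_left ((h2 k hk).2 w w') (abs_nonneg _))
    have h4 := mul_le_mul_of_nonneg_right (h1.2 w w') hC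
    have h5 := mul_le_mul_of_nonneg_right (h1.1 w') (show 0 ≤ C * ‖w - w'‖ by positivity)
    have h6 := mul_le_mul_of_nonneg_right hle (show 0 ≤ F.card * ‖w - w'‖ by positivity)
    nlinarith

theorem SN.tendsto (h : SN s) (w : M) : Tendsto (fun k => s k w) (UU : Filter ℕ) (𝓝 0) :=
  tendsto_zero_of_FF fun δ hδ => (h δ hδ).mono fun _ hF => hF.1 w

theorem SN.lip (h : SN s) {ε : ℝ} (hε : 0 < ε) : ∀ᶠ F in FF, ∀ σ : ℕ → ℝ,
    (∀ k, σ k = 1 ∨ σ k = -1) → Lip (ε * F.card) (fun w => ∑ k ∈ F, σ k * s k w) := by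
  filter_upwards [h ε hε] with F hF σ hσ w w'
  rw [← Finset.sum_sub_distrib]
  refine (Finset.abs_sum_le_sum_abs _ _).trans (le_trans (le_of_eq ?_) (hF.2 w w'))
  refine Finset.sum_congr rfl fun k _ => ?_
  rw [← mul_sub, abs_mul]
  rcases hσ k with h | h <;> simp [h]

theorem sn_zero : SN (fun (_ : ℕ) (_ : M) => (0 : ℝ)) := by
  intro ε hε
  refine Eventually.of_forall fun F => ⟨fun w => ?_, fun w w' => ?_⟩
  · simp only [abs_zero, Finset.sum_const_zero]; positivity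
  · simp only [sub_zero, abs_zero, Finset.sum_const_zero]; positivity

theorem BL.mono {f : M → ℝ} {C' : ℝ} (h : BL C f) (hC : C ≤ C') : BL C' f :=
  ⟨fun w => (h.1 w).trans hC, h.2.mono hC⟩

theorem BL.add {f g : M → ℝ} {C' : ℝ} (h : BL C f) (h' : BL C' g) :
    BL (C + C') (fun w => f w + g w) :=
  ⟨fun w => (abs_add_le _ _).trans (add_le_add (h.1 w) (h'.1 w)), h.2.add h'.2⟩

theorem BL.mul {f g : M → ℝ} {C' : ℝ} (h : BL C f) (h' : BL C' g) :
    BL (2 * (C * C')) (fun w => f w * g w) := by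
  have := h.nonneg
  have := h'.nonneg
  refine ⟨fun w => ?_, (h.2.mul h'.2 h.1 h'.1).mono (le_of_eq (by ring))⟩
  rw [abs_mul]
  have h1 := mul_le_mul (h.1 w) (h'.1 w) (abs_nonneg _) h.nonneg
  have h2 : 0 ≤ C * C' := by positivity
  linarith

theorem bl_const {c : ℝ} (h : |c| ≤ C) : BL C (fun _ : M => c) :=
  ⟨fun _ => h, fun w w' => by
    simpa using mul_nonneg ((abs_nonneg _).trans h) (norm_nonneg (w - w'))⟩

theorem SC.congr (h : SC u) (e : ∀ᶠ k in (UU : Filter ℕ), u' k = u k) : SC u' := by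
  obtain ⟨v, C, h1, h2, h3⟩ := h
  refine ⟨v, C, ?_, h2, h3.congr ?_⟩
  · filter_upwards [h1, e] with k h1 h2
    rwa [h2]
  · filter_upwards [e] with k hk
    rw [hk]

theorem SC.add (h : SC u) (h' : SC u') : SC (fun k w => u k w + u' k w) := by
  obtain ⟨v, C, h1, h2, h3⟩ := h
  obtain ⟨v', C', h1', h2', h3'⟩ := h'
  refine ⟨fun w => v w + v' w, C + C', ?_, h2.add h2', (h3.add h3').congr ?_⟩
  · filter_upwards [h1, h1'] with k a b
    exact a.add b
  · exact Eventually.of_forall fun k => funext fun w => by ring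

theorem SC.mul (h : SC u) (h' : SC u') : SC (fun k w => u k w * u' k w) := by
  obtain ⟨v, C, h1, h2, h3⟩ := h
  obtain ⟨v', C', h1', h2', h3'⟩ := h'
  refine ⟨fun w => v w * v' w, 2 * (C * C'), ?_, h2.mul h2',
    ((h3.mul h1').add (h3'.mul (u := fun _ => v) (Eventually.of_forall fun _ => h2))).congr ?_⟩
  · filter_upwards [h1, h1'] with k a b
    exact a.mul b
  · exact Eventually.of_forall fun k => funext fun w => by ring

theorem sc_fun {v : M → ℝ} (h : BL C v) : SC (fun _ : ℕ => v) :=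
  ⟨v, C, Eventually.of_forall fun _ => h, h,
    sn_zero.congr (Eventually.of_forall fun _ => funext fun w => by ring)⟩

theorem sc_seq {x : ℕ → ℝ} (h : ∀ᶠ k in (UU : Filter ℕ), |x k| ≤ C) :
    SC (fun k (_ : M) => x k) := by
  obtain ⟨a, ha, hlim⟩ := UU_lim_real h
  refine ⟨fun _ => a, C, h.mono fun k hk => bl_const hk, bl_const ha, fun ε hε => ?_⟩
  filter_upwards [FF_mem (Metric.tendsto_nhds.1 hlim ε hε)] with F hF
  refine ⟨fun w => ?_, fun w w' => ?_⟩
  · have := Finset.sum_le_card_nsmul F (fun k => |x k - a|) ε fun k hk => (hF k hk).le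
    rw [nsmul_eq_mul, mul_comm] at this
    exact this
  · simp only [sub_self, abs_zero, Finset.sum_const_zero]
    positivity

theorem SC.sub (h : SC u) (h' : SC u') : SC (fun k w => u k w - u' k w) :=
  (h.add ((sc_fun (bl_const (c := -1) (C := 1) (by simp))).mul h')).congr
    (Eventually.of_forall fun k => funext fun w => by ring)

theorem SC.sum {ι : Type*} (F : Finset ι) {U : ι → ℕ → M → ℝ} (h : ∀ i ∈ F, SC (U i)) :
    SC (fun k w => ∑ i ∈ F, U i k w) := by
  classical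
  induction F using Finset.induction_on with
  | empty => simpa using sc_fun (bl_const (M := M) (c := 0) (C := 0) (by simp))
  | insert a F ha ih =>
    simp only [Finset.sum_insert ha]
    exact (h a (Finset.mem_insert_self _ _)).add (ih fun i hi => h i (Finset.mem_insert_of_mem hi))

theorem SC.comp (h : SC u) {ψ : ℝ → ℝ} {A : ℝ} (h0 : ∀ x, |ψ x| ≤ 1)
    (h1 : ∀ x y, |ψ x - ψ y| ≤ A * |x - y|)
    (h2 : ∀ x x' δ, |(ψ (x + δ) - ψ x) - (ψ (x' + δ) - ψ x')| ≤ A * |δ| * |x - x'|) :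
    SC (fun k w => ψ (u k w)) := by
  obtain ⟨v, C, g1, g2, g3⟩ := h
  have hC := g2.nonneg
  have hA : 0 ≤ A := by simpa using (abs_nonneg _).trans (h1 1 0)
  have hbl : ∀ f : M → ℝ, BL C f → BL (1 + A * C) (fun w => ψ (f w)) := by
    intro f hf
    refine ⟨fun w => (h0 _).trans (by nlinarith), fun w w' => (h1 _ _).trans ?_⟩
    have := mul_le_mul_of_nonneg_left (hf.2 w w') hA
    nlinarith [norm_nonneg (w - w')]
  refine ⟨fun w => ψ (v w), 1 + A * C, g1.mono fun k hk => hbl _ hk, hbl _ g2, fun ε hε => ?_⟩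
  filter_upwards [g3 (ε / (A + A * C + 1)) (by positivity)] with F hF
  have hle : ε / (A + A * C + 1) * (A + A * C) ≤ ε := by
    rw [div_mul_eq_mul_div, div_le_iff₀ (by positivity)]
    nlinarith
  have hc : (0 : ℝ) ≤ F.card := Nat.cast_nonneg _
  have hp : 0 ≤ ε / (A + A * C + 1) := by positivity
  refine ⟨fun w => ?_, fun w w' => ?_⟩
  · have h3 : ∑ k ∈ F, |ψ (u k w) - ψ (v w)| ≤ A * ∑ k ∈ F, |u k w - v w| := by
      rw [Finset.mul_sum]
      exact Finset.sum_le_sum fun k _ => h1 _ _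
    have h4 := mul_le_mul_of_nonneg_left (hF.1 w) hA
    have h5 := mul_le_mul_of_nonneg_right hle hc
    have h6 : 0 ≤ ε / (A + A * C + 1) * F.card * (A * C) := by positivity
    nlinarith
  · have h3 : ∑ k ∈ F, |ψ (u k w) - ψ (v w) - (ψ (u k w') - ψ (v w'))|
        ≤ A * (∑ k ∈ F, |u k w - v w - (u k w' - v w')|)
          + (∑ k ∈ F, |u k w' - v w'|) * (A * C * ‖w - w'‖) := by
      rw [Finset.mul_sum, Finset.sum_mul, ← Finset.sum_add_distrib]
      refine Finset.sum_le_sum fun k _ => ?_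
      have a1 := h1 (u k w) (v w + (u k w' - v w'))
      have a2 := h2 (v w) (v w') (u k w' - v w')
      have a3 := mul_le_mul_of_nonneg_left (g2.2 w w')
        (show 0 ≤ A * |u k w' - v w'| by positivity)
      have e1 : v w' + (u k w' - v w') = u k w' := by ring
      have e2 : u k w - (v w + (u k w' - v w')) = u k w - v w - (u k w' - v w') := by ring
      rw [e1] at a2
      rw [e2] at a1
      have e3 : ψ (u k w) - ψ (v w) - (ψ (u k w') - ψ (v w'))
          = (ψ (u k w) - ψ (v w + (u k w' - v w')))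
            + (ψ (v w + (u k w' - v w')) - ψ (v w) - (ψ (u k w') - ψ (v w'))) := by ring
      rw [e3]
      refine (abs_add_le _ _).trans ?_
      nlinarith
    have h4 := mul_le_mul_of_nonneg_left (hF.2 w w') hA
    have h5 := mul_le_mul_of_nonneg_right (hF.1 w') (show 0 ≤ A * C * ‖w - w'‖ by positivity)
    have h6 := mul_le_mul_of_nonneg_right hle (show 0 ≤ F.card * ‖w - w'‖ by positivity)
    nlinarith

theorem exists_weak_lim {H : Type*} [NormedAddCommGroup H] [InnerProductSpace ℝ H]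
    [CompleteSpace H] {ξ : ℕ → H} (h : ∀ᶠ k in (UU : Filter ℕ), ‖ξ k‖ ≤ 1) :
    ∃ a : H, ‖a‖ ≤ 1 ∧ ∀ y, Tendsto (fun k => ⟪ξ k, y⟫_ℝ) (UU : Filter ℕ) (𝓝 ⟪a, y⟫_ℝ) := by
  have hb : ∀ y, ∀ᶠ k in (UU : Filter ℕ), |⟪ξ k, y⟫_ℝ| ≤ ‖y‖ := fun y => h.mono fun k hk =>
    (abs_real_inner_le_norm _ _).trans (by nlinarith [norm_nonneg y])
  choose φ hφ1 hφ2 using fun y => UU_lim_real (hb y)
  let L : H →ₗ[ℝ] ℝ :=
    { toFun := φ
      map_add' := fun y y' => tendsto_nhds_unique (hφ2 (y + y'))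
        (by simpa only [inner_add_right] using (hφ2 y).add (hφ2 y'))
      map_smul' := fun c y => tendsto_nhds_unique (hφ2 (c • y))
        (by simpa only [inner_smul_right, RingHom.id_apply, smul_eq_mul]
          using (hφ2 y).const_mul c) }
  let L' : H →L[ℝ] ℝ := L.mkContinuous 1 fun y => by simpa [L] using hφ1 y
  refine ⟨(InnerProductSpace.toDual ℝ H).symm L', ?_, fun y => ?_⟩
  · rw [LinearIsometryEquiv.norm_map]
    exact LinearMap.mkContinuous_norm_le _ zero_le_one _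
  · rw [InnerProductSpace.toDual_symm_apply]
    exact hφ2 y

theorem sc_inner {H : Type*} [NormedAddCommGroup H] [InnerProductSpace ℝ H] [CompleteSpace H]
    {ξ : ℕ → H} (h : ∀ᶠ k in (UU : Filter ℕ), ‖ξ k‖ ≤ 1) {Θ : M → H} (hC : 0 ≤ C)
    (h1 : ∀ w, ‖Θ w‖ ≤ C) (h2 : ∀ w w', ‖Θ w - Θ w'‖ ≤ C * ‖w - w'‖) :
    SC (fun k w => ⟪ξ k, Θ w⟫_ℝ) := by
  obtain ⟨a, ha, hlim⟩ := exists_weak_lim h
  have hbl : ∀ x : H, ‖x‖ ≤ 1 → BL C (fun w => ⟪x, Θ w⟫_ℝ) := by
    intro x hx
    refine ⟨fun w => (abs_real_inner_le_norm _ _).trans ?_, fun w w' => ?_⟩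
    · nlinarith [h1 w, norm_nonneg (Θ w), norm_nonneg x]
    · rw [← inner_sub_right]
      refine (abs_real_inner_le_norm _ _).trans ?_
      nlinarith [h2 w w', norm_nonneg (Θ w - Θ w'), norm_nonneg x]
  refine ⟨fun w => ⟪a, Θ w⟫_ℝ, C, h.mono fun k hk => hbl _ hk, hbl _ ha, fun ε hε => ?_⟩
  set η := ε / (C + 1) with hη
  have hη0 : 0 < η := by positivity
  have hηC : η * C ≤ ε := by
    rw [hη, div_mul_eq_mul_div, div_le_iff₀ (by positivity)]
    nlinarith
  have hR : Typ fun k l => |⟪ξ l - a, ξ k - a⟫_ℝ| ≤ η ^ 2 / 2 := by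
    refine Eventually.of_forall fun k => ?_
    have := Metric.tendsto_nhds.1 (hlim (ξ k - a)) (η ^ 2 / 2) (by positivity)
    filter_upwards [this] with l hl
    rw [inner_sub_left]
    exact hl.le
  filter_upwards [FF_pair hR, FF_mem h, FF_card_real (8 / η ^ 2)] with F g1 g2 g3
  have key : ∀ y : H, ∑ k ∈ F, |⟪ξ k - a, y⟫_ℝ| ≤ η * F.card * ‖y‖ := by
    intro y
    let σ : ℕ → ℝ := fun k => if 0 ≤ ⟪ξ k - a, y⟫_ℝ then 1 else -1
    have hσ : ∀ k, |σ k| = 1 := fun k => by simp only [σ]; split_ifs <;> simp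
    have e1 : ∑ k ∈ F, |⟪ξ k - a, y⟫_ℝ| = ⟪∑ k ∈ F, σ k • (ξ k - a), y⟫_ℝ := by
      rw [sum_inner]
      refine Finset.sum_congr rfl fun k _ => ?_
      rw [real_inner_smul_left]
      simp only [σ]
      split_ifs with hk
      · rw [abs_of_nonneg hk, one_mul]
      · rw [abs_of_neg (not_le.1 hk)]; ring
    have e2 := norm_sum_sq_le F (fun k => σ k • (ξ k - a)) (B := 2) (κ := η ^ 2 / 2)
      (by positivity)
      (fun k hk => by
        rw [norm_smul, Real.norm_eq_abs, hσ, one_mul]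
        linarith [norm_sub_le (ξ k) a, g2 k hk])
      (fun k hk l hl hkl => by
        rw [real_inner_smul_left, real_inner_smul_right, abs_mul, abs_mul, hσ, hσ, one_mul,
          one_mul]
        rcases lt_or_gt_of_ne hkl with h | h
        · rw [real_inner_comm]; exact g1 k hk l hl h
        · exact g1 l hl k hk h)
    have hc : (0 : ℝ) ≤ F.card := Nat.cast_nonneg _
    have e3 : ‖∑ k ∈ F, σ k • (ξ k - a)‖ ≤ η * F.card := by
      refine (pow_le_pow_iff_left₀ (norm_nonneg _) (by positivity) two_ne_zero).1 (e2.trans ?_)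
      rw [div_le_iff₀ (by positivity)] at g3
      nlinarith
    rw [e1]
    exact (real_inner_le_norm _ _).trans (mul_le_mul_of_nonneg_right e3 (norm_nonneg _))
  have hc : (0 : ℝ) ≤ F.card := Nat.cast_nonneg _
  refine ⟨fun w => ?_, fun w w' => ?_⟩
  · simp only [← inner_sub_left]
    refine (key _).trans ?_
    have a1 := mul_le_mul_of_nonneg_left (h1 w) (show 0 ≤ η * F.card by positivity)
    have a2 := mul_le_mul_of_nonneg_right hηC hc
    nlinarith
  · simp only [← inner_sub_left, ← inner_sub_right]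
    refine (key _).trans ?_
    have a1 := mul_le_mul_of_nonneg_left (h2 w w') (show 0 ≤ η * F.card by positivity)
    have a2 := mul_le_mul_of_nonneg_right hηC (show 0 ≤ F.card * ‖w - w'‖ by positivity)
    nlinarith

end SC

end Crest.Agent.R91
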