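import Crest.Agent.R91.Defs

/-! Existence of the Hilbert space data. -/

set_option autoImplicit false

namespace Crest.Agent.R91

open Filter Topology Set
open scoped InnerProductSpace ZeroAtInfty ENNReal

/-- real `ℓ₂` -/
abbrev L2 : Type := lp (fun _ : ℕ => ℝ) 2

theorem separable_lp2 (X : Type) [NormedAddCommGroup X] [TopologicalSpace.SeparableSpace X] :
    TopologicalSpace.SeparableSpace (lp (fun _ : ℕ => X) 2) := by
  rw [← TopologicalSpace.isSeparable_univ_iff]
  let T : ℕ → (ℕ → X) → lp (fun _ : ℕ => X) 2 := fun n β =>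
    ∑ i ∈ Finset.range n, lp.single (E := fun _ : ℕ => X) 2 i (β i)
  have hT : ∀ n, Continuous (T n) := by
    intro n
    refine continuous_finset_sum _ fun i _ => ?_
    exact (lp.isometry_single (E := fun _ : ℕ => X) (p := 2) i).continuous.comp
      (continuous_apply i)
  have h1 : TopologicalSpace.IsSeparable (⋃ n, range (T n)) :=
    TopologicalSpace.isSeparable_iUnion.2 fun n => TopologicalSpace.isSeparable_range (hT n)
  refine h1.closure.mono fun f _ => ?_
  have h2 := (lp.hasSum_single (E := fun _ : ℕ => X) (p := 2) (by norm_num) f).tendsto_sum_nat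
  refine mem_closure_of_tendsto h2 (Eventually.of_forall fun n => ?_)
  exact mem_iUnion.2 ⟨n, ⟨fun i => f i, rfl⟩⟩

/-- the span of the `lp.single`s is dense (`lp.hasSum_single`) -/
theorem separable_L2 : TopologicalSpace.SeparableSpace L2 :=
  separable_lp2 ℝ

/-- the finitely supported sequences (`ofFun`) with values in a countable dense set are dense -/
theorem separable_c0 (X : Type) [NormedAddCommGroup X] [TopologicalSpace.SeparableSpace X] :
    TopologicalSpace.SeparableSpace C₀(ℕ, X) := by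
  rw [← TopologicalSpace.isSeparable_univ_iff]
  have hdist : ∀ (f g : C₀(ℕ, X)) (ε : ℝ), 0 ≤ ε → (∀ i, dist (f i) (g i) ≤ ε) → dist f g ≤ ε := by
    intro f g ε hε h
    rw [← ZeroAtInftyContinuousMap.dist_toBCF_eq_dist]
    exact (BoundedContinuousFunction.dist_le hε).2 h
  have hT : ∀ n, Continuous (fun β : ℕ → X => ofFun n β) := by
    intro n
    rw [continuous_iff_continuousAt]
    intro β
    rw [ContinuousAt, Metric.tendsto_nhds]
    intro ε hε
    have h1 : ∀ᶠ β' in 𝓝 β, ∀ i ∈ Finset.range n, dist (β' i) (β i) < ε / 2 := by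
      rw [eventually_all_finset]
      intro i _
      exact Metric.tendsto_nhds.1 ((continuous_apply i).tendsto β) _ (by positivity)
    filter_upwards [h1] with β' h
    refine lt_of_le_of_lt (hdist _ _ (ε / 2) (by positivity) fun i => ?_) (by linarith)
    change dist (if i < n then β' i else 0) (if i < n then β i else 0) ≤ ε / 2
    split_ifs with hi
    · exact (h i (Finset.mem_range.2 hi)).le
    · simp; positivity
  have h1 : TopologicalSpace.IsSeparable (⋃ n, range (fun β : ℕ → X => ofFun n β)) :=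
    TopologicalSpace.isSeparable_iUnion.2 fun n => TopologicalSpace.isSeparable_range (hT n)
  refine h1.closure.mono fun f _ => ?_
  rw [Metric.mem_closure_iff]
  intro ε hε
  have h2 : Tendsto (fun i => f i) atTop (𝓝 0) := by
    have := f.zero_at_infty'
    rwa [cocompact_eq_cofinite, Nat.cofinite_eq_atTop] at this
  obtain ⟨n, hn⟩ := eventually_atTop.1 (Metric.tendsto_nhds.1 h2 (ε / 2) (by positivity))
  refine ⟨ofFun n (fun i => f i), mem_iUnion.2 ⟨n, ⟨_, rfl⟩⟩, ?_⟩
  refine lt_of_le_of_lt (hdist _ _ (ε / 2) (by positivity) fun i => ?_) (by linarith)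
  change dist (f i) (if i < n then f i else 0) ≤ ε / 2
  split_ifs with hi
  · simp; positivity
  · exact (hn i (not_lt.1 hi)).le

/-- a complete separable inner product space with an orthonormal sequence is `ℓ₂` -/
theorem exists_iso_L2 (W : Type) [NormedAddCommGroup W] [InnerProductSpace ℝ W] [CompleteSpace W]
    [TopologicalSpace.SeparableSpace W] (v : ℕ → W) (hv : Orthonormal ℝ v) :
    Nonempty (W ≃ₗᵢ[ℝ] L2) := by
  obtain ⟨w, b, hw, hb⟩ := hv.toSubtypeRange.exists_hilbertBasis_extension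
  have hbo : Orthonormal ℝ b := b.orthonormal
  have hc : Countable w := by
    refine Pairwise.countable_of_isOpen_disjoint (s := fun i : w => Metric.ball (b i) (1 / 2))
      ?_ (fun _ => Metric.isOpen_ball) (fun i => Metric.nonempty_ball.2 (by norm_num))
    intro i j hij
    refine Metric.ball_disjoint_ball ?_
    have h1 : ‖b i - b j‖ ^ 2 = 2 := by
      rw [norm_sub_sq_real, hbo.1 i, hbo.1 j, hbo.2 hij]; norm_num
    rw [dist_eq_norm]
    nlinarith [norm_nonneg (b i - b j)]
  have hi : Infinite w := by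
    have : (range v).Infinite := infinite_range_of_injective hv.linearIndependent.injective
    exact (this.mono hw).to_subtype
  obtain ⟨e⟩ : Nonempty (ℕ ≃ w) := nonempty_equiv_of_countable
  have h1 : Orthonormal ℝ (b ∘ e) := hbo.comp e e.injective
  have h2 : ⊤ ≤ (Submodule.span ℝ (range (b ∘ e))).topologicalClosure := by
    rw [e.surjective.range_comp, b.dense_span]
  exact ⟨(HilbertBasis.mk h1 h2).repr⟩

theorem orth_single : Orthonormal ℝ (fun i : ℕ => (lp.single 2 i (1 : ℝ) : L2)) := by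
  rw [orthonormal_iff_ite]
  intro i j
  rw [lp.inner_single_left]
  by_cases h : i = j
  · subst h; simp
  · simp [h, lp.single_apply, Pi.single_eq_of_ne h]

theorem exists_J (D : Type) [NormedAddCommGroup D] [InnerProductSpace ℝ D] [CompleteSpace D]
    [TopologicalSpace.SeparableSpace D] : Nonempty (WithLp 2 (L2 × D) ≃ₗᵢ[ℝ] L2) := by
  haveI := separable_L2
  haveI : SecondCountableTopology L2 := UniformSpace.secondCountable_of_separable L2
  haveI : SecondCountableTopology D := UniformSpace.secondCountable_of_separable D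
  refine exists_iso_L2 _ (fun i : ℕ => WithLp.toLp 2 ((lp.single 2 i (1 : ℝ) : L2), (0 : D))) ?_
  rw [orthonormal_iff_ite]
  intro i j
  have := orthonormal_iff_ite.1 orth_single i j
  simpa [WithLp.prod_inner_apply] using this

/-- every complete separable inner product space embeds in `ℓ₂` -/
theorem exists_emb (W : Type) [NormedAddCommGroup W] [InnerProductSpace ℝ W] [CompleteSpace W]
    [TopologicalSpace.SeparableSpace W] :
    ∃ ι : W →L[ℝ] L2, ∀ x y, ⟪ι x, ι y⟫_ℝ = ⟪x, y⟫_ℝ := by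
  obtain ⟨J⟩ := exists_J W
  refine ⟨(J.toContinuousLinearEquiv : WithLp 2 (L2 × W) →L[ℝ] L2).comp
    (((WithLp.prodContinuousLinearEquiv 2 ℝ L2 W).symm : (L2 × W) →L[ℝ] WithLp 2 (L2 × W)).comp
      (ContinuousLinearMap.inr ℝ L2 W)), fun x y => ?_⟩
  simp [WithLp.prod_inner_apply]

/-- `ℓ₂(ℓ₂)` -/
abbrev LL : Type := lp (fun _ : ℕ => L2) 2

theorem memLL {f : ℕ → L2} (h : Summable fun n => ‖f n‖ ^ 2) :
    Memℓp (E := fun _ : ℕ => L2) f 2 := by
  apply memℓp_gen
  simpa using h

theorem summable_sq (h : L2) : Summable fun n => h n ^ 2 := by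
  have := (lp.memℓp h).summable (by norm_num)
  simpa using this

/-- the tensor product, in `ℓ₂(ℓ₂)` -/
noncomputable def tens (ξ h : L2) : LL :=
  ⟨fun i => h i • ξ, memLL (by
    have := (summable_sq h).mul_right (‖ξ‖ ^ 2)
    refine this.congr fun i => ?_
    rw [norm_smul, mul_pow, Real.norm_eq_abs, sq_abs])⟩

theorem tens_apply (ξ h : L2) (i : ℕ) : tens ξ h i = h i • ξ := rfl

theorem inner_tens (ξ η h g : L2) : ⟪tens ξ h, tens η g⟫_ℝ = ⟪ξ, η⟫_ℝ * ⟪h, g⟫_ℝ := by
  rw [lp.inner_eq_tsum, lp.inner_eq_tsum h g, ← tsum_mul_left]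
  refine tsum_congr fun i => ?_
  rw [tens_apply, tens_apply, real_inner_smul_left, real_inner_smul_right]
  simp only [RCLike.inner_apply, conj_trivial]
  ring

theorem exists_V : ∃ V : L2 →L[ℝ] L2 →L[ℝ] L2,
    ∀ ξ η h g, ⟪V ξ h, V η g⟫_ℝ = ⟪ξ, η⟫_ℝ * ⟪h, g⟫_ℝ := by
  haveI := separable_L2
  haveI : TopologicalSpace.SeparableSpace LL := separable_lp2 L2
  obtain ⟨ι, hι⟩ := exists_emb LL
  let T : L2 →ₗ[ℝ] L2 →ₗ[ℝ] L2 := LinearMap.mk₂ ℝ (fun ξ h => ι (tens ξ h))
    (fun a b h => by
      rw [← map_add]; congr 1; ext1; funext i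
      simp only [lp.coeFn_add, Pi.add_apply, tens_apply, smul_add])
    (fun c a h => by
      rw [← map_smul]; congr 1; ext1; funext i
      simp only [lp.coeFn_smul, Pi.smul_apply, tens_apply]; rw [smul_comm])
    (fun a h g => by
      rw [← map_add]; congr 1; ext1; funext i
      simp only [lp.coeFn_add, Pi.add_apply, tens_apply, add_smul])
    (fun c a h => by
      rw [← map_smul]; congr 1; ext1; funext i
      simp only [lp.coeFn_smul, Pi.smul_apply, tens_apply, smul_eq_mul, mul_smul])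
  have hT : ∀ ξ η h g, ⟪T ξ h, T η g⟫_ℝ = ⟪ξ, η⟫_ℝ * ⟪h, g⟫_ℝ := by
    intro ξ η h g
    change ⟪ι (tens ξ h), ι (tens η g)⟫_ℝ = _
    rw [hι, inner_tens]
  refine ⟨T.mkContinuous₂ 1 fun ξ h => ?_, fun ξ η h g => hT ξ η h g⟩
  have h1 := hT ξ ξ h h
  rw [real_inner_self_eq_norm_sq, real_inner_self_eq_norm_sq, real_inner_self_eq_norm_sq,
    ← mul_pow] at h1
  rw [one_mul]
  exact le_of_eq ((pow_left_inj₀ (norm_nonneg _) (by positivity) two_ne_zero).1 h1)

/-- tensor powers -/
noncomputable def tpow (V : L2 →L[ℝ] L2 →L[ℝ] L2) (a : L2) : ℕ → L2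
  | 0 => lp.single 2 0 1
  | n + 1 => V a (tpow V a n)

theorem inner_tpow {V : L2 →L[ℝ] L2 →L[ℝ] L2}
    (hV : ∀ ξ η h g, ⟪V ξ h, V η g⟫_ℝ = ⟪ξ, η⟫_ℝ * ⟪h, g⟫_ℝ) (a b : L2) (n : ℕ) :
    ⟪tpow V a n, tpow V b n⟫_ℝ = ⟪a, b⟫_ℝ ^ n := by
  induction n with
  | zero => simpa [tpow] using orthonormal_iff_ite.1 orth_single 0 0
  | succ n ih => rw [tpow, tpow, hV, ih, pow_succ']

theorem exists_gamma : ∃ γ : L2 → L2, ∀ a b, ⟪γ a, γ b⟫_ℝ = Real.exp (-‖a - b‖ ^ 2) := by
  haveI := separable_L2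
  haveI : TopologicalSpace.SeparableSpace LL := separable_lp2 L2
  obtain ⟨ι, hι⟩ := exists_emb LL
  obtain ⟨V, hV⟩ := exists_V
  let c : L2 → ℕ → L2 := fun a n =>
    (Real.exp (-‖a‖ ^ 2) * Real.sqrt (2 ^ n / n.factorial)) • tpow V a n
  have hc : ∀ a b n, ⟪c a n, c b n⟫_ℝ =
      Real.exp (-‖a‖ ^ 2) * Real.exp (-‖b‖ ^ 2) * ((2 * ⟪a, b⟫_ℝ) ^ n / n.factorial) := by
    intro a b n
    have h0 : Real.sqrt (2 ^ n / n.factorial) * Real.sqrt (2 ^ n / n.factorial)
        = 2 ^ n / n.factorial := Real.mul_self_sqrt (by positivity)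
    simp only [c]
    rw [real_inner_smul_left, real_inner_smul_right, inner_tpow hV, mul_pow]
    calc _ = Real.exp (-‖a‖ ^ 2) * Real.exp (-‖b‖ ^ 2) * ((Real.sqrt (2 ^ n / n.factorial) *
          Real.sqrt (2 ^ n / n.factorial)) * ⟪a, b⟫_ℝ ^ n) := by ring
      _ = _ := by rw [h0]; ring
  have hsum : ∀ x : ℝ, HasSum (fun n : ℕ => x ^ n / n.factorial) (Real.exp x) := by
    intro x
    rw [Real.exp_eq_exp_ℝ]
    exact NormedSpace.expSeries_div_hasSum_exp x
  have hmem : ∀ a, Memℓp (E := fun _ : ℕ => L2) (c a) 2 := by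
    intro a
    refine memLL ?_
    refine ((hsum (2 * ⟪a, a⟫_ℝ)).summable.mul_left
      (Real.exp (-‖a‖ ^ 2) * Real.exp (-‖a‖ ^ 2))).congr fun n => ?_
    rw [← hc, real_inner_self_eq_norm_sq]
  refine ⟨fun a => ι ⟨c a, hmem a⟩, fun a b => ?_⟩
  rw [hι, lp.inner_eq_tsum]
  change ∑' n, ⟪c a n, c b n⟫_ℝ = _
  simp only [hc]
  rw [tsum_mul_left, (hsum _).tsum_eq, ← Real.exp_add, ← Real.exp_add, norm_sub_sq_real]
  congr 1
  ring

/-- Suggested route.  (a) a complete separable real inner product space `W` containing an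
orthonormal sequence is `≃ₗᵢ L2` (`Orthonormal.exists_hilbertBasis_extension`, the basis is
countable because its points are at distance `√2`, reindex by `ℕ` with `HilbertBasis.mk`, use
`HilbertBasis.repr`).  This gives `J` (with `W = WithLp 2 (L2 × D)`), and (b) every complete
separable `W` has a linear isometry into `L2` (through `WithLp 2 (L2 × W)`).
(c) `V ξ h = ι (ξ ⊗ₜ h)` with `ι` from (b) for the completion of `L2 ⊗[ℝ] L2`
(`Mathlib/Analysis/InnerProductSpace/TensorProduct.lean`), or `(V ξ h) i = h i • ξ` in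
`lp (fun _ : ℕ => L2) 2`.  (d) `γ a = ι (RKHS.kerFun (RKHS.OfKernel K) a 1)` for the kernel
`K a b = exp (-‖a - b‖²) • id` (`Mathlib/Analysis/InnerProductSpace/Reproducing.lean`); it is
positive semidefinite since `exp (-‖a-b‖²) = exp (-‖a‖²) exp (-‖b‖²) ∑ (2⟪a,b⟫)^n / n!` and
`Matrix.PosSemidef.hadamard`; the closed span of the (continuous) image of `L2` is separable.
(e) `e j = lp.single 2 (Encodable.encode j) 1`. -/
theorem exists_dat (D : Type) [NormedAddCommGroup D] [InnerProductSpace ℝ D] [CompleteSpace D]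
    [TopologicalSpace.SeparableSpace D] : Nonempty (Dat L2 D) := by
  obtain ⟨J⟩ := exists_J D
  obtain ⟨V, hV⟩ := exists_V
  obtain ⟨γ, hγ⟩ := exists_gamma
  exact ⟨⟨J, V, hV, γ, hγ, fun j => lp.single 2 (Encodable.encode j) 1,
    orth_single.comp _ Encodable.encode_injective⟩⟩

end Crest.Agent.R91
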