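import Crest.Agent.R91.Space
import Crest.Agent.R91.Hilb

/-! Assembly of the two statements. -/

set_option autoImplicit false

namespace Crest.Agent.R91

open Filter Topology Set
open scoped InnerProductSpace ZeroAtInfty ENNReal

theorem final0 :
    ∃ (X : Type) (_ : NormedAddCommGroup X) (_ : NormedSpace ℝ X)
      (Y : Type) (_ : NormedAddCommGroup Y) (_ : NormedSpace ℝ Y),
      CompleteSpace X ∧ TopologicalSpace.SeparableSpace X ∧
      CompleteSpace Y ∧ TopologicalSpace.SeparableSpace Y ∧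
      (∃ Ψ : X → Y, Function.Bijective Ψ ∧
        ∀ s t : X, (4 / 21 : ℝ) * ‖s - t‖ ≤ ‖Ψ s - Ψ t‖ ∧ ‖Ψ s - Ψ t‖ ≤ (76 / 25 : ℝ) * ‖s - t‖) ∧
      Nonempty (ZeroAtInftyContinuousMap ℕ (lp (fun _ : ℕ => ℝ) 2) →ₗᵢ[ℝ] X) ∧
      (∀ S : Submodule ℝ Y, IsClosed (S : Set Y) →
        IsEmpty (S ≃L[ℝ] ZeroAtInftyContinuousMap ℕ (lp (fun _ : ℕ => ℝ) 2))) ∧
      IsEmpty (X ≃L[ℝ] Y) := by
  have := separable_L2
  obtain ⟨T⟩ := exists_dat L2
  have hsep : TopologicalSpace.SeparableSpace (MM L2 L2) := separable_c0 _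
  have hZ := T.separable_ZZ
  have hnt : Nontrivial L2 := by
    refine nontrivial_of_ne (T.e 0) 0 fun h => ?_
    have := T.orth.1 0
    rw [h, norm_zero] at this
    exact zero_ne_one this
  have hinj : Function.Injective T.Psi := by
    intro s t h
    have := T.le_norm_Psi_sub s t
    rw [h, sub_self, norm_zero, mul_zero] at this
    exact sub_eq_zero.1 (norm_le_zero_iff.1 this)
  obtain ⟨ι⟩ := T.exists_isometry
  refine ⟨T.XS, inferInstance, inferInstance, T.ZZ, inferInstance, inferInstance, T.complete_XS,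
    ?_, inferInstance, hZ, ⟨T.Psi, ⟨hinj, T.Psi_surjective⟩, fun s t => ⟨?_, ?_⟩⟩, ⟨ι⟩,
    fun S _ => T.no_c0 L2 S, ⟨fun e => ?_⟩⟩
  · let e := Equiv.ofBijective T.Psi ⟨hinj, T.Psi_surjective⟩
    have hl : LipschitzWith 4 e.symm := by
      refine LipschitzWith.of_dist_le_mul fun y y' => ?_
      have := T.le_norm_Psi_sub (e.symm y) (e.symm y')
      have h1 : ∀ y, T.Psi (e.symm y) = y := e.apply_symm_apply
      rw [h1, h1] at this
      rw [dist_eq_norm y y', dist_eq_norm (e.symm y) (e.symm y')]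
      exact_mod_cast this
    exact e.symm.surjective.denseRange.separableSpace hl.continuous
  · have h1 := T.le_norm_Psi_sub s t
    have h2 := norm_nonneg (s - t)
    linarith
  · have h1 := T.norm_Psi_sub_le s t
    have h2 := norm_nonneg (s - t)
    linarith
  · let f : C₀(ℕ, L2) →L[ℝ] T.ZZ := (e : T.XS →L[ℝ] T.ZZ).comp ι.toContinuousLinearMap
    have hf : IsEmbedding f := e.toHomeomorph.isEmbedding.comp ι.isometry.isEmbedding
    let e1 := LinearEquiv.ofInjective (f : C₀(ℕ, L2) →ₗ[ℝ] T.ZZ) hf.injective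
    have c1 : Continuous e1 := f.continuous.subtype_mk _
    have c2 : Continuous e1.symm := by
      rw [hf.continuous_iff]
      have : (f ∘ e1.symm) = Subtype.val := by
        funext y
        exact congrArg Subtype.val (e1.apply_symm_apply y)
      rw [this]
      exact continuous_subtype_val
    exact (T.no_c0 L2 _).false (ContinuousLinearEquiv.mk e1 c1 c2).symm

theorem final1 :
    ∃ (Z : Type) (_ : NormedAddCommGroup Z) (_ : NormedSpace ℝ Z),
      CompleteSpace Z ∧ TopologicalSpace.SeparableSpace Z ∧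
      (∀ S : Submodule ℝ Z, IsClosed (S : Set Z) →
        IsEmpty (S ≃L[ℝ] ZeroAtInftyContinuousMap ℕ ℝ)) ∧
      ∃ F : Z × ZeroAtInftyContinuousMap ℕ ℝ → Z, Function.Surjective F ∧
        ∃ c C : ℝ, 0 < c ∧
          ∀ u v : Z × ZeroAtInftyContinuousMap ℕ ℝ,
            c * ‖u - v‖ ≤ ‖F u - F v‖ ∧ ‖F u - F v‖ ≤ C * ‖u - v‖ := by
  have := separable_L2
  obtain ⟨T⟩ := exists_dat ℝ
  have hsep : TopologicalSpace.SeparableSpace (MM L2 ℝ) := separable_c0 _
  obtain ⟨G, hG, hG'⟩ := T.exists_prod_map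
  refine ⟨T.ZZ, inferInstance, inferInstance, inferInstance, T.separable_ZZ,
    fun S _ => T.no_c0 ℝ S, T.Psi ∘ G, T.Psi_surjective.comp hG, 1 / 4, 5, by norm_num,
    fun u v => ⟨?_, ?_⟩⟩
  · have h1 := T.le_norm_Psi_sub (G u) (G v)
    have h2 := (hG' u v).1
    simp only [Function.comp]
    linarith
  · have h1 := T.norm_Psi_sub_le (G u) (G v)
    have h2 := (hG' u v).2
    simp only [Function.comp]
    linarith

end Crest.Agent.R91
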