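import Crest.Agent.R91.Atom
import Crest.Agent.R91.Filt

/-! Invariants of cores and pieces; strong convergence when the discrete data are constant. -/

set_option autoImplicit false
set_option linter.unusedSectionVars false

namespace Crest.Agent.R91

open Filter Topology Set
open scoped InnerProductSpace ZeroAtInfty ENNReal

theorem tau_congr {X : Type} [NormedAddCommGroup X] {m : ℕ} (j : ℤ) {I I' : ℕ → Set ℕ}
    (h : ∀ q < m, I q = I' q) (w : C₀(ℕ, X)) : tau m j I w = tau m j I' w :=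
  Finset.prod_congr rfl fun q hq => by rw [h q (Finset.mem_range.1 hq)]

theorem abs_tau_le {X : Type} [NormedAddCommGroup X] (m : ℕ) (j : ℤ) (I : ℕ → Set ℕ)
    (w : C₀(ℕ, X)) : |tau m j I w| ≤ 1 := by
  rw [abs_of_nonneg (tau_nonneg m j I w)]
  exact tau_le_one m j I w

theorem tau_succ {X : Type} [NormedAddCommGroup X] (m : ℕ) (j : ℤ) (I : ℕ → Set ℕ) (A : Set ℕ)
    (w : C₀(ℕ, X)) :
    tau (m + 1) j (Function.update I m A) w = tau m j I w * sw (NI A w / eta j m) := by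
  unfold tau
  rw [Finset.prod_range_succ, Function.update_self]
  congr 1
  exact Finset.prod_congr rfl fun q hq => by
    rw [Function.update_of_ne (Finset.mem_range.1 hq).ne]

theorem NI_empty {X : Type} [NormedAddCommGroup X] (w : C₀(ℕ, X)) : NI ∅ w = 0 :=
  le_antisymm (NI_le le_rfl (by simp)) (NI_nonneg _ _)

namespace Dat

variable {H D : Type} [NormedAddCommGroup H] [InnerProductSpace ℝ H] [CompleteSpace H]
  [NormedAddCommGroup D] [InnerProductSpace ℝ D] (T : Dat H D)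

theorem lip_atom (n : ℕ) (S : Set ℤ) {e : H} (he : ‖e‖ ≤ 1) : Lip 7 (T.atom n S e) := by
  intro w w'
  unfold atom
  rw [← inner_sub_right]
  refine (abs_real_inner_le_norm _ _).trans ?_
  nlinarith [T.norm_Th_sub_le n S w w', norm_nonneg (T.Th n S w - T.Th n S w'), norm_nonneg e]

theorem atom_zero (n : ℕ) (S : Set ℤ) (e : H) : T.atom n S e 0 = 0 := by
  simp [atom, T.Th_zero]

/-- the invariants of a core -/
structure CoreInv (L : ℝ) (j : ℤ) (n ℓ : ℕ) (c : MM H D → ℝ) : Prop where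
  lip : Lip L c
  bd : ∀ w, |c w| ≤ L * sc j
  dep : ∀ w w', (∀ i < ℓ, w i = w' i) → c w = c w'
  anc : ∀ w, c w ≠ 0 → ∃ i, n ≤ i ∧ i < ℓ ∧ sc (j - 1) ≤ ‖w i‖
  nle : n ≤ ℓ
  lbd : ℓ ≤ n + 1 ∨ (ℓ : ℤ) ≤ -j
  big : 0 < j → ∀ w, c w ≠ 0 → sc (j - 1) ≤ ‖w n‖ ∧ ‖w n‖ ≤ sc (j + 1)

/-- Lipschitz constant of the pieces -/
noncomputable def LP (L : ℝ) (m : ℕ) : ℝ := L * (1 + 2 ^ (m + 1) * sc 1)

theorem le_LP {L : ℝ} (hL : 0 ≤ L) (m : ℕ) : L ≤ LP L m := by
  have := sc_pos 1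
  unfold LP
  nlinarith [show 0 ≤ L * (2 ^ (m + 1) * sc 1) by positivity]

section

variable {T} {L : ℝ} {j : ℤ} {n ℓ : ℕ} {c : MM H D → ℝ}

theorem CoreInv.mono {L' : ℝ} (h : CoreInv L j n ℓ c) (hL : L ≤ L') : CoreInv L' j n ℓ c :=
  ⟨h.lip.mono hL, fun w => (h.bd w).trans (mul_le_mul_of_nonneg_right hL (sc_pos j).le), h.dep,
    h.anc, h.nle, h.lbd, h.big⟩

theorem CoreInv.zero (h : CoreInv L j n ℓ c) : c 0 = 0 := by
  by_contra h0
  obtain ⟨i, -, -, hi⟩ := h.anc 0 h0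
  simp only [ZeroAtInftyContinuousMap.zero_apply, norm_zero] at hi
  exact absurd hi (not_le.2 (sc_pos _))

theorem CoreInv.lip_piece (h : CoreInv L j n ℓ c) (m : ℕ) (I : ℕ → Set ℕ) :
    Lip (LP L m) (fun w => c w * tau m j I w) := by
  refine (h.lip.mul (lip_tau m j I) h.bd (abs_tau_le m j I)).mono (le_of_eq ?_)
  have := (sc_pos j).ne'
  unfold LP
  field_simp

theorem CoreInv.bd_piece (h : CoreInv L j n ℓ c) (m : ℕ) (I : ℕ → Set ℕ) (w : MM H D) :
    |c w * tau m j I w| ≤ L * sc j := by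
  rw [abs_mul]
  have := mul_le_mul (h.bd w) (abs_tau_le m j I w) (abs_nonneg _) ((abs_nonneg _).trans (h.bd w))
  linarith

theorem CoreInv.dep_piece (h : CoreInv L j n ℓ c) {m : ℕ} {I : ℕ → Set ℕ} {M : ℕ} (hM : ℓ ≤ M)
    (hI : ∀ q < m, I q ⊆ Iio M) (w w' : MM H D) (hw : ∀ i < M, w i = w' i) :
    c w * tau m j I w = c w' * tau m j I w' := by
  rw [h.dep w w' fun i hi => hw i (hi.trans_le hM)]
  congr 1
  exact Finset.prod_congr rfl fun q hq => by
    rw [NI_congr fun i hi => hw i (hI q (Finset.mem_range.1 hq) hi)]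

end

theorem exists_dd_lt_of_flat_ne_zero {g : MM H D → ℝ} {ℓ : ℕ} {ρ : ℝ} (hρ : 0 < ρ)
    {B : Finset (MM H D)} {w : MM H D} (h : T.flat g ℓ ρ B w ≠ 0) :
    ∃ b ∈ B, g w ≠ g b ∧ 2 ^ ℓ * T.dd ℓ w b < ρ := by
  obtain ⟨b, hb, h1⟩ := Finset.exists_ne_zero_of_sum_ne_zero h
  refine ⟨b, hb, sub_ne_zero.1 (left_ne_zero_of_mul h1), ?_⟩
  by_contra h2
  exact right_ne_zero_of_mul h1 (T.bump_eq_zero hρ (not_lt.1 h2))

theorem core_inv (m : ℕ) : ∃ L, 1 ≤ L ∧ ∀ j n ℓ c, T.Core m j n ℓ c → CoreInv L j n ℓ c := by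
  induction m with
  | zero =>
    refine ⟨7 + 2 * sc 1, by linarith [sc_pos 1], ?_⟩
    rintro j n ℓ c ⟨rfl, e, he, rfl⟩
    have hne : ∀ w, T.atom n {j} e w ≠ 0 → T.Th n {j} w ≠ 0 := fun w h h' => h (by simp [atom, h'])
    refine ⟨(T.lip_atom n _ he).mono (by linarith [sc_pos 1]), fun w => ?_, fun w w' h => ?_,
      fun w h => ⟨n, le_rfl, Nat.lt_succ_self n, (T.supp_Th (hne w h)).1⟩, Nat.le_succ n,
      Or.inl le_rfl, fun _ w h => T.supp_Th (hne w h)⟩
    · refine (abs_real_inner_le_norm _ _).trans ?_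
      nlinarith [T.norm_Th_le n j w, norm_nonneg (T.Th n {j} w), norm_nonneg e, sc_pos j]
    · unfold atom
      rw [T.Th_congr _ h]
  | succ m ih =>
    obtain ⟨L, hL, ih⟩ := ih
    have hL0 : 0 ≤ L := by linarith
    have hLP := le_LP hL0 m
    refine ⟨2 * LP L m, by linarith, ?_⟩
    rintro j n ℓ c (h | ⟨j', ℓ', I, g, B, ⟨c', hc', -, rfl⟩, hℓ, hI, -, hsep, hj1, hj2, hj3, rfl⟩)
    · exact (ih j n ℓ c h).mono (by linarith)
    have h := ih j' n ℓ' c' hc'
    have hdep := h.dep_piece hℓ hI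
    have hlip := h.lip_piece m I
    refine ⟨lip_flat (by linarith) hlip hdep (sc_pos j) hsep, fun w => ?_, fun w w' hw => ?_,
      fun w hw => ?_, h.nle.trans hℓ, Or.inr (by omega), fun hj => by omega⟩
    · refine (abs_flat_le (by linarith) hlip hdep (sc_pos j) hsep w).trans ?_
      nlinarith [sc_pos j]
    · unfold flat bump
      simp only
      rw [hdep w w' hw, T.Tn_congr hw]
    · obtain ⟨b, -, h1, h2⟩ := T.exists_dd_lt_of_flat_ne_zero (sc_pos j) hw
      by_cases h3 : c' w = 0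
      · have h4 : c' b ≠ 0 := fun h4 => h1 (by simp only [h3, h4, zero_mul])
        obtain ⟨i, i1, i2, i3⟩ := h.anc b h4
        refine ⟨i, i1, i2.trans_le hℓ, ?_⟩
        have a1 := T.norm_sub_le_dd (i2.trans_le hℓ) w b
        have a2 : (2 : ℝ) ^ (i + 1) * T.dd ℓ w b ≤ 2 ^ ℓ * T.dd ℓ w b :=
          mul_le_mul_of_nonneg_right (pow_le_pow_right₀ one_le_two (by omega)) (T.dd_nonneg _ _ _)
        have a3 : sc (j + 1) ≤ sc (j' - 1) := sc_mono (by omega)
        have a4 : sc (j - 1) ≤ sc j := sc_mono (by omega)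
        have a5 := norm_sub_norm_le (b i) (w i)
        rw [norm_sub_rev] at a5
        rw [sc_add] at a3
        nlinarith [two_le_sc_one, sc_pos j]
      · obtain ⟨i, i1, i2, i3⟩ := h.anc w h3
        exact ⟨i, i1, i2.trans_le hℓ, (sc_mono (by omega)).trans i3⟩

theorem pp_mono {m m' : ℕ} (h : m ≤ m') : T.pp m ≤ T.pp m' :=
  Finset.sum_le_sum_of_subset (Finset.range_subset_range.2 (by omega))

theorem Loc.mono {T : Dat H D} {ε : ℝ} {N N' : ℕ} {R R' : ℝ} {j : ℤ} {ℓ : ℕ} {c : MM H D → ℝ}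
    (h : T.Loc ε N R j ℓ c) (hN : N ≤ N') (hR : R ≤ R') : T.Loc ε N' R' j ℓ c := by
  obtain ⟨B, h1, h2⟩ := h
  exact ⟨B, h1.trans hN, fun w hw => h2 w fun b hb =>
    (mul_le_mul_of_nonneg_right hR (sc_pos j).le).trans_lt (hw b hb)⟩

theorem flat_eventually_zero (g : MM H D → ℝ) (ℓ : ℕ) {ρ : ℝ} (hρ : 0 < ρ) (B : Finset (MM H D))
    {w : MM H D} (h : ∀ b ∈ B, ρ < T.dd ℓ w b) : ∀ᶠ w' in 𝓝 w, T.flat g ℓ ρ B w' = 0 := by
  have h1 : ∀ᶠ w' in 𝓝 w, ∀ b ∈ B, ρ < T.dd ℓ w' b := (eventually_all_finset B).2 fun b hb =>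
    (T.continuous_dd ℓ b).continuousAt.eventually (lt_mem_nhds (h b hb))
  filter_upwards [h1] with w' hw'
  refine flat_eq_zero hρ fun b hb => (hw' b hb).le.trans ?_
  exact le_mul_of_one_le_left (T.dd_nonneg _ _ _) (one_le_pow₀ one_le_two)

theorem core_loc (m i : ℕ) : ∃ R, 1 ≤ R ∧ ∀ j n ℓ c, T.Core m j n ℓ c →
    T.Loc ((1 / 4) ^ i) (T.pp (m + i)) R j ℓ c := by
  induction m with
  | zero =>
    obtain ⟨R, hR⟩ : T.AtomLoc ((1 / 4) ^ i) (Classical.epsilon (T.AtomLoc ((1 / 4) ^ i))) :=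
      Classical.epsilon_spec (T.exists_atomLoc _ (by positivity))
    refine ⟨max R 1, le_max_right _ _, ?_⟩
    rintro j n ℓ c ⟨rfl, e, he, rfl⟩
    refine (hR n j e he).mono ?_ (le_max_left _ _)
    rw [zero_add]
    exact Finset.single_le_sum (f := fun i => Classical.epsilon (T.AtomLoc ((1 / 4) ^ i)))
      (fun _ _ => Nat.zero_le _) (Finset.self_mem_range_succ i)
  | succ m ih =>
    obtain ⟨R, hR, ih⟩ := ih
    refine ⟨R, hR, ?_⟩
    rintro j n ℓ c (h | ⟨j', ℓ', I, g, B, -, -, -, hB, -, -, -, -, rfl⟩)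
    · exact (ih j n ℓ c h).mono (T.pp_mono (by omega)) le_rfl
    refine ⟨B, hB.trans (T.pp_mono (by omega)), fun w hw => ?_⟩
    have h1 := T.flat_eventually_zero g ℓ (sc_pos j) B (w := w) fun b hb =>
      (le_mul_of_one_le_left (sc_pos j).le hR).trans_lt (hw b hb)
    refine ⟨(sl_of_const h1).mono (by positivity), ?_⟩
    rw [h1.self_of_nhds, abs_zero]
    have := sc_pos j
    positivity

theorem core_mono {m m' : ℕ} (h : m ≤ m') {j : ℤ} {n ℓ : ℕ} {c : MM H D → ℝ}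
    (hc : T.Core m j n ℓ c) : T.Core m' j n ℓ c := by
  induction h with
  | refl => exact hc
  | step _ ih => exact Or.inl ih

theorem piece_mono {m m' : ℕ} (h : m ≤ m') {j : ℤ} {n ℓ : ℕ} {I : ℕ → Set ℕ} {g : MM H D → ℝ}
    (hg : IsPiece (T.Core m) m j n ℓ I g) :
    IsPiece (T.Core m') m' j n ℓ (fun q => if q < m then I q else ∅) g := by
  obtain ⟨c, hc, h1, rfl⟩ := hg
  refine ⟨c, T.core_mono h hc, h1.imp_left fun h1 q _ => ?_, funext fun w => ?_⟩
  · simp only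
    split_ifs with hq
    exacts [h1 q hq, rfl]
  · congr 1
    unfold tau
    rw [← Finset.prod_subset (Finset.range_subset_range.2 h)]
    · exact Finset.prod_congr rfl fun q hq => by simp only [Finset.mem_range.1 hq, if_true]
    · intro q _ hq
      simp only [Finset.mem_range] at hq
      simp only [hq, if_false, NI_empty, zero_div]
      exact sw_eq_one (by norm_num)

theorem GG_mono {m m' : ℕ} (h : m ≤ m') {g : MM H D → ℝ} (hg : T.GG m g) : T.GG m' g := by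
  rcases hg with hg | ⟨j, n, ℓ, I, hg⟩
  · exact Or.inl hg
  · exact Or.inr ⟨j, n, ℓ, _, T.piece_mono h hg⟩

theorem sc_bump (ℓ : ℕ) {ρ : ℝ} (hρ : 0 < ρ) (b : ℕ → MM H D) :
    SC (fun k w => T.bump ℓ ρ (b k) w) := by
  obtain ⟨A, h1, h2⟩ := (isPsi ℓ).c11
  have hc : 0 < 2 ^ ℓ / ρ := by positivity
  refine SC.comp (sc_inner (C := 1 + 3 / 2 * (2 ^ ℓ / ρ))
    (Θ := fun w => T.γ ((2 ^ ℓ / ρ) • T.Tn ℓ w))
    (Eventually.of_forall fun k => (T.norm_γ _).le) (by positivity)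
    (fun w => by rw [T.norm_γ]; linarith) fun w w' => ?_) (fun x => ?_) h1 h2
  · refine (T.norm_γ_sub _ _).trans ?_
    rw [← smul_sub, norm_smul, Real.norm_eq_abs, abs_of_pos hc]
    have h3 : ‖T.Tn ℓ w - T.Tn ℓ w'‖ ≤ ‖w - w'‖ := T.dd_le ℓ w w'
    have h4 := mul_le_mul_of_nonneg_left h3 hc.le
    nlinarith [norm_nonneg (w - w')]
  · rw [abs_of_nonneg ((isPsi ℓ).nonneg x)]
    exact (isPsi ℓ).le_one x

theorem bl_tau (m : ℕ) (j : ℤ) (I : ℕ → Set ℕ) :
    BL (1 + 2 ^ (m + 1) * sc 1 / sc j) (tau m j I : MM H D → ℝ) := by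
  have h1 := sc_pos 1
  have h2 := sc_pos j
  have h3 : 0 ≤ 2 ^ (m + 1) * sc 1 / sc j := by positivity
  exact ⟨fun w => (abs_tau_le m j I w).trans (by linarith), (lip_tau m j I).mono (by linarith)⟩

theorem sc_core (m : ℕ) : ∀ (j : ℤ) (n ℓ : ℕ → ℕ) (c : ℕ → MM H D → ℝ) (ℓ₀ : ℕ),
    (∀ᶠ k in (UU : Filter ℕ), T.Core m j (n k) (ℓ k) (c k) ∧ ℓ k ≤ ℓ₀) → SC c := by
  induction m with
  | zero =>
    intro j n ℓ c ℓ₀ h
    obtain ⟨n₀, hn⟩ := UU_const_of_finite (x := n) (finite_Iic ℓ₀) (h.mono fun k hk => by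
      have h1 := hk.1.1
      have h2 := hk.2
      simp only [mem_Iic]
      omega)
    obtain ⟨e, he⟩ := Eventually.choice (h.mono fun k hk => hk.1.2)
    have h1 := sc_pos 1
    have h2 := sc_pos j
    refine (sc_inner (ξ := e) (C := 7 + 2 * sc 1 * sc j) (Θ := T.Th n₀ {j})
      (he.mono fun k hk => hk.1) (by positivity)
      (fun w => (T.norm_Th_le n₀ j w).trans (by linarith))
      fun w w' => (T.norm_Th_sub_le n₀ _ w w').trans
        (mul_le_mul_of_nonneg_right (by nlinarith) (norm_nonneg _))).congr ?_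
    filter_upwards [he, hn] with k h1 h2
    rw [h1.2, h2]
    rfl
  | succ m ih =>
    intro j n ℓ c ℓ₀ h
    obtain ⟨L, hL, hinv⟩ := T.core_inv m
    rcases Ultrafilter.eventually_or.1 (h.mono fun k hk => hk.1) with h1 | h1
    · exact ih j n ℓ c ℓ₀ (h1.and (h.mono fun k hk => hk.2))
    obtain ⟨j', h1⟩ := Eventually.choice h1
    obtain ⟨ℓ', h1⟩ := Eventually.choice h1
    obtain ⟨I, h1⟩ := Eventually.choice h1
    obtain ⟨g, h1⟩ := Eventually.choice h1
    obtain ⟨B, h1⟩ := Eventually.choice h1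
    obtain ⟨c', h2⟩ := Eventually.choice (h1.mono fun k hk => hk.1)
    obtain ⟨j₀, hj⟩ := UU_const_of_finite (x := j') (finite_Icc j (-j)) (h1.mono fun k hk => by
      have h1 := hk.2.2.2.2.2.2.1
      have h2 := le_abs_self (j' k)
      have h3 := neg_abs_le (j' k)
      simp only [mem_Icc]
      omega)
    obtain ⟨ℓ₁, hℓ⟩ := UU_const_of_finite (x := ℓ) (finite_Iic ℓ₀) (h.mono fun k hk => hk.2)
    obtain ⟨p, hp⟩ := UU_const_of_finite (x := fun k => (B k).card) (finite_Iic (T.pp (m + 1)))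
      (h1.mono fun k hk => hk.2.2.2.1)
    have hI : ∀ q : ℕ, ∃ A : Set ℕ, q < m → ∀ᶠ k in (UU : Filter ℕ), I k q = A := by
      intro q
      by_cases hq : q < m
      · obtain ⟨A, hA⟩ := UU_const_of_finite (x := fun k => I k q) (finite_Iio ℓ₁).finite_subsets
          (by
            filter_upwards [h1, hℓ] with k a b
            rw [← b]
            exact a.2.2.1 q hq)
        exact ⟨A, fun _ => hA⟩
      · exact ⟨∅, fun h => absurd h hq⟩
    choose A hA using hI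
    have hA' : ∀ᶠ k in (UU : Filter ℕ), ∀ q < m, I k q = A q :=
      (eventually_all_finite (finite_Iio m)).2 fun q hq => hA q hq
    have hc' : SC c' := ih j₀ n ℓ' c' ℓ₀ (by
      filter_upwards [h, h1, h2, hj] with k a b d e
      exact ⟨e ▸ d.1, b.2.1.trans a.2⟩)
    have hg : SC g := (hc'.mul (sc_fun (bl_tau (H := H) (D := D) m j₀ A))).congr (by
      filter_upwards [h2, hj, hA'] with k a b d
      rw [a.2.2, b]
      funext w
      rw [tau_congr j₀ d])
    choose b hb using fun k => exists_enum (B k)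
    have hsum : SC fun k w => ∑ t ∈ Finset.range p,
        (g k w - g k (b k t)) * T.bump ℓ₁ (sc j) (b k t) w := by
      refine SC.sum _ fun t _ => SC.mul (hg.sub (sc_seq (C := L * sc j₀) ?_))
        (T.sc_bump ℓ₁ (sc_pos j) fun k => b k t)
      filter_upwards [h2, hj] with k a d
      rw [a.2.2, ← d]
      exact (hinv _ _ _ _ a.1).bd_piece m _ _
    refine hsum.congr ?_
    filter_upwards [h1, hℓ, hp] with k a d e
    rw [a.2.2.2.2.2.2.2.2, d]
    funext w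
    unfold flat
    rw [(hb k).2, e]

end Dat

end Crest.Agent.R91
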