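import Crest.Agent.R91.KillC

/-! The main lemma: the norming families do not see weakly unconditionally Cauchy sequences. -/

set_option autoImplicit false
set_option linter.unusedSectionVars false

namespace Crest.Agent.R91

open Filter Topology Set
open scoped InnerProductSpace ZeroAtInfty ENNReal

namespace Dat

variable {H D : Type} [NormedAddCommGroup H] [InnerProductSpace ℝ H] [CompleteSpace H]
  [NormedAddCommGroup D] [InnerProductSpace ℝ D] {T : Dat H D}

theorem dom_piece {m : ℕ} {j : ℤ} {n ℓ : ℕ} {c : MM H D → ℝ} {I : ℕ → Set ℕ}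
    (hc : T.Core m j n ℓ c) (h : (∀ q < m, I q = ∅) ∨ 1 ≤ ℓ * sc j) :
    T.Dom m 1 (fun w => c w * tau m j I w) :=
  dom_of_GG (Or.inr ⟨j, n, ℓ, I, c, hc, h, rfl⟩)

theorem dom_extra {m : ℕ} {j : ℤ} {n ℓ : ℕ} {c : MM H D → ℝ} (I : ℕ → Set ℕ) (A : Set ℕ)
    (hc : T.Core m j n ℓ c) (h : 1 ≤ ℓ * sc j) :
    T.Dom (m + 1) 1 (fun w => c w * tau m j I w * sw (NI A w / eta j m)) := by
  have := dom_piece (I := Function.update I m A) (T.core_mono (Nat.le_succ m) hc) (Or.inr h)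
  simpa only [Nat.succ_eq_add_one, tau_succ, mul_assoc] using this

variable {μ : ℕ → MM H D →₀ ℝ} {K : ℝ}

theorem Wuc.kill_far (hμ : T.Wuc μ K) {m : ℕ} {j : ℕ → ℤ} {n ℓ : ℕ → ℕ}
    {c : ℕ → MM H D → ℝ} {I : ℕ → ℕ → Set ℕ} {j₀ : ℤ} (hj : ∀ᶠ k in (UU : Filter ℕ), j₀ ≤ j k)
    (hjj : Typ fun k l => j k ≤ j l) (hn : Tendsto n (UU : Filter ℕ) atTop)
    (h : ∀ᶠ k in (UU : Filter ℕ), T.Core m (j k) (n k) (ℓ k) (c k)) :
    Tendsto (fun k => ev (μ k) (fun w => c k w * tau m (j k) (I k) w)) (UU : Filter ℕ) (𝓝 0) := by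
  obtain ⟨L, hL, hinv⟩ := T.core_inv m
  have hL0 : 0 ≤ L := by linarith
  have h1 := sc_pos 1
  refine hμ.kill_B (m := m + 1) (C := 1) (L := LP L m) (A := L * (2 ^ m * sc 1))
    (hL0.trans (le_LP hL0 m)) (by positivity) (η := fun k => eta (j k) m) (fun k => eta_pos _ _)
    ?_ ?_ fun a => ?_
  · have a1 := ((tendsto_natCast_atTop_atTop (R := ℝ)).comp hn).atTop_mul_const (sc_pos j₀)
    filter_upwards [h, hj, a1.eventually_ge_atTop 1] with k hk b1 b2
    have a3 := hinv _ _ _ _ hk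
    refine ⟨by simp only [a3.zero, zero_mul], a3.lip_piece m _, fun w => ?_,
      fun a => dom_extra _ _ hk (b2.trans ?_)⟩
    · refine (a3.bd_piece m _ w).trans (le_of_eq ?_)
      rw [sc_eq_eta (j k) m]
      ring
    · exact mul_le_mul (Nat.cast_le.2 a3.nle) (sc_mono b1) (sc_pos _).le (Nat.cast_nonneg _)
  · filter_upwards [hjj] with k hk
    exact hk.mono fun l hl => eta_mono hl m
  · filter_upwards [h, hn.eventually_ge_atTop a] with l hl b1 w hw
    obtain ⟨i, i1, -, i3⟩ := (hinv _ _ _ _ hl).anc w (left_ne_zero_of_mul hw)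
    exact ⟨i, b1.trans i1, (eta_le _ _).trans i3⟩

theorem Wuc.kill_big (hμ : T.Wuc μ K) {m : ℕ} {j : ℕ → ℤ} {n ℓ : ℕ → ℕ}
    {c : ℕ → MM H D → ℝ} {I : ℕ → ℕ → Set ℕ} {n₀ : ℕ} (hj : Tendsto j (UU : Filter ℕ) atTop)
    (hn : ∀ᶠ k in (UU : Filter ℕ), n k = n₀)
    (h : ∀ᶠ k in (UU : Filter ℕ), T.Core m (j k) (n k) (ℓ k) (c k) ∧
      ((∀ q < m, I k q = ∅) ∨ 1 ≤ ℓ k * sc (j k))) :
    Tendsto (fun k => ev (μ k) (fun w => c k w * tau m (j k) (I k) w)) (UU : Filter ℕ) (𝓝 0) := by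
  obtain ⟨L, hL, hinv⟩ := T.core_inv m
  have hL0 : 0 ≤ L := by linarith
  refine hμ.kill_disjoint (m := m) (C := 1) (hL0.trans (le_LP hL0 m)) ?_ ?_
  · filter_upwards [h] with k hk
    have a3 := hinv _ _ _ _ hk.1
    exact ⟨by simp only [a3.zero, zero_mul], dom_piece hk.1 hk.2, a3.lip_piece m _⟩
  · filter_upwards [h, hn, hj.eventually_gt_atTop 0] with k a1 a2 a3
    filter_upwards [h, hn, hj.eventually_ge_atTop (j k + 3)] with l b1 b2 b3 w
    by_contra hcon
    push Not at hcon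
    have c1 := ((hinv _ _ _ _ a1.1).big a3 w (left_ne_zero_of_mul hcon.1)).2
    have c2 := ((hinv _ _ _ _ b1.1).big (by omega) w (left_ne_zero_of_mul hcon.2)).1
    rw [a2] at c1
    rw [b2] at c2
    exact absurd (c2.trans c1) (not_le.2 (sc_lt_sc (by omega)))

theorem Wuc.kill_const (hμ : T.Wuc μ K) {m : ℕ} {j : ℤ} {n : ℕ} {ℓ : ℕ → ℕ}
    {c : ℕ → MM H D → ℝ} {I : ℕ → ℕ → Set ℕ}
    (h : ∀ᶠ k in (UU : Filter ℕ), T.Core m j n (ℓ k) (c k) ∧
      ((∀ q < m, I k q = ∅) ∨ 1 ≤ ℓ k * sc j)) :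
    Tendsto (fun k => ev (μ k) (fun w => c k w * tau m j (I k) w)) (UU : Filter ℕ) (𝓝 0) := by
  obtain ⟨L, hL, hinv⟩ := T.core_inv m
  have hL0 : 0 ≤ L := by linarith
  have hLP := hL0.trans (le_LP hL0 m)
  have h1 := sc_pos 1
  have hc : SC c := T.sc_core m j (fun _ => n) ℓ c (n + 1 + (-j).toNat) (h.mono fun k hk =>
    ⟨hk.1, by have := (hinv _ _ _ _ hk.1).lbd; omega⟩)
  have hfix : ∀ A : ℕ → Set ℕ, (∀ᶠ k in (UU : Filter ℕ), (∀ q < m, A q = ∅) ∨ 1 ≤ ℓ k * sc j) →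
      Tendsto (fun k => ev (μ k) (fun w => c k w * tau m j A w)) (UU : Filter ℕ) (𝓝 0) := by
    intro A hA
    refine hμ.kill_SC (m := m) (C := 1) (hc.mul (sc_fun (bl_tau m j A))) ?_
    filter_upwards [h, hA] with k a b
    exact ⟨by simp only [(hinv _ _ _ _ a.1).zero, zero_mul], dom_piece a.1 b⟩
  rcases Ultrafilter.eventually_or.1 (h.mono fun k hk => hk.2) with h2 | h2
  · refine (hfix (fun _ => ∅) (Eventually.of_forall fun _ => Or.inl fun _ _ => rfl)).congr' ?_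
    filter_upwards [h2] with k hk
    simp only [tau_congr j hk]
  let A : ℕ → Set ℕ := fun q => {i | ∀ᶠ k in (UU : Filter ℕ), i ∈ I k q}
  have a1 := hfix A (h2.mono fun _ => Or.inr)
  have a2 := hμ.kill_B (m := m + 1) (C := 1 + 1) (L := LP L m + LP L m)
    (A := 2 * (L * (2 ^ m * sc 1))) (by positivity) (by positivity)
    (h := fun k w => c k w * tau m j (I k) w - c k w * tau m j A w) (η := fun _ => eta j m)
    (fun _ => eta_pos _ _) ?_ (Eventually.of_forall fun _ => Eventually.of_forall fun _ => le_rfl)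
    fun a => ?_
  · have a3 := a2.add a1
    rw [add_zero] at a3
    refine a3.congr fun k => ?_
    rw [ev_sub]
    ring
  · filter_upwards [h, h2] with k hk b2
    have a3 := hinv _ _ _ _ hk.1
    refine ⟨by simp only [a3.zero, zero_mul, sub_self], (a3.lip_piece m _).sub (a3.lip_piece m _),
      fun w => ?_, fun a => ?_⟩
    · refine (abs_sub _ _).trans ?_
      have b3 := a3.bd_piece m (I k) w
      have b4 := a3.bd_piece m A w
      have b5 := sc_eq_eta j m
      have b6 : L * sc j = L * (2 ^ m * sc 1) * eta j m := by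
        rw [mul_assoc, ← b5]
      linarith
    · simpa only [sub_mul] using
        (dom_extra (I k) (Ici a) hk.1 b2).sub (dom_extra A (Ici a) hk.1 b2)
  · have b1 : ∀ᶠ l in (UU : Filter ℕ), ∀ q < m, ∀ i < a, (i ∈ I l q ↔ i ∈ A q) := by
      refine (eventually_all_finite (finite_Iio m)).2 fun q _ =>
        (eventually_all_finite (finite_Iio a)).2 fun i _ => ?_
      by_cases hi : i ∈ A q
      · exact Eventually.mono hi fun l hl => iff_of_true hl hi
      · exact (Ultrafilter.eventually_not.2 hi).mono fun l hl => iff_of_false hl hi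
    filter_upwards [b1] with l hl w hw
    by_contra hcon
    push Not at hcon
    refine hw (sub_eq_zero.2 ?_)
    congr 1
    refine Finset.prod_congr rfl fun q hq => sw_NI_congr (eta_pos _ _) fun i => ?_
    have hq' := Finset.mem_range.1 hq
    by_cases hi : i < a
    · exact Or.inl (hl q hq' i hi)
    · refine Or.inr ((hcon i (not_lt.1 hi)).le.trans ((eta_anti j hq').trans (le_of_eq ?_)))
      unfold eta
      rw [Nat.succ_eq_add_one, pow_succ, div_div]

theorem Wuc.kill_piece (hμ : T.Wuc μ K) {m : ℕ} {j : ℕ → ℤ} {n ℓ : ℕ → ℕ}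
    {c : ℕ → MM H D → ℝ} {I : ℕ → ℕ → Set ℕ}
    (h : ∀ᶠ k in (UU : Filter ℕ), T.Core m (j k) (n k) (ℓ k) (c k) ∧
      ((∀ q < m, I k q = ∅) ∨ 1 ≤ ℓ k * sc (j k))) :
    Tendsto (fun k => ev (μ k) (fun w => c k w * tau m (j k) (I k) w)) (UU : Filter ℕ) (𝓝 0) := by
  rcases UU_int j with hj | hj | ⟨j₀, hj⟩
  · exact hμ.kill_C hj h
  · rcases UU_nat n with hn | ⟨n₀, hn⟩
    · exact hμ.kill_far (hj.eventually_ge_atTop 0)
        (Eventually.of_forall fun k => hj.eventually_ge_atTop _) hn (h.mono fun _ => And.left)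
    · exact hμ.kill_big hj hn h
  · rcases UU_nat n with hn | ⟨n₀, hn⟩
    · refine hμ.kill_far (hj.mono fun _ hk => hk.ge) ?_ hn (h.mono fun _ => And.left)
      filter_upwards [hj] with k a
      filter_upwards [hj] with l b
      omega
    · refine (hμ.kill_const (m := m) (j := j₀) (n := n₀) (ℓ := ℓ) (c := c) (I := I) ?_).congr' ?_
      · filter_upwards [h, hj, hn] with k a b d
        rwa [b, d] at a
      · filter_upwards [hj] with k a
        rw [a]

theorem Wuc.kill_single (hμ : T.Wuc μ K) (n : ℕ → ℕ) (j : ℕ → ℤ) {e : ℕ → H}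
    (he : ∀ᶠ k in (UU : Filter ℕ), ‖e k‖ ≤ 1) :
    Tendsto (fun k => ev (μ k) (T.atom (n k) {j k} (e k))) (UU : Filter ℕ) (𝓝 0) := by
  have := hμ.kill_piece (m := 0) (j := j) (n := n) (ℓ := fun k => n k + 1)
    (c := fun k => T.atom (n k) {j k} (e k)) (I := fun _ _ => ∅)
    (he.mono fun k hk => ⟨⟨rfl, e k, hk, rfl⟩, Or.inl fun _ _ => rfl⟩)
  simpa only [tau, Finset.range_zero, Finset.prod_empty, mul_one] using this

theorem Wuc.kill_atom (hμ : T.Wuc μ K) (n : ℕ → ℕ) (S : ℕ → Set ℤ) {e : ℕ → H}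
    (he : ∀ᶠ k in (UU : Filter ℕ), ‖e k‖ ≤ 1) :
    Tendsto (fun k => ev (μ k) (T.atom (n k) (S k) (e k))) (UU : Filter ℕ) (𝓝 0) := by
  classical
  refine hμ.kill_of (C := 1) fun δ hδ => ?_
  obtain ⟨m, -, hm⟩ := exists_pow_ge 0 1 hδ
  obtain ⟨N, hN⟩ := T.atom_sparse ((1 / 2) ^ (m + 6) * δ) (by positivity)
  obtain ⟨J, hJ⟩ := Eventually.choice (he.mono fun k hk => hN (n k) (S k) (e k) hk)
  choose b hb using fun k => exists_enum (J k)
  refine ⟨m, hm, fun k => T.atom (n k) (S k \ J k) (e k), ?_, ?_⟩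
  · have a1 : Tendsto (fun k => ∑ t ∈ Finset.range N, ev (μ k) (T.atom (n k) {b k t}
        (if t < (J k).card then e k else 0))) (UU : Filter ℕ) (𝓝 (∑ t ∈ Finset.range N, 0)) := by
      refine tendsto_finsetSum _ fun t _ => hμ.kill_single n (fun k => b k t) ?_
      filter_upwards [he] with k hk
      split_ifs
      exacts [hk, by simp]
    rw [Finset.sum_const_zero] at a1
    filter_upwards [he, hJ, Metric.tendsto_nhds.1 a1 δ hδ] with k hk b1 b2
    refine ⟨T.atom_zero _ _ _, dom_of_GG (Or.inl ⟨_, _, _, hk, rfl⟩), ?_⟩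
    rw [Real.dist_eq, sub_zero] at b2
    refine le_trans (le_of_eq ?_) b2.le
    congr 1
    have e1 : T.atom (n k) (S k) (e k) = fun w => T.atom (n k) (S k \ J k) (e k) w +
        ∑ j ∈ J k, T.atom (n k) {j} (e k) w := by
      funext w
      unfold atom
      rw [T.Th_split (n k) (S k) (J k) b1.1, inner_add_right, inner_sum]
    rw [e1, ev_add, add_sub_cancel_left, ev_sum, (hb k).2,
      ← Finset.sum_subset (Finset.range_subset_range.2 b1.2.1)]
    · exact Finset.sum_congr rfl fun t ht => by rw [if_pos (Finset.mem_range.1 ht)]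
    · intro t _ ht
      rw [if_neg fun h => ht (Finset.mem_range.2 h)]
      simp [ev_eq, atom]
  · filter_upwards [FF_mem hJ] with F hF s hs
    refine lip_of_sl fun w => (sl_sum F (Λ := fun _ => (1 / 2) ^ (m + 6) * δ) hs
      fun k hk => (hF k hk).2.2.sl w).mono (le_of_eq ?_)
    rw [Finset.sum_const, nsmul_eq_mul]
    ring

variable (T)

theorem kill {μ : ℕ → MM H D →₀ ℝ} {K : ℝ} (hμ : T.Wuc μ K) (m : ℕ) (g : ℕ → MM H D → ℝ)
    (hg : ∀ k, T.GG m (g k)) : Tendsto (fun k => ev (μ k) (g k)) (UU : Filter ℕ) (𝓝 0) := by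
  rcases Ultrafilter.eventually_or.1 (Eventually.of_forall (f := (UU : Filter ℕ)) hg) with h | h
  · obtain ⟨n, h⟩ := Eventually.choice h
    obtain ⟨S, h⟩ := Eventually.choice h
    obtain ⟨e, h⟩ := Eventually.choice h
    refine (hμ.kill_atom n S (h.mono fun _ => And.left)).congr' ?_
    filter_upwards [h] with k hk
    rw [hk.2]
  · obtain ⟨j, h⟩ := Eventually.choice h
    obtain ⟨n, h⟩ := Eventually.choice h
    obtain ⟨ℓ, h⟩ := Eventually.choice h
    obtain ⟨I, h⟩ := Eventually.choice h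
    obtain ⟨c, h⟩ := Eventually.choice h
    refine (hμ.kill_piece (h.mono fun _ hk => ⟨hk.1, hk.2.1⟩)).congr' ?_
    filter_upwards [h] with k hk
    rw [hk.2.2]

end Dat

end Crest.Agent.R91
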