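import Crest.Agent.R91.Inv

/-! The basic killing mechanisms. -/

set_option autoImplicit false
set_option linter.unusedSectionVars false

namespace Crest.Agent.R91

open Filter Topology Set
open scoped InnerProductSpace ZeroAtInfty ENNReal

theorem exists_tail_supp {X : Type} [NormedAddCommGroup X] (μ : C₀(ℕ, X) →₀ ℝ) {t : ℝ}
    (ht : 0 < t) : ∃ a, ∀ w ∈ μ.support, ∀ i, a ≤ i → ‖w i‖ ≤ t := by
  choose a ha using fun w : C₀(ℕ, X) => exists_tail_le w ht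
  exact ⟨μ.support.sup a, fun w hw i hi => ha w i ((Finset.le_sup hw).trans hi)⟩

theorem exists_sign (x : ℝ) : ∃ σ : ℝ, (σ = 1 ∨ σ = -1) ∧ σ * x = |x| := by
  rcases le_total 0 x with h | h
  · exact ⟨1, Or.inl rfl, by rw [abs_of_nonneg h, one_mul]⟩
  · exact ⟨-1, Or.inr rfl, by rw [abs_of_nonpos h]; ring⟩

namespace Dat

variable {H D : Type} [NormedAddCommGroup H] [InnerProductSpace ℝ H] [CompleteSpace H]
  [NormedAddCommGroup D] [InnerProductSpace ℝ D] {T : Dat H D}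

section Dom

variable {m : ℕ} {C C' : ℝ} {f g : MM H D → ℝ}

theorem dom_of_GG (h : T.GG m g) : T.Dom m 1 g := fun μ t ht => by simpa using ht g h

theorem nonneg_of_GG {μ : MM H D →₀ ℝ} {t : ℝ} (ht : ∀ h, T.GG m h → |ev μ h| ≤ t) : 0 ≤ t :=
  (abs_nonneg _).trans (ht _ (Or.inl ⟨0, univ, 0, by simp, rfl⟩))

theorem Dom.mono (h : T.Dom m C g) (hC : C ≤ C') : T.Dom m C' g := fun μ t ht =>
  (h μ t ht).trans (mul_le_mul_of_nonneg_right hC (nonneg_of_GG ht))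

theorem Dom.mono_m {m' : ℕ} (h : T.Dom m C g) (hm : m ≤ m') : T.Dom m' C g := fun μ t ht =>
  h μ t fun h hh => ht h (T.GG_mono hm hh)

theorem Dom.sub (h : T.Dom m C f) (h' : T.Dom m C' g) :
    T.Dom m (C + C') (fun w => f w - g w) := fun μ t ht => by
  rw [ev_sub, add_mul]
  exact (abs_sub _ _).trans (add_le_add (h μ t ht) (h' μ t ht))

theorem Dom.const_mul (h : T.Dom m C f) (c : ℝ) : T.Dom m (|c| * C) (fun w => c * f w) :=
  fun μ t ht => by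
    rw [ev_const_mul, abs_mul, mul_assoc]
    exact mul_le_mul_of_nonneg_left (h μ t ht) (abs_nonneg _)

theorem dom_sum (F : Finset ℕ) {u : ℕ → MM H D → ℝ} {s : ℕ → ℝ} (hs : ∀ k, s k = 1 ∨ s k = -1)
    (h : ∀ k ∈ F, T.Dom m C (u k)) : T.Dom m (C * F.card) (fun w => ∑ k ∈ F, s k * u k w) := by
  intro μ t ht
  rw [ev_sum]
  refine (Finset.abs_sum_le_sum_abs _ _).trans ?_
  refine (Finset.sum_le_card_nsmul _ _ (C * t) fun k hk => ?_).trans (le_of_eq ?_)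
  · rw [ev_const_mul, abs_mul]
    rcases hs k with h' | h' <;> simpa [h'] using h k hk μ t ht
  · rw [nsmul_eq_mul]; ring

theorem dom_lim {u : ℕ → MM H D → ℝ} (h : ∀ᶠ k in (UU : Filter ℕ), T.Dom m C (u k))
    (hl : ∀ w, Tendsto (fun k => u k w) (UU : Filter ℕ) (𝓝 (g w))) : T.Dom m C g :=
  fun μ t ht => le_of_tendsto (tendsto_ev μ hl).abs (h.mono fun _ hk => hk μ t ht)

end Dom

variable {μ : ℕ → MM H D →₀ ℝ} {K : ℝ}

theorem mem_Gam {m : ℕ} {g : MM H D → ℝ} {C Λ : ℝ} (hΛ : 0 < Λ) (h0 : g 0 = 0)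
    (hL : Lip ((1 / 2) ^ (m + 6) * Λ) g) (hD : T.Dom m C g) (hC : C ≤ 2 ^ m * Λ) :
    (fun w => Λ⁻¹ * g w) ∈ T.Gam m := by
  refine ⟨by simp [h0], (hL.const_mul Λ⁻¹).mono (le_of_eq ?_), (hD.const_mul Λ⁻¹).mono ?_⟩
  · rw [abs_of_pos (inv_pos.2 hΛ)]
    field_simp
  · rw [abs_of_pos (inv_pos.2 hΛ), inv_mul_le_iff₀ hΛ]
    linarith

theorem Wuc.le (hμ : T.Wuc μ K) {m : ℕ} {g : MM H D → ℝ} {C Λ : ℝ} (hΛ : 0 < Λ) (h0 : g 0 = 0)
    (hL : Lip ((1 / 2) ^ (m + 6) * Λ) g) (hD : T.Dom m C g) (hC : C ≤ 2 ^ m * Λ)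
    (F : Finset ℕ) {s : ℕ → ℝ} (hs : ∀ k, s k = 1 ∨ s k = -1) :
    ∑ k ∈ F, s k * ev (μ k) g ≤ K * Λ := by
  have h := hμ m _ (mem_Gam hΛ h0 hL hD hC) F s hs
  simp only [ev_const_mul] at h
  have e : ∑ k ∈ F, s k * (Λ⁻¹ * ev (μ k) g) = Λ⁻¹ * ∑ k ∈ F, s k * ev (μ k) g := by
    rw [Finset.mul_sum]
    exact Finset.sum_congr rfl fun k _ => by ring
  rw [e] at h
  have h2 := (le_abs_self _).trans h
  rw [inv_mul_le_iff₀ hΛ] at h2
  linarith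

theorem Wuc.nonneg (hμ : T.Wuc μ K) : 0 ≤ K := by
  have h := hμ 0 (fun _ => 0) ⟨rfl, fun w w' => by simp only [sub_self, abs_zero]; positivity,
    fun μ t ht => by simpa [ev_eq] using nonneg_of_GG ht⟩ ∅ (fun _ => 1) fun _ => Or.inl rfl
  simpa using h

theorem Wuc.sum_le (hμ : T.Wuc μ K) {m : ℕ} (F : Finset ℕ) {h : ℕ → MM H D → ℝ} {C Λ : ℝ}
    (hΛ : 0 < Λ) (h0 : ∀ k ∈ F, h k 0 = 0) (hD : ∀ k ∈ F, T.Dom m C (h k))
    (hC : C * F.card ≤ 2 ^ m * Λ)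
    (hL : ∀ s : ℕ → ℝ, (∀ k, s k = 1 ∨ s k = -1) →
      Lip ((1 / 2) ^ (m + 6) * Λ) (fun w => ∑ k ∈ F, s k * h k w)) :
    ∑ k ∈ F, |ev (μ k) (h k)| ≤ K * Λ := by
  choose σ hσ1 hσ2 using fun k => exists_sign (ev (μ k) (h k))
  obtain ⟨s, hs, h1⟩ := exists_signs (fun k l => σ l * ev (μ k) (h l)) F
  have hsσ : ∀ k, s k * σ k = 1 ∨ s k * σ k = -1 := fun k => by
    rcases hs k with a | a <;> rcases hσ1 k with b | b <;> simp [a, b]
  have h2 := hμ.le hΛ (g := fun w => ∑ k ∈ F, (s k * σ k) * h k w)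
    (Finset.sum_eq_zero fun k hk => by rw [h0 k hk, mul_zero]) (hL _ hsσ) (dom_sum F hsσ hD) hC F hs
  simp only [hσ2] at h1
  refine h1.trans (le_trans (le_of_eq ?_) h2)
  refine Finset.sum_congr rfl fun k _ => ?_
  rw [ev_sum]
  congr 1
  exact Finset.sum_congr rfl fun l _ => by rw [ev_const_mul, mul_assoc]

theorem Wuc.kill_of (hμ : T.Wuc μ K) {x : ℕ → ℝ} {C : ℝ}
    (h : ∀ δ : ℝ, 0 < δ → ∃ m : ℕ, C ≤ 2 ^ m * δ ∧ ∃ h : ℕ → MM H D → ℝ,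
      (∀ᶠ k in (UU : Filter ℕ), h k 0 = 0 ∧ T.Dom m C (h k) ∧ |x k - ev (μ k) (h k)| ≤ δ) ∧
      ∀ᶠ F in FF, ∀ s : ℕ → ℝ, (∀ k, s k = 1 ∨ s k = -1) →
        Lip ((1 / 2) ^ (m + 6) * (δ * F.card)) (fun w => ∑ k ∈ F, s k * h k w)) :
    Tendsto x (UU : Filter ℕ) (𝓝 0) := by
  have hK := hμ.nonneg
  refine tendsto_zero_of_FF fun δ hδ => ?_
  obtain ⟨m, hm, h, h1, h2⟩ := h (δ / (K + 1)) (by positivity)
  filter_upwards [FF_mem h1, h2, FF_card_real 1] with F g1 g2 g3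
  have hp : 0 < δ / (K + 1) := by positivity
  have g4 := hμ.sum_le F (Λ := δ / (K + 1) * F.card) (by positivity) (fun k hk => (g1 k hk).1)
    (fun k hk => (g1 k hk).2.1)
    (by rw [← mul_assoc]; exact mul_le_mul_of_nonneg_right hm (by positivity)) g2
  have g5 : ∑ k ∈ F, |x k| ≤ ∑ k ∈ F, (δ / (K + 1) + |ev (μ k) (h k)|) :=
    Finset.sum_le_sum fun k hk => by
      have := (g1 k hk).2.2
      have h3 := abs_sub_abs_le_abs_sub (x k) (ev (μ k) (h k))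
      linarith
  rw [Finset.sum_add_distrib, Finset.sum_const, nsmul_eq_mul] at g5
  have e : δ * F.card = F.card * (δ / (K + 1)) + K * (δ / (K + 1) * F.card) := by
    field_simp
    ring
  linarith

theorem exists_pow_ge (m : ℕ) (C : ℝ) {δ : ℝ} (hδ : 0 < δ) : ∃ m', m ≤ m' ∧ C ≤ 2 ^ m' * δ := by
  have h1 := (tendsto_pow_atTop_atTop_of_one_lt (one_lt_two (α := ℝ))).atTop_mul_const hδ
  exact ((eventually_ge_atTop m).and (h1.eventually_ge_atTop C)).exists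

theorem Wuc.kill_small (hμ : T.Wuc μ K) {m : ℕ} {C : ℝ} {h : ℕ → MM H D → ℝ}
    (h1 : ∀ᶠ k in (UU : Filter ℕ), h k 0 = 0 ∧ T.Dom m C (h k))
    (h2 : ∀ ε : ℝ, 0 < ε → ∀ᶠ F in FF, ∀ s : ℕ → ℝ, (∀ k, s k = 1 ∨ s k = -1) →
      Lip (ε * F.card) (fun w => ∑ k ∈ F, s k * h k w)) :
    Tendsto (fun k => ev (μ k) (h k)) (UU : Filter ℕ) (𝓝 0) := by
  refine hμ.kill_of (C := C) fun δ hδ => ?_
  obtain ⟨m', hm, hC⟩ := exists_pow_ge m C hδ
  refine ⟨m', hC, h, h1.mono fun k hk => ⟨hk.1, hk.2.mono_m hm, by simpa using hδ.le⟩, ?_⟩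
  filter_upwards [h2 ((1 / 2) ^ (m' + 6) * δ) (by positivity)] with F hF s hs
  simpa only [mul_assoc] using hF s hs

theorem Wuc.kill_fixed (hμ : T.Wuc μ K) {m : ℕ} {C L : ℝ} {g : MM H D → ℝ} (h0 : g 0 = 0)
    (hL : Lip L g) (hD : T.Dom m C g) :
    Tendsto (fun k => ev (μ k) g) (UU : Filter ℕ) (𝓝 0) := by
  set Λ := |L| * 2 ^ (m + 6) + |C| + 1 with hΛ
  have hΛ0 : 0 < Λ := by positivity
  have h1 : Lip ((1 / 2) ^ (m + 6) * Λ) g := by
    refine hL.mono ?_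
    have e : (1 / 2 : ℝ) ^ (m + 6) * Λ = |L| + (1 / 2) ^ (m + 6) * (|C| + 1) := by
      rw [hΛ, one_div, inv_pow]
      field_simp
      ring
    have : (0 : ℝ) ≤ (1 / 2) ^ (m + 6) * (|C| + 1) := by positivity
    linarith [le_abs_self L]
  have h2 : C ≤ 2 ^ m * Λ := by
    have a1 : Λ ≤ 2 ^ m * Λ := le_mul_of_one_le_left hΛ0.le (one_le_pow₀ one_le_two)
    have a2 : 0 ≤ |L| * 2 ^ (m + 6) := by positivity
    linarith [le_abs_self C]
  refine tendsto_zero_of_FF fun δ hδ => ?_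
  filter_upwards [FF_card_real (K * Λ / δ)] with F hF
  choose σ hσ1 hσ2 using fun k => exists_sign (ev (μ k) g)
  have h3 := hμ.le hΛ0 h0 h1 hD h2 F hσ1
  simp only [hσ2] at h3
  rw [div_le_iff₀ hδ] at hF
  linarith

theorem Wuc.kill_disjoint (hμ : T.Wuc μ K) {m : ℕ} {C L : ℝ} (hL : 0 ≤ L) {h : ℕ → MM H D → ℝ}
    (h1 : ∀ᶠ k in (UU : Filter ℕ), h k 0 = 0 ∧ T.Dom m C (h k) ∧ Lip L (h k))
    (h2 : Typ fun k l => ∀ w, h k w = 0 ∨ h l w = 0) :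
    Tendsto (fun k => ev (μ k) (h k)) (UU : Filter ℕ) (𝓝 0) := by
  refine hμ.kill_small (m := m) (C := C) (h1.mono fun k hk => ⟨hk.1, hk.2.1⟩) fun ε hε => ?_
  filter_upwards [FF_mem h1, FF_pair h2, FF_card_real (2 * L / ε)] with F g1 g2 g3 s hs
  refine (lip_sum_of_disjoint F hs hL (fun k hk => (g1 k hk).2.2) fun k hk l hl hkl w => ?_).mono ?_
  · rcases lt_or_gt_of_ne hkl with h | h
    · exact g2 k hk l hl h w
    · exact (g2 l hl k hk h w).symm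
  · rw [div_le_iff₀ hε] at g3
    linarith

theorem Wuc.kill_B (hμ : T.Wuc μ K) {m : ℕ} {C L A : ℝ} (hL : 0 ≤ L) (hA : 0 ≤ A)
    {h : ℕ → MM H D → ℝ} {η : ℕ → ℝ} (hη : ∀ k, 0 < η k)
    (h1 : ∀ᶠ k in (UU : Filter ℕ), h k 0 = 0 ∧ Lip L (h k) ∧ (∀ w, |h k w| ≤ A * η k) ∧
      ∀ a, T.Dom m C (fun w => h k w * sw (NI (Ici a) w / η k)))
    (h2 : Typ fun k l => η k ≤ η l)
    (h3 : ∀ a, ∀ᶠ l in (UU : Filter ℕ), ∀ w, h l w ≠ 0 → ∃ i, a ≤ i ∧ η l ≤ ‖w i‖) :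
    Tendsto (fun k => ev (μ k) (h k)) (UU : Filter ℕ) (𝓝 0) := by
  choose a ha using fun k => exists_tail_supp (μ k) (half_pos (hη k))
  have key := hμ.kill_disjoint (m := m) (C := C) (L := L + 2 * A) (by positivity)
    (h := fun k w => h k w * sw (NI (Ici (a k)) w / η k)) ?_ ?_
  · refine key.congr fun k => ev_congr _ fun w hw => ?_
    rw [sw_eq_one, mul_one]
    rw [div_le_iff₀ (hη k)]
    refine (NI_le (half_pos (hη k)).le fun i hi => ha k w hw i hi).trans (le_of_eq ?_)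
    ring
  · filter_upwards [h1] with k hk
    refine ⟨by simp only [hk.1, zero_mul], hk.2.2.2 _, ?_⟩
    have b1 : Lip (2 / η k) (fun w : MM H D => sw (NI (Ici (a k)) w / η k)) := by
      intro w w'
      refine (abs_sw_sub _ _).trans ?_
      rw [← sub_div, abs_div, abs_of_pos (hη k), div_mul_eq_mul_div, mul_div_assoc]
      gcongr
      · exact (hη k).le
      · exact abs_NI_sub _ _ _
    refine (hk.2.1.mul b1 hk.2.2.1 (B := 1) fun w => ?_).mono (le_of_eq ?_)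
    · rw [abs_of_nonneg (sw_nonneg _)]
      exact sw_le_one _
    · have := (hη k).ne'
      field_simp
  · filter_upwards [h2] with k hk
    filter_upwards [hk, h3 (a k)] with l b1 b2 w
    by_cases hl : h l w = 0
    · exact Or.inr (by rw [hl, zero_mul])
    · obtain ⟨i, i1, i2⟩ := b2 w hl
      left
      rw [sw_eq_zero, mul_zero]
      rw [le_div_iff₀ (hη k), one_mul]
      exact b1.trans (i2.trans (le_NI i1 w))

theorem Wuc.kill_SC (hμ : T.Wuc μ K) {m : ℕ} {C : ℝ} {u : ℕ → MM H D → ℝ} (hu : SC u)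
    (h1 : ∀ᶠ k in (UU : Filter ℕ), u k 0 = 0 ∧ T.Dom m C (u k)) :
    Tendsto (fun k => ev (μ k) (u k)) (UU : Filter ℕ) (𝓝 0) := by
  obtain ⟨v, A, -, hv, hs⟩ := hu
  have hlim : ∀ w, Tendsto (fun k => u k w) (UU : Filter ℕ) (𝓝 (v w)) := fun w =>
    tendsto_sub_nhds_zero_iff.1 (hs.tendsto w)
  have hv0 : v 0 = 0 :=
    tendsto_nhds_unique (hlim 0) (tendsto_const_nhds.congr' (h1.mono fun k hk => hk.1.symm))
  have hD : T.Dom m C v := dom_lim (h1.mono fun k hk => hk.2) hlim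
  have a1 := hμ.kill_fixed hv0 hv.2 hD
  have a2 := hμ.kill_small (m := m) (C := C + C) (h := fun k w => u k w - v w)
    (h1.mono fun k hk => ⟨by simp only [hk.1, hv0, sub_self], hk.2.sub hD⟩) fun ε hε => hs.lip hε
  have a3 := a2.add a1
  rw [add_zero] at a3
  refine a3.congr fun k => ?_
  rw [ev_sub]
  ring

end Dat

end Crest.Agent.R91
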