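import Crest.Agent.R91.KillA

/-! The case of scales tending to `-∞`: flattening. -/

set_option autoImplicit false
set_option linter.unusedSectionVars false

namespace Crest.Agent.R91

open Filter Topology Set
open scoped InnerProductSpace ZeroAtInfty ENNReal

theorem exists_param (m : ℕ) (A : ℝ) {δ : ℝ} (hδ : 0 < δ) : ∃ i : ℕ, 2 ≤ 2 ^ (m + i + 1) * δ ∧
    (1 / 4) ^ (i + 1) * A ≤ (1 / 2) ^ (m + i + 1 + 6) * δ / 2 := by
  obtain ⟨i, -, hi⟩ := Dat.exists_pow_ge 0 (2 + |A| * 2 ^ (m + 7)) hδ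
  have h0 : (0 : ℝ) ≤ |A| * 2 ^ (m + 7) := by positivity
  refine ⟨i, ?_, ?_⟩
  · have : (2 : ℝ) ^ i * δ ≤ 2 ^ (m + i + 1) * δ :=
      mul_le_mul_of_nonneg_right (pow_le_pow_right₀ one_le_two (by omega)) hδ.le
    linarith
  · have e1 : (1 / 4 : ℝ) ^ (i + 1) = (1 / 2) ^ (m + i + 1 + 6) * (2 ^ (m + 7) / (4 * 2 ^ i)) := by
      rw [show (1 / 4 : ℝ) = (1 / 2) * (1 / 2) by norm_num, mul_pow]
      simp only [one_div, inv_pow]
      field_simp
      ring
    rw [e1, mul_assoc, mul_div_assoc]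
    refine mul_le_mul_of_nonneg_left ?_ (by positivity)
    rw [div_mul_eq_mul_div, div_le_iff₀ (by positivity)]
    have h1 : (2 : ℝ) ^ (m + 7) * A ≤ |A| * 2 ^ (m + 7) := by
      rw [mul_comm]
      exact mul_le_mul_of_nonneg_right (le_abs_self A) (by positivity)
    have h2 : 0 < (2 : ℝ) ^ i * δ := by positivity
    nlinarith

theorem eta_anti (j : ℤ) {q q' : ℕ} (h : q ≤ q') : eta j q' ≤ eta j q :=
  div_le_div_of_nonneg_left (sc_pos _).le (by positivity) (pow_le_pow_right₀ one_le_two h)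

theorem eta_mono {j j' : ℤ} (h : j ≤ j') (q : ℕ) : eta j q ≤ eta j' q :=
  div_le_div_of_nonneg_right (sc_mono (by omega)) (by positivity)

theorem eta_le (j : ℤ) (q : ℕ) : eta j q ≤ sc (j - 1) :=
  div_le_self (sc_pos _).le (one_le_pow₀ one_le_two)

theorem sc_eq_eta (j : ℤ) (q : ℕ) : sc j = 2 ^ q * sc 1 * eta j q := by
  have h1 : sc j = sc (j - 1) * sc 1 := by rw [← sc_add]; congr 1; ring
  unfold eta
  rw [h1]
  field_simp

theorem sl_count {M : Type*} [NormedAddCommGroup M] {w : M} (F : Finset ℕ) (N : ℕ)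
    {u : ℕ → M → ℝ} {L ε : ℝ} (hL : 0 ≤ L) (hε : 0 ≤ ε) (A : ℕ → Prop) (B : ℕ → ℕ → Prop)
    (h1 : ∀ k ∈ F, Sl (u k) w L)
    (h2 : ∀ k ∈ F, ∀ l ∈ F, k < l → A l → Sl (u k) w ε)
    (h3 : ∀ k ∈ F, ¬ A k → (∀ t < N, ¬ B t k) → Sl (u k) w ε)
    (h4 : ∀ t < N, ∀ k ∈ F, ∀ l ∈ F, k < l → B t k → ¬ B t l)
    {s : ℕ → ℝ} (hs : ∀ k, s k = 1 ∨ s k = -1) :
    Sl (fun w => ∑ k ∈ F, s k * u k w) w ((N + 1) * L + ε * F.card) := by
  classical
  set E := F.filter fun k => ¬ Sl (u k) w ε with hE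
  have hsub : E ⊆ E.filter A ∪ (Finset.range N).biUnion fun t => F.filter (B t) := by
    intro k hk
    obtain ⟨hk1, hk2⟩ := Finset.mem_filter.1 hk
    by_cases hA : A k
    · exact Finset.mem_union_left _ (Finset.mem_filter.2 ⟨hk, hA⟩)
    · refine Finset.mem_union_right _ ?_
      by_contra hcon
      refine hk2 (h3 k hk1 hA fun t ht hB => hcon ?_)
      exact Finset.mem_biUnion.2 ⟨t, Finset.mem_range.2 ht, Finset.mem_filter.2 ⟨hk1, hB⟩⟩
  have c1 : (E.filter A).card ≤ 1 := by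
    refine Finset.card_le_one.2 fun a ha b hb => ?_
    obtain ⟨a1, a2⟩ := Finset.mem_filter.1 ha
    obtain ⟨b1, b2⟩ := Finset.mem_filter.1 hb
    obtain ⟨a3, a4⟩ := Finset.mem_filter.1 a1
    obtain ⟨b3, b4⟩ := Finset.mem_filter.1 b1
    by_contra hab
    rcases lt_or_gt_of_ne hab with h | h
    · exact a4 (h2 a a3 b b3 h b2)
    · exact b4 (h2 b b3 a a3 h a2)
  have c2 : ((Finset.range N).biUnion fun t => F.filter (B t)).card ≤ N := by
    refine Finset.card_biUnion_le.trans ?_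
    refine (Finset.sum_le_card_nsmul _ _ 1 fun t ht => ?_).trans (by simp)
    refine Finset.card_le_one.2 fun a ha b hb => ?_
    obtain ⟨a1, a2⟩ := Finset.mem_filter.1 ha
    obtain ⟨b1, b2⟩ := Finset.mem_filter.1 hb
    by_contra hab
    rcases lt_or_gt_of_ne hab with h | h
    · exact h4 t (Finset.mem_range.1 ht) a a1 b b1 h a2 b2
    · exact h4 t (Finset.mem_range.1 ht) b b1 a a1 h b2 a2
  have c3 : (E.card : ℝ) ≤ N + 1 := by
    have := (Finset.card_le_card hsub).trans ((Finset.card_union_le _ _).trans (add_le_add c1 c2))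
    have h5 : E.card ≤ N + 1 := by omega
    exact_mod_cast h5
  refine (sl_sum F (Λ := fun k => (if ¬ Sl (u k) w ε then L else 0) + ε) hs fun k hk => ?_).mono ?_
  · by_cases hk' : Sl (u k) w ε
    · simp [hk']
    · simp only [hk', not_false_eq_true, if_true]
      exact (h1 k hk).mono (by linarith)
  · rw [Finset.sum_add_distrib, ← Finset.sum_filter, Finset.sum_const, Finset.sum_const,
      nsmul_eq_mul, nsmul_eq_mul, ← hE]
    nlinarith

namespace Dat

variable {H D : Type} [NormedAddCommGroup H] [InnerProductSpace ℝ H] [CompleteSpace H]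
  [NormedAddCommGroup D] [InnerProductSpace ℝ D] {T : Dat H D}

theorem dd_ofFun_pos {M : ℕ} {β β' : ℕ → XX H D} (h : ofFun M β ≠ ofFun M β') :
    0 < T.dd M (ofFun M β) (ofFun M β') := by
  refine (T.dd_nonneg _ _ _).lt_of_ne fun h0 => h ?_
  ext1 i
  by_cases hi : i < M
  · have := T.norm_sub_le_dd hi (ofFun M β) (ofFun M β')
    rw [← h0, mul_zero, norm_le_zero_iff, sub_eq_zero] at this
    exact this
  · simp [hi]

theorem exists_scale (P : Finset (MM H D)) (M : ℕ)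
    (hP : ∀ b ∈ P, ∀ b' ∈ P, b ≠ b' → 0 < T.dd M b b') (j : ℤ) (a : ℝ) {δ : ℝ} (hδ : 0 < δ) :
    ∃ j' : ℤ, j' + 2 ≤ j ∧ j' ≤ -|j| ∧ j' ≤ -(M : ℤ) ∧
      (∀ b ∈ P, ∀ b' ∈ P, b ≠ b' → 2 * sc j' < T.dd M b b') ∧ a * sc j' ≤ δ := by
  have h1 : ∀ᶠ j' in atBot, ∀ b ∈ P, ∀ b' ∈ P, b ≠ b' → 2 * sc j' < T.dd M b b' := by
    refine (eventually_all_finset P).2 fun b hb => (eventually_all_finset P).2 fun b' hb' => ?_
    by_cases hbb : b = b'
    · exact Eventually.of_forall fun _ h => absurd hbb h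
    · have := (tendsto_sc_atBot.const_mul 2).eventually
        (gt_mem_nhds (show 2 * 0 < T.dd M b b' by simpa using hP b hb b' hb' hbb))
      exact this.mono fun _ h _ => h
  have h2 := (tendsto_sc_atBot.const_mul a).eventually
    (gt_mem_nhds (show a * 0 < δ by simpa using hδ))
  obtain ⟨j', a1, a2, a3, a4, a5⟩ := ((eventually_le_atBot (j - 2)).and
    ((eventually_le_atBot (-|j|)).and ((eventually_le_atBot (-(M : ℤ))).and (h1.and h2)))).exists
  exact ⟨j', by omega, a2, a3, a4, a5.le⟩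

theorem sl_sub_flat {g : MM H D → ℝ} {M : ℕ} {ρ r : ℝ} (hρ : 0 < ρ) (hr : r ≤ ρ)
    (hr' : ∀ b w, T.dd M w b < r → T.bump M ρ b w = 1) {P : Finset (MM H D)}
    (hsep : ∀ b ∈ P, ∀ b' ∈ P, b ≠ b' → 2 * ρ < T.dd M b b') {w p : MM H D} (hp : p ∈ P)
    (hw : T.dd M w p < r) : Sl (fun w => g w - T.flat g M ρ P w) w 0 := by
  refine sl_of_const (c := g p) ?_
  filter_upwards [(T.continuous_dd M p).continuousAt.eventually (gt_mem_nhds hw)] with w' hw'
  rw [flat_eq_single hρ hp fun b' hb' hne => by linarith [hsep p hp b' hb' hne.symm],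
    hr' p w' hw']
  ring

variable {μ : ℕ → MM H D →₀ ℝ} {K : ℝ}

theorem Wuc.kill_C' (hμ : T.Wuc μ K) {m : ℕ} {j : ℕ → ℤ} {n ℓ M : ℕ → ℕ}
    {c : ℕ → MM H D → ℝ} {I : ℕ → ℕ → Set ℕ} (hj : Tendsto j (UU : Filter ℕ) atBot)
    (h : ∀ᶠ k in (UU : Filter ℕ), T.Core m (j k) (n k) (ℓ k) (c k) ∧
      ((∀ q < m, I k q = ∅) ∨ 1 ≤ ℓ k * sc (j k)) ∧ ℓ k ≤ M k ∧ ∀ q < m, I k q ⊆ Iio (M k))
    (hM : Typ fun k l => M k ≤ ℓ l) :
    Tendsto (fun k => ev (μ k) (fun w => c k w * tau m (j k) (I k) w)) (UU : Filter ℕ) (𝓝 0) := by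
  classical
  have : CompleteSpace (XX H D) := T.J.toIsometryEquiv.completeSpace
  obtain ⟨L, hL, hinv⟩ := T.core_inv m
  have hL0 : 0 ≤ L := by linarith
  have hLP : 0 ≤ LP L m := hL0.trans (le_LP hL0 m)
  set g : ℕ → MM H D → ℝ := fun k w => c k w * tau m (j k) (I k) w with hg
  refine hμ.kill_of (C := 1 + 1) fun δ hδ => ?_
  obtain ⟨i, hi1, hi2⟩ := exists_param m (1 + 2 ^ (m + 1) * sc 1) hδ
  obtain ⟨L', -, hinv'⟩ := T.core_inv (m + i + 1)
  obtain ⟨R, hR, hloc⟩ := T.core_loc m (i + 1)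
  set N := T.pp (m + (i + 1)) with hN
  obtain ⟨B, hB⟩ := Eventually.choice (h.mono fun k hk => hloc _ _ _ _ hk.1)
  choose b hb using fun k => exists_enum (B k)
  let Conv : ℕ → Prop := fun t => ∀ x, (∀ᶠ k in (UU : Filter ℕ), x < ℓ k) →
    ∃ a, Tendsto (fun k => b k t x) (UU : Filter ℕ) (𝓝 a)
  have hβ : ∀ t x, ∃ a : XX H D, Conv t → (∀ᶠ k in (UU : Filter ℕ), x < ℓ k) →
      Tendsto (fun k => b k t x) (UU : Filter ℕ) (𝓝 a) := by
    intro t x
    by_cases h1 : Conv t ∧ ∀ᶠ k in (UU : Filter ℕ), x < ℓ k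
    · obtain ⟨a, ha⟩ := h1.1 x h1.2
      exact ⟨a, fun _ _ => ha⟩
    · exact ⟨0, fun h2 h3 => absurd ⟨h2, h3⟩ h1⟩
  choose β hβ using hβ
  have hx : ∀ t, ∃ (x : ℕ) (η : ℝ), 0 < η ∧ (¬ Conv t → (∀ᶠ k in (UU : Filter ℕ), x < ℓ k) ∧
      ∀ y, ∀ᶠ l in (UU : Filter ℕ), η < ‖y - b l t x‖) := by
    intro t
    by_cases h1 : Conv t
    · exact ⟨0, 1, one_pos, fun h2 => absurd h1 h2⟩
    · obtain ⟨x, h2⟩ := not_forall.1 h1
      obtain ⟨h3, h4⟩ := Classical.not_imp.1 h2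
      obtain ⟨η, h5, h6⟩ := UU_sep h4
      exact ⟨x, η, h5, fun _ => ⟨h3, h6⟩⟩
  choose x η hη hx using hx
  let P : ℕ → Finset (MM H D) := fun k =>
    ((Finset.range N).filter Conv).image fun t => ofFun (M k) (β t)
  have hPc : ∀ k, (P k).card ≤ N := fun k =>
    Finset.card_image_le.trans ((Finset.card_filter_le _ _).trans (by simp))
  have hPm : ∀ k t, t < N → Conv t → ofFun (M k) (β t) ∈ P k := fun k t h1 h2 =>
    Finset.mem_image.2 ⟨t, Finset.mem_filter.2 ⟨Finset.mem_range.2 h1, h2⟩, rfl⟩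
  have hPm' : ∀ k, ∀ p ∈ P k, ∃ t < N, Conv t ∧ ofFun (M k) (β t) = p := fun k p hp => by
    obtain ⟨t, h1, h2⟩ := Finset.mem_image.1 hp
    exact ⟨t, Finset.mem_range.1 (Finset.mem_filter.1 h1).1, (Finset.mem_filter.1 h1).2, h2⟩
  choose J J1 J2 J3 J4 J5 using fun k => exists_scale (T := T) (P k) (M k)
    (fun p hp p' hp' hne => by
      obtain ⟨t, -, -, rfl⟩ := hPm' k p hp
      obtain ⟨t', -, -, rfl⟩ := hPm' k p' hp'
      exact dd_ofFun_pos hne)
    (j k) ((∑ w ∈ (μ k).support, |μ k w|) * LP L m) hδ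
  choose r r1 r2 r3 using fun k => T.exists_bump_eq_one (M k) (sc_pos (J k))
  have hsc : Tendsto (fun k => sc (j k)) (UU : Filter ℕ) (𝓝 0) := tendsto_sc_atBot.comp hj
  refine ⟨m + i + 1, by linarith, fun k w => g k w - T.flat (g k) (M k) (sc (J k)) (P k) w,
    ?_, ?_⟩
  · filter_upwards [h] with k hk
    have a1 : IsPiece (T.Core m) m (j k) (n k) (ℓ k) (I k) (g k) := ⟨c k, hk.1, hk.2.1, rfl⟩
    have a2 : T.Core (m + i + 1) (J k) (n k) (M k) (T.flat (g k) (M k) (sc (J k)) (P k)) := by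
      refine Or.inr ⟨j k, ℓ k, _, g k, P k, T.piece_mono (Nat.le_add_right m i) a1, hk.2.2.1,
        fun q _ => ?_, hPc k, J4 k, J1 k, J2 k, J3 k, rfl⟩
      split_ifs with hq
      exacts [hk.2.2.2 q hq, empty_subset _]
    have a3 := hinv _ _ _ _ hk.1
    refine ⟨?_, (dom_of_GG (T.GG_mono (by omega) (Or.inr ⟨_, _, _, _, a1⟩))).sub
      (dom_of_GG (Or.inr ⟨J k, n k, M k, fun _ => ∅, _, a2, Or.inl fun _ _ => rfl, ?_⟩)), ?_⟩
    · rw [(hinv' _ _ _ _ a2).zero]
      simp only [hg, a3.zero, zero_mul, sub_self]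
    · funext w
      rw [tau_eq_one _ fun _ _ => rfl, mul_one]
    · rw [ev_sub, sub_sub_cancel]
      refine (abs_ev_le _ (abs_flat_le hLP (a3.lip_piece m (I k))
        (a3.dep_piece hk.2.2.1 hk.2.2.2) (sc_pos _) (J4 k))).trans ?_
      rw [← mul_assoc]
      exact J5 k
  have t1 : Typ fun k l => M k ≤ ℓ l ∧ R * sc (j l) < r k / 2 ∧
      (∀ t < N, Conv t → T.dd (M k) (b l t) (ofFun (M k) (β t)) < r k / 2) ∧
      ∀ t < N, ¬ Conv t → η t < ‖b k t (x t) - b l t (x t)‖ := by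
    filter_upwards [hM] with k hk
    refine hk.and (Eventually.and ?_ (Eventually.and ?_ ?_))
    · exact (hsc.const_mul R).eventually (gt_mem_nhds (by simpa using r1 k))
    · refine (eventually_all_finite (finite_Iio N)).2 fun t _ => ?_
      by_cases ht : Conv t
      · have a1 : Tendsto (fun l => ∑ y ∈ Finset.range (M k), ‖b l t y - ofFun (M k) (β t) y‖)
            (UU : Filter ℕ) (𝓝 (∑ y ∈ Finset.range (M k), 0)) := by
          refine tendsto_finsetSum _ fun y hy => ?_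
          rw [ofFun_apply, if_pos (Finset.mem_range.1 hy)]
          exact tendsto_iff_norm_sub_tendsto_zero.1
            (hβ t y ht (hk.mono fun l hl => (Finset.mem_range.1 hy).trans_le hl))
        filter_upwards [a1.eventually (gt_mem_nhds (show _ < r k / 2 by simpa using r1 k))]
          with l hl _
        exact (T.dd_le_sum _ _ _).trans_lt hl
      · exact Eventually.of_forall fun _ h => absurd h ht
    · refine (eventually_all_finite (finite_Iio N)).2 fun t _ => ?_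
      by_cases ht : Conv t
      · exact Eventually.of_forall fun _ h => absurd ht h
      · exact ((hx t ht).2 _).mono fun _ h _ => h
  have t2 : ∀ᶠ k in (UU : Filter ℕ), ∀ t < N, ¬ Conv t →
      x t < ℓ k ∧ 2 ^ (x t + 1) * (R * sc (j k)) < η t / 2 := by
    refine (eventually_all_finite (finite_Iio N)).2 fun t _ => ?_
    by_cases ht : Conv t
    · exact Eventually.of_forall fun _ h => absurd ht h
    · have a1 := ((hsc.const_mul R).const_mul (2 ^ (x t + 1))).eventually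
        (gt_mem_nhds (show _ < η t / 2 by simpa using hη t))
      filter_upwards [(hx t ht).1, a1] with k a b _
      exact ⟨a, b⟩
  have hpos : (0 : ℝ) < (1 / 2) ^ (m + i + 1 + 6) * δ / 2 := by positivity
  filter_upwards [FF_pair t1, FF_mem t2, FF_mem h, FF_mem hB,
    FF_card_real ((N + 1) * (LP L m + 2 * LP L m) / ((1 / 2) ^ (m + i + 1 + 6) * δ / 2))]
    with F f1 f2 f3 f4 f5 s hs
  refine lip_of_sl fun w => ?_
  refine (sl_count F N (L := LP L m + 2 * LP L m) (ε := (1 / 2) ^ (m + i + 1 + 6) * δ / 2)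
    (by positivity) hpos.le
    (fun l => ∃ t < N, Conv t ∧ (T.dd (ℓ l) w (b l t) ≤ R * sc (j l) ∨
      T.dd (M l) w (ofFun (M l) (β t)) ≤ sc (J l)))
    (fun t k => ¬ Conv t ∧ T.dd (ℓ k) w (b k t) ≤ R * sc (j k)) (fun k hk => ?_) ?_ ?_ ?_ hs).mono ?_
  · have a3 := hinv _ _ _ _ (f3 k hk).1
    exact ((a3.lip_piece m (I k)).sub (lip_flat hLP (a3.lip_piece m (I k))
      (a3.dep_piece (f3 k hk).2.2.1 (f3 k hk).2.2.2) (sc_pos _) (J4 k))).sl w
  · rintro k hk l hl hkl ⟨t, ht, hc, hw⟩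
    obtain ⟨a1, a2, a3, -⟩ := f1 k hk l hl hkl
    refine (sl_sub_flat (sc_pos _) (r2 k) (r3 k) (J4 k) (hPm k t ht hc) ?_).mono hpos.le
    rcases hw with hw | hw
    · have b1 := T.dd_triangle (M k) w (b l t) (ofFun (M k) (β t))
      have b2 := T.dd_mono a1 w (b l t)
      linarith [a3 t ht hc]
    · have b0 : M k ≤ M l := a1.trans (f3 l hl).2.2.1
      have b1 : T.dd (M k) w (ofFun (M k) (β t)) = T.dd (M k) w (ofFun (M l) (β t)) := by
        unfold dd
        rw [T.Tn_congr (w := ofFun (M k) (β t)) (w' := ofFun (M l) (β t)) fun y hy => by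
          simp [hy, hy.trans_le b0]]
      have b2 := T.dd_mono b0 w (ofFun (M l) (β t))
      have b3 : sc (J l) ≤ sc (j l) := sc_mono (by linarith [J1 l])
      have b4 : sc (j l) ≤ R * sc (j l) := le_mul_of_one_le_left (sc_pos _).le hR
      linarith [r1 k]
  · intro k hk hA hB'
    push Not at hA hB'
    have a1 := (f4 k hk).2 w fun p hp => by
      obtain ⟨t, ht, rfl⟩ := (hb k).1 p hp
      have ht' : t < N := ht.trans_le (f4 k hk).1
      by_cases hc : Conv t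
      · exact (hA t ht' hc).1
      · exact hB' t ht' hc
    have a2 := T.flat_eventually_zero (g k) (M k) (sc_pos (J k)) (P k) (w := w) fun p hp => by
      obtain ⟨t, ht, hc, rfl⟩ := hPm' k p hp
      exact (hA t ht hc).2
    have a3 := a1.1.mul ((lip_tau m (j k) (I k)).sl w) (by positivity) (abs_tau_le m (j k) (I k))
    refine (a3.congr (a2.mono fun w' hw' => by rw [hw', sub_zero])).mono (le_trans ?_ hi2)
    have a4 := mul_le_mul_of_nonneg_right a1.2
      (show 0 ≤ 2 ^ (m + 1) * sc 1 / sc (j k) by have := sc_pos 1; have := sc_pos (j k); positivity)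
    have a5 : (1 / 4 : ℝ) ^ (i + 1) * sc (j k) * (2 ^ (m + 1) * sc 1 / sc (j k))
        = (1 / 4) ^ (i + 1) * (2 ^ (m + 1) * sc 1) := by
      have := (sc_pos (j k)).ne'
      field_simp
    linarith
  · rintro t ht k hk l hl hkl ⟨hc, a1⟩ ⟨-, a2⟩
    have b1 := (f1 k hk l hl hkl).2.2.2 t ht hc
    obtain ⟨b2, b3⟩ := f2 k hk t ht hc
    obtain ⟨b4, b5⟩ := f2 l hl t ht hc
    have b6 := (T.norm_sub_le_dd b2 w (b k t)).trans
      (mul_le_mul_of_nonneg_left a1 (by positivity))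
    have b7 := (T.norm_sub_le_dd b4 w (b l t)).trans
      (mul_le_mul_of_nonneg_left a2 (by positivity))
    have b8 := norm_sub_le_norm_sub_add_norm_sub (b k t (x t)) (w (x t)) (b l t (x t))
    rw [norm_sub_rev (b k t (x t)) (w (x t))] at b8
    linarith
  · rw [div_le_iff₀ hpos] at f5
    linarith

theorem Wuc.kill_C (hμ : T.Wuc μ K) {m : ℕ} {j : ℕ → ℤ} {n ℓ : ℕ → ℕ}
    {c : ℕ → MM H D → ℝ} {I : ℕ → ℕ → Set ℕ} (hj : Tendsto j (UU : Filter ℕ) atBot)
    (h : ∀ᶠ k in (UU : Filter ℕ), T.Core m (j k) (n k) (ℓ k) (c k) ∧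
      ((∀ q < m, I k q = ∅) ∨ 1 ≤ ℓ k * sc (j k))) :
    Tendsto (fun k => ev (μ k) (fun w => c k w * tau m (j k) (I k) w)) (UU : Filter ℕ) (𝓝 0) := by
  rcases UU_nat ℓ with hℓ | ⟨ℓ₀, hℓ⟩
  · choose a ha using fun k => exists_tail_supp (μ k) (half_pos (eta_pos (j k) m))
    have key := hμ.kill_C' (m := m) (n := n) (ℓ := ℓ) (M := fun k => max (ℓ k) (a k)) (c := c)
      (I := fun k q => I k q ∩ Iio (a k)) hj ?_ ?_
    · refine key.congr fun k => ev_congr _ fun w hw => ?_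
      congr 1
      refine Finset.prod_congr rfl fun q hq => sw_NI_congr (eta_pos _ _) fun i => ?_
      by_cases hi : i < a k
      · exact Or.inl (by simp [hi])
      · refine Or.inr ((ha k w hw i (not_lt.1 hi)).trans ?_)
        have := eta_anti (j k) (Finset.mem_range.1 hq).le
        linarith
    · filter_upwards [h] with k hk
      refine ⟨hk.1, hk.2.imp_left fun h1 q hq => by rw [h1 q hq, empty_inter], le_max_left _ _,
        fun q _ i hi => mem_Iio.2 (lt_of_lt_of_le hi.2 (le_max_right _ _))⟩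
    · exact Eventually.of_forall fun k => hℓ.eventually_ge_atTop _
  · refine hμ.kill_C' (n := n) (ℓ := ℓ) (M := ℓ) hj ?_ ?_
    · have a1 := ((tendsto_sc_atBot.comp hj).const_mul (ℓ₀ : ℝ)).eventually
        (gt_mem_nhds (show _ < (1 : ℝ) by simp))
      filter_upwards [h, hℓ, a1] with k h1 h2 h3
      refine ⟨h1.1, h1.2, le_rfl, fun q hq => ?_⟩
      rcases h1.2 with h4 | h4
      · rw [h4 q hq]
        exact empty_subset _
      · rw [h2] at h4
        exact absurd h3 (not_lt.2 h4)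
    · filter_upwards [hℓ] with k h1
      filter_upwards [hℓ] with l h2
      omega

end Dat

end Crest.Agent.R91
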