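import Crest.Agent.R91.Defs

/-! The profile of the flattening cut-off. -/

set_option autoImplicit false

namespace Crest.Agent.R91

open Filter Topology Set
open scoped InnerProductSpace ZeroAtInfty ENNReal

/-- a function that is constant near both ends has compactly supported derivative -/
theorem psi_hcs_deriv {f : ℝ → ℝ} {a b c d : ℝ} (h1 : ∀ y, y ≤ a → f y = c)
    (h2 : ∀ y, b ≤ y → f y = d) : HasCompactSupport (deriv f) := by
  refine HasCompactSupport.intro (K := Icc a b) isCompact_Icc fun y hy => ?_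
  rw [mem_Icc, not_and_or, not_le, not_le] at hy
  rcases hy with hy | hy
  · have : f =ᶠ[𝓝 y] fun _ => c := by
      filter_upwards [Iio_mem_nhds hy] with z hz using h1 z (le_of_lt hz)
    rw [this.deriv_eq]; simp
  · have : f =ᶠ[𝓝 y] fun _ => d := by
      filter_upwards [Ioi_mem_nhds hy] with z hz using h2 z (le_of_lt hz)
    rw [this.deriv_eq]; simp

theorem psi_deriv_bdd {f : ℝ → ℝ} (hf : ContDiff ℝ 2 f) (hc : HasCompactSupport (deriv f)) :
    ∃ C : ℝ, 0 ≤ C ∧ ∀ y, |deriv f y| ≤ C := by
  obtain ⟨C, hC⟩ := (hf.continuous_deriv (by norm_num)).bounded_above_of_compact_support hc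
  exact ⟨C, (norm_nonneg _).trans (hC 0), fun y => by simpa using hC y⟩

theorem psi_lip_of_deriv {f : ℝ → ℝ} (hf : Differentiable ℝ f) {C : ℝ}
    (hC : ∀ y, |deriv f y| ≤ C) (x y : ℝ) : |f x - f y| ≤ C * |x - y| := by
  have := Convex.norm_image_sub_le_of_norm_deriv_le (s := univ) (f := f) (C := C)
    (fun z _ => hf z) (fun z _ => by simpa using hC z) convex_univ (mem_univ y) (mem_univ x)
  simpa using this

theorem psi_c11 {f : ℝ → ℝ} (hf : ContDiff ℝ 2 f) (hc : HasCompactSupport (deriv f)) :
    ∃ C : ℝ, (∀ x y, |f x - f y| ≤ C * |x - y|) ∧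
      ∀ x x' δ, |(f (x + δ) - f x) - (f (x' + δ) - f x')| ≤ C * |δ| * |x - x'| := by
  obtain ⟨C, hC0, hC⟩ := psi_deriv_bdd hf hc
  have hd : Differentiable ℝ f := hf.differentiable (by norm_num)
  have hf1 : ContDiff ℝ 1 (deriv f) := by
    have : ContDiff ℝ (1 + 1) f := by simpa [one_add_one_eq_two] using hf
    exact this.deriv'
  obtain ⟨K, hK⟩ := hf1.lipschitzWith_of_hasCompactSupport hc (by norm_num)
  refine ⟨max C K, fun x y => ?_, fun x x' δ => ?_⟩
  · exact (psi_lip_of_deriv hd hC x y).trans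
      (mul_le_mul_of_nonneg_right (le_max_left _ _) (abs_nonneg _))
  · have hg : ∀ z, HasDerivAt (fun z => f (z + δ) - f z) (deriv f (z + δ) - deriv f z) z := by
      intro z
      exact ((hd (z + δ)).hasDerivAt.comp_add_const z δ).sub (hd z).hasDerivAt
    have := psi_lip_of_deriv (f := fun z => f (z + δ) - f z) (fun z => (hg z).differentiableAt)
      (C := max C K * |δ|) (fun z => by
        rw [(hg z).deriv]
        have h := hK.dist_le_mul (z + δ) z
        rw [Real.dist_eq, Real.dist_eq, add_sub_cancel_left] at h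
        exact h.trans (mul_le_mul_of_nonneg_right (le_max_right _ _) (abs_nonneg _))) x x'
    simpa using this

theorem psi_slope_of_hasDerivAt {h : ℝ → ℝ} {h' s Λ : ℝ} (hd : HasDerivAt h h' s)
    (hΛ : |h'| < Λ) : ∀ᶠ s' in 𝓝 s, |h s' - h s| ≤ Λ * |s' - s| := by
  have := (hasDerivAt_iff_isLittleO.1 hd).def (sub_pos.2 hΛ)
  filter_upwards [this] with s' hs'
  simp only [smul_eq_mul, Real.norm_eq_abs] at hs'
  have h1 : |h s' - h s| ≤ |h s' - h s - (s' - s) * h'| + |(s' - s) * h'| := by
    have := abs_add_le (h s' - h s - (s' - s) * h') ((s' - s) * h')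
    simpa using this
  rw [abs_mul] at h1
  nlinarith [abs_nonneg (s' - s)]

/-- the logarithmic profile -/
noncomputable def psiLog (a y : ℝ) : ℝ :=
  if y < 1 then Real.smoothTransition (-a * Real.log (2 * (1 - y))) else 1

theorem psiLog_one {a : ℝ} (ha : 0 < a) (y : ℝ) (hy : 1 - Real.exp (-1 / a) / 2 ≤ y) :
    psiLog a y = 1 := by
  unfold psiLog
  split_ifs with h
  · apply Real.smoothTransition.one_of_one_le
    have h1 : Real.log (2 * (1 - y)) ≤ -1 / a := by
      rw [Real.log_le_iff_le_exp (by linarith)]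
      linarith
    have h2 : a * Real.log (2 * (1 - y)) ≤ a * (-1 / a) := mul_le_mul_of_nonneg_left h1 ha.le
    have h3 : a * (-1 / a) = -1 := by field_simp
    linarith
  · rfl

theorem psiLog_zero {a : ℝ} (ha : 0 < a) (y : ℝ) (hy : y ≤ 1 / 2) : psiLog a y = 0 := by
  unfold psiLog
  rw [if_pos (by linarith)]
  apply Real.smoothTransition.zero_of_nonpos
  have : 0 ≤ Real.log (2 * (1 - y)) := Real.log_nonneg (by linarith)
  nlinarith

theorem psiLog_eventuallyEq (a : ℝ) {y : ℝ} (hy : y < 1) :
    psiLog a =ᶠ[𝓝 y] fun z => Real.smoothTransition (-a * Real.log (2 * (1 - z))) := by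
  filter_upwards [Iio_mem_nhds hy] with z hz
  exact if_pos hz

theorem psiLog_contDiff {a : ℝ} (ha : 0 < a) : ContDiff ℝ 2 (psiLog a) := by
  rw [contDiff_iff_contDiffAt]
  intro y
  by_cases hy : y < 1
  · refine ContDiffAt.congr_of_eventuallyEq ?_ (psiLog_eventuallyEq a hy)
    have h1 : ContDiffAt ℝ 2 (fun z : ℝ => -a * Real.log (2 * (1 - z))) y := by
      refine contDiffAt_const.mul (ContDiffAt.log (by fun_prop) ?_)
      have : 0 < 2 * (1 - y) := by linarith
      exact this.ne'
    exact (Real.smoothTransition.contDiff (n := 2)).contDiffAt.comp y h1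
  · have : psiLog a =ᶠ[𝓝 y] fun _ => 1 := by
      have h0 : 1 - Real.exp (-1 / a) / 2 < y := by
        have := Real.exp_pos (-1 / a)
        linarith [not_lt.1 hy]
      filter_upwards [Ioi_mem_nhds h0] with z hz using psiLog_one ha z (le_of_lt hz)
    exact contDiffAt_const.congr_of_eventuallyEq this

theorem psiLog_hasDerivAt (a : ℝ) {y : ℝ} (hy : y < 1) :
    HasDerivAt (psiLog a)
      (deriv Real.smoothTransition (-a * Real.log (2 * (1 - y))) * (a / (1 - y))) y := by
  refine HasDerivAt.congr_of_eventuallyEq ?_ (psiLog_eventuallyEq a hy)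
  have h0 : (2 * (1 - y)) ≠ 0 := by
    have : 0 < 2 * (1 - y) := by linarith
    exact this.ne'
  have h1 : HasDerivAt (fun z : ℝ => 2 * (1 - z)) (-2) y := by
    simpa using ((hasDerivAt_id y).const_sub 1).const_mul 2
  have h2 : HasDerivAt (fun z : ℝ => -a * Real.log (2 * (1 - z))) (a / (1 - y)) y := by
    have h1y : (1 - y) ≠ 0 := by linarith
    have e : a / (1 - y) = -a * (-2 / (2 * (1 - y))) := by field_simp
    rw [e]
    exact (h1.log h0).const_mul (-a)
  have h3 : DifferentiableAt ℝ Real.smoothTransition (-a * Real.log (2 * (1 - y))) :=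
    ((Real.smoothTransition.contDiff (n := 1)).differentiable (by norm_num)) _
  exact h3.hasDerivAt.comp y h2

/-- Take `ψ y = smoothTransition (-a log (2 (1 - y)))` for `y < 1` and `ψ y = 1` otherwise, with
`a` small.  `ψ` is smooth and constant outside `[1/2, 1]`, so `ψ` and `deriv ψ` are Lipschitz,
and `|1 - y| |ψ' y| ≤ a C₀` where `C₀` bounds the derivative of `smoothTransition`.  The
derivative of `s ↦ ψ (exp (-s²))` is `-2 s y ψ' y` with `y = exp (-s²)`, and `s² y ≤ 1 - y`. -/
theorem exists_isPsi (ℓ : ℕ) : ∃ ψ, IsPsi ℓ ψ := by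
  obtain ⟨C, hC0, hC⟩ := psi_deriv_bdd (f := Real.smoothTransition)
    (Real.smoothTransition.contDiff (n := 2))
    (psi_hcs_deriv (a := 0) (b := 1) (fun y hy => Real.smoothTransition.zero_of_nonpos hy)
      (fun y hy => Real.smoothTransition.one_of_one_le hy))
  have hp : (0 : ℝ) < 2 ^ ℓ := by positivity
  set a : ℝ := 1 / (4 * (C + 1) * 2 ^ ℓ) with ha_def
  have ha : 0 < a := by positivity
  have hcd := psiLog_contDiff ha
  refine ⟨psiLog a, ⟨fun y => ?_, fun y => ?_, psiLog_zero ha,
    ⟨Real.exp (-1 / a) / 2, by positivity, psiLog_one ha⟩,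
    psi_c11 hcd (psi_hcs_deriv (psiLog_zero ha) (psiLog_one ha)), fun s hs => ?_⟩⟩
  · unfold psiLog
    split_ifs
    · exact Real.smoothTransition.nonneg _
    · exact zero_le_one
  · unfold psiLog
    split_ifs
    · exact Real.smoothTransition.le_one _
    · exact le_rfl
  · have he : HasDerivAt (fun s : ℝ => Real.exp (-s ^ 2)) (Real.exp (-s ^ 2) * (-(2 * s))) s := by
      have h1 : HasDerivAt (fun s : ℝ => -s ^ 2) (-(2 * s)) s := by
        have e : -(2 * s) = -(((2 : ℕ) : ℝ) * s ^ (2 - 1)) := by norm_num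
        rw [e]
        exact (hasDerivAt_pow 2 s).neg
      exact h1.exp
    rcases hs.eq_or_lt with h0 | hs
    · have hd := ((hcd.differentiable (by norm_num)) (Real.exp (-s ^ 2))).hasDerivAt.comp s he
      refine ⟨_, ?_, ?_, psi_slope_of_hasDerivAt hd (lt_add_one _)⟩
      · positivity
      · rw [← h0]; simp
    · set y := Real.exp (-s ^ 2) with hy
      have hy0 : 0 < y := Real.exp_pos _
      have hy1 : y < 1 := by
        rw [hy, Real.exp_lt_one_iff]
        have : 0 < s ^ 2 := by positivity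
        linarith
      have hsy : s ^ 2 * y ≤ 1 - y := by
        have h1 := Real.add_one_le_exp (s ^ 2)
        have h2 : Real.exp (s ^ 2) * y = 1 := by
          rw [hy, ← Real.exp_add]; simp
        nlinarith
      have hd := (psiLog_hasDerivAt a hy1).comp s he
      refine ⟨1 / (s * 2 ^ ℓ), by positivity, ?_, psi_slope_of_hasDerivAt hd ?_⟩
      · apply le_of_eq; field_simp
      · have h1y : 0 < 1 - y := by linarith
        have hb := hC (-a * Real.log (2 * (1 - y)))
        set D := deriv Real.smoothTransition (-a * Real.log (2 * (1 - y)))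
        have e1 : |D * (a / (1 - y)) * (y * -(2 * s))| = |D| * (a / (1 - y) * (y * (2 * s))) := by
          have hpos : 0 < a / (1 - y) * (y * (2 * s)) := by positivity
          rw [mul_assoc, abs_mul D, mul_neg, mul_neg, abs_neg, abs_of_pos hpos]
        rw [e1, lt_div_iff₀ (by positivity)]
        have e2 : a / (1 - y) * (y * (2 * s)) * (s * 2 ^ ℓ) ≤ 2 * a * 2 ^ ℓ := by
          have : a / (1 - y) * (y * (2 * s)) * (s * 2 ^ ℓ)
              = 2 * a * 2 ^ ℓ * (s ^ 2 * y / (1 - y)) := by ring
          rw [this]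
          exact mul_le_of_le_one_right (by positivity) ((div_le_one h1y).2 hsy)
        have e3 : 2 * a * 2 ^ ℓ = 1 / (2 * (C + 1)) := by
          rw [ha_def]; field_simp; ring
        have e4 : C * (1 / (2 * (C + 1))) < 1 := by
          rw [mul_one_div, div_lt_one (by positivity)]; linarith
        calc |D| * (a / (1 - y) * (y * (2 * s))) * (s * 2 ^ ℓ)
            = |D| * (a / (1 - y) * (y * (2 * s)) * (s * 2 ^ ℓ)) := by ring
          _ ≤ C * (1 / (2 * (C + 1))) := by
            rw [← e3]
            exact mul_le_mul hb e2 (by positivity) hC0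
          _ < 1 := e4

theorem isPsi (ℓ : ℕ) : IsPsi ℓ (psi ℓ) := Classical.epsilon_spec (exists_isPsi ℓ)

end Crest.Agent.R91
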