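import Crest.Agent.R91.Seq

/-! The Hilbert hotel and the bi-Lipschitz bijection `Psi0`. -/

set_option autoImplicit false
set_option linter.unusedSectionVars false

namespace Crest.Agent.R91

open Filter Topology Set
open scoped InnerProductSpace ZeroAtInfty ENNReal

theorem kap_nonneg (t : ℝ) : 0 ≤ kap t := by
  unfold kap
  have h1 : -1 ≤ max (-1) (min t 1) := le_max_left _ _
  have h2 : max (-1) (min t 1) ≤ 1 := max_le (by norm_num) (min_le_right _ _)
  have := Real.pi_pos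
  exact Real.cos_nonneg_of_neg_pi_div_two_le_of_le (by nlinarith) (by nlinarith)

theorem kap_le_one (t : ℝ) : kap t ≤ 1 := by
  exact Real.cos_le_one _

theorem kap_eq_zero {t : ℝ} (h : 1 ≤ |t|) : kap t = 0 := by
  unfold kap
  rcases le_abs'.1 h with h | h
  · rw [min_eq_left (by linarith), max_eq_left h]
    simp
  · rw [min_eq_right h, max_eq_right (by norm_num)]
    simp

theorem abs_kap_sub (s t : ℝ) : |kap s - kap t| ≤ 2 * |s - t| := by
  unfold kap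
  refine (Real.abs_cos_sub_cos_le _ _).trans ?_
  rw [← mul_sub, abs_mul, abs_of_pos (by positivity : 0 < Real.pi / 2)]
  have h1 : |max (-1) (min s 1) - max (-1) (min t 1)| ≤ |s - t| := by
    rw [max_comm (-1), max_comm (-1)]
    refine (abs_max_sub_max_le_abs _ _ _).trans ?_
    have := abs_min_sub_min_le_max s 1 t 1
    simpa using this
  have h2 : Real.pi / 2 ≤ 2 := by linarith [Real.pi_le_four]
  exact mul_le_mul h2 h1 (abs_nonneg _) (by norm_num)

theorem kap_sq_add (u : ℝ) : kap (u - ⌊u⌋) ^ 2 + kap (u - (⌊u⌋ + 1 : ℤ)) ^ 2 = 1 := by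
  have h1 := Int.floor_le u
  have h2 := Int.lt_floor_add_one u
  unfold kap
  push_cast
  rw [min_eq_left (by linarith), max_eq_right (by linarith), min_eq_left (by linarith),
    max_eq_right (by linarith)]
  have : Real.pi / 2 * (u - (⌊u⌋ + 1)) = Real.pi / 2 * (u - ⌊u⌋) - Real.pi / 2 := by ring
  rw [this, Real.cos_sub_pi_div_two, Real.cos_sq_add_sin_sq]

theorem min_mul_abs_lv_sub {r r' : ℝ} (hr : 0 ≤ r) (hr' : 0 ≤ r') :
    min r r' * |lv r - lv r'| ≤ |r - r'| / 32 := by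
  wlog h : r ≤ r' generalizing r r'
  · have := this hr' hr (le_of_not_ge h)
    rwa [min_comm, abs_sub_comm, abs_sub_comm r'] at this
  rw [min_eq_left h]
  rcases hr.eq_or_lt with rfl | hr0
  · rw [zero_mul]; positivity
  have hr'0 : 0 < r' := hr0.trans_le h
  have h1 : Real.log r ≤ Real.log r' := Real.log_le_log hr0 h
  have h2 : Real.log (r' / r) ≤ r' / r - 1 := Real.log_le_sub_one_of_pos (by positivity)
  rw [Real.log_div hr'0.ne' hr0.ne'] at h2
  have h3 : r * (Real.log r' - Real.log r) ≤ r' - r := by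
    calc r * (Real.log r' - Real.log r) ≤ r * (r' / r - 1) := by gcongr
      _ = r' - r := by field_simp
  unfold lv
  rw [abs_sub_comm, abs_sub_comm r, abs_of_nonneg (by linarith), abs_of_nonneg (by linarith)]
  linarith

/-- if the scale `j` is active then `r` is comparable with `sc j` -/
theorem sc_le_of_kap_ne_zero {r : ℝ} (hr : 0 < r) {j : ℤ} (h : kap (lv r - j) ≠ 0) :
    sc (j - 1) ≤ r ∧ r ≤ sc (j + 1) := by
  have h1 : |lv r - j| < 1 := by
    by_contra hc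
    exact h (kap_eq_zero (not_lt.1 hc))
  obtain ⟨h2, h3⟩ := abs_lt.1 h1
  unfold lv at h2 h3
  unfold sc
  constructor
  · rw [← Real.le_log_iff_exp_le hr]; push_cast; linarith
  · rw [← Real.log_le_iff_le_exp hr]; push_cast; linarith

section mix

variable {H E : Type} [NormedAddCommGroup H] [NormedAddCommGroup E] [NormedSpace ℝ E]

open Classical in
theorem mix_eq_sum (G : ℤ → H → E) (S : Set ℤ) (a : H) (u : ℝ) {F : Finset ℤ}
    (h1 : ⌊u⌋ ∈ F) (h2 : ⌊u⌋ + 1 ∈ F) :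
    mix G S a u = ∑ j ∈ F, (if j ∈ S then kap (u - j) else 0) • G j a := by
  unfold mix
  refine Finset.sum_subset ?_ ?_
  · intro j hj
    simp only [Finset.mem_insert, Finset.mem_singleton] at hj
    rcases hj with rfl | rfl <;> assumption
  · intro j _ hj
    simp only [Finset.mem_insert, Finset.mem_singleton, not_or] at hj
    have h3 := Int.floor_le u
    have h4 := Int.lt_floor_add_one u
    have : kap (u - j) = 0 := by
      apply kap_eq_zero
      rcases lt_or_gt_of_ne hj.1 with h | h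
      · have : (j : ℝ) + 1 ≤ ⌊u⌋ := by exact_mod_cast h
        exact le_abs.2 (Or.inl (by linarith))
      · have h5 : ⌊u⌋ + 2 ≤ j := by omega
        have : (⌊u⌋ : ℝ) + 2 ≤ j := by exact_mod_cast h5
        exact le_abs.2 (Or.inr (by linarith))
    simp [this]

theorem mix_singleton (G : ℤ → H → E) (j : ℤ) (a : H) (u : ℝ) :
    mix G {j} a u = kap (u - j) • G j a := by
  rw [mix_eq_sum G {j} a u (F := {j, ⌊u⌋, ⌊u⌋ + 1}) (by simp) (by simp),
    Finset.sum_eq_single_of_mem j (by simp)]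
  · simp
  · intro i _ hi
    simp [hi]

theorem mix_split (G : ℤ → H → E) (S : Set ℤ) (J : Finset ℤ) (hJ : (J : Set ℤ) ⊆ S) (a : H)
    (u : ℝ) : mix G S a u = mix G (S \ J) a u + ∑ j ∈ J, mix G {j} a u := by
  classical
  have h1 : ⌊u⌋ ∈ insert ⌊u⌋ (insert (⌊u⌋ + 1) J) := by simp
  have h2 : ⌊u⌋ + 1 ∈ insert ⌊u⌋ (insert (⌊u⌋ + 1) J) := by simp
  have h3 : J ⊆ insert ⌊u⌋ (insert (⌊u⌋ + 1) J) :=
    (Finset.subset_insert _ _).trans (Finset.subset_insert _ _)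
  simp only [mix_singleton]
  rw [mix_eq_sum G S a u h1 h2, mix_eq_sum G _ a u h1 h2]
  have h4 : ∑ j ∈ J, kap (u - j) • G j a =
      ∑ j ∈ insert ⌊u⌋ (insert (⌊u⌋ + 1) J), (if j ∈ J then kap (u - j) else 0) • G j a := by
    rw [← Finset.sum_subset h3]
    · exact Finset.sum_congr rfl fun j hj => by rw [if_pos hj]
    · intro j _ hj
      simp [hj]
  rw [h4, ← Finset.sum_add_distrib]
  refine Finset.sum_congr rfl fun j _ => ?_
  by_cases hj : j ∈ J
  · have : j ∈ S := hJ hj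
    simp [hj, this]
  · simp [hj]

theorem norm_mix_le {G : ℤ → H → E} {S : Set ℤ} {B : ℝ} (hB : 0 ≤ B)
    (h : ∀ j ∈ S, ∀ a, ‖G j a‖ ≤ B) (a : H) (u : ℝ) : ‖mix G S a u‖ ≤ 2 * B := by
  unfold mix
  refine (norm_sum_le _ _).trans ((Finset.sum_le_card_nsmul _ _ B ?_).trans ?_)
  · intro j _
    by_cases hj : j ∈ S
    · rw [if_pos hj, norm_smul, Real.norm_of_nonneg (kap_nonneg _)]
      exact (mul_le_of_le_one_left (norm_nonneg _) (kap_le_one _)).trans (h j hj a)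
    · simpa [hj] using hB
  · rw [nsmul_eq_mul]
    refine mul_le_mul_of_nonneg_right ?_ hB
    exact_mod_cast Finset.card_le_two

/-- Change first `a` (two active scales, for them `r ≤ sc (j+1)`), then the scale parameter (at most
four scales, `abs_kap_sub`, `min_mul_abs_lv_sub`).  If `min r r' = 0` there is nothing to prove. -/
theorem min_mul_norm_mix_sub {G : ℤ → H → E} {S : Set ℤ} {B Λ : ℝ} (hB : 0 ≤ B) (hΛ : 0 ≤ Λ)
    (h : ∀ j ∈ S, ∀ a, ‖G j a‖ ≤ B)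
    (h' : ∀ j ∈ S, ∀ a a', ‖G j a - G j a'‖ ≤ Λ * ‖a - a'‖ / sc (j + 1))
    (a a' : H) {r r' : ℝ} (hr : 0 ≤ r) (hr' : 0 ≤ r') :
    min r r' * ‖mix G S a (lv r) - mix G S a' (lv r')‖ ≤ 2 * Λ * ‖a - a'‖ + B / 4 * |r - r'| := by
  classical
  rcases hr.eq_or_lt with rfl | hr0
  · rw [min_eq_left hr', zero_mul]; positivity
  have hm : 0 ≤ min r r' := le_min hr hr'
  have h1 : r * ‖mix G S a (lv r) - mix G S a' (lv r)‖ ≤ 2 * Λ * ‖a - a'‖ := by
    unfold mix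
    rw [← Finset.sum_sub_distrib]
    refine (mul_le_mul_of_nonneg_left (norm_sum_le _ _) hr).trans ?_
    rw [Finset.mul_sum]
    refine (Finset.sum_le_card_nsmul _ _ (Λ * ‖a - a'‖) ?_).trans ?_
    · intro j _
      rw [← smul_sub]
      by_cases hj : j ∈ S
      · rw [if_pos hj]
        by_cases hk : kap (lv r - j) = 0
        · rw [hk, zero_smul, norm_zero, mul_zero]; positivity
        · have h2 := (sc_le_of_kap_ne_zero hr0 hk).2
          have h3 := sc_pos (j + 1)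
          rw [norm_smul, Real.norm_of_nonneg (kap_nonneg _)]
          calc r * (kap (lv r - j) * ‖G j a - G j a'‖)
              ≤ sc (j + 1) * (1 * (Λ * ‖a - a'‖ / sc (j + 1))) := by
                gcongr
                · exact mul_nonneg (kap_nonneg _) (norm_nonneg _)
                · exact kap_le_one _
                · exact h' j hj a a'
            _ = Λ * ‖a - a'‖ := by field_simp
      · rw [if_neg hj, zero_smul, norm_zero, mul_zero]; positivity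
    · rw [nsmul_eq_mul, mul_assoc]
      refine mul_le_mul_of_nonneg_right ?_ (by positivity)
      exact_mod_cast Finset.card_le_two
  have h2 : ‖mix G S a' (lv r) - mix G S a' (lv r')‖ ≤ 8 * B * |lv r - lv r'| := by
    rw [mix_eq_sum G S a' (lv r) (F := {⌊lv r⌋, ⌊lv r⌋ + 1, ⌊lv r'⌋, ⌊lv r'⌋ + 1}) (by simp) (by simp),
      mix_eq_sum G S a' (lv r') (F := {⌊lv r⌋, ⌊lv r⌋ + 1, ⌊lv r'⌋, ⌊lv r'⌋ + 1}) (by simp) (by simp),
      ← Finset.sum_sub_distrib]
    refine (norm_sum_le _ _).trans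
      ((Finset.sum_le_card_nsmul _ _ (2 * |lv r - lv r'| * B) ?_).trans ?_)
    · intro j _
      by_cases hj : j ∈ S
      · rw [if_pos hj, if_pos hj, ← sub_smul, norm_smul, Real.norm_eq_abs]
        have h3 := abs_kap_sub (lv r - j) (lv r' - j)
        rw [sub_sub_sub_cancel_right] at h3
        exact mul_le_mul h3 (h j hj a') (norm_nonneg _) (by positivity)
      · rw [if_neg hj, if_neg hj, sub_self, norm_zero]; positivity
    · rw [nsmul_eq_mul]
      have h4 : (({⌊lv r⌋, ⌊lv r⌋ + 1, ⌊lv r'⌋, ⌊lv r'⌋ + 1} : Finset ℤ).card : ℝ) ≤ 4 := by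
        exact_mod_cast Finset.card_le_four
      calc _ ≤ 4 * (2 * |lv r - lv r'| * B) := by gcongr
        _ = _ := by ring
  have h3 := min_mul_abs_lv_sub hr hr'
  calc min r r' * ‖mix G S a (lv r) - mix G S a' (lv r')‖
      ≤ min r r' * (‖mix G S a (lv r) - mix G S a' (lv r)‖ +
          ‖mix G S a' (lv r) - mix G S a' (lv r')‖) := by
        gcongr
        exact norm_sub_le_norm_sub_add_norm_sub _ _ _
    _ ≤ r * ‖mix G S a (lv r) - mix G S a' (lv r)‖ + min r r' * (8 * B * |lv r - lv r'|) := by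
        rw [mul_add]
        gcongr
        exact min_le_left _ _
    _ = r * ‖mix G S a (lv r) - mix G S a' (lv r)‖ + 8 * B * (min r r' * |lv r - lv r'|) := by ring
    _ ≤ 2 * Λ * ‖a - a'‖ + 8 * B * (|r - r'| / 32) := by gcongr
    _ = _ := by ring

end mix

namespace Dat

variable {H D : Type} [NormedAddCommGroup H] [InnerProductSpace ℝ H] [CompleteSpace H]
  [NormedAddCommGroup D] [InnerProductSpace ℝ D] (T : Dat H D)

theorem norm_feat (j : ℤ) (a : H) : ‖T.feat j a‖ = 1 := by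
  rw [feat, T.norm_V, T.orth.1 j, T.norm_γ, mul_one]

theorem inner_feat_of_ne {j j' : ℤ} (h : j ≠ j') (a a' : H) :
    ⟪T.feat j a, T.feat j' a'⟫_ℝ = 0 := by
  rw [feat, feat, T.inner_V, T.orth.inner_eq_zero h, zero_mul]

theorem inner_feat (j : ℤ) (a a' : H) :
    ⟪T.feat j a, T.feat j a'⟫_ℝ = Real.exp (-(‖a - a'‖ / (24 * sc (j + 1))) ^ 2) := by
  have := sc_pos (j + 1)
  rw [feat, feat, T.inner_V, real_inner_self_eq_norm_sq, T.orth.1 j, T.inner_γ, ← smul_sub,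
    norm_smul, Real.norm_of_nonneg (by positivity), one_pow, one_mul, inv_mul_eq_div]

theorem norm_feat_sub (j : ℤ) (a a' : H) :
    ‖T.feat j a - T.feat j a'‖ ≤ 1 / 16 * ‖a - a'‖ / sc (j + 1) := by
  have := sc_pos (j + 1)
  rw [feat, feat, ← map_sub, T.norm_V, T.orth.1 j, one_mul]
  refine (T.norm_γ_sub _ _).trans (le_of_eq ?_)
  rw [← smul_sub, norm_smul, Real.norm_of_nonneg (by positivity)]
  field_simp
  ring

theorem inner_Vs (ξ z h : H) : ⟪T.Vs ξ z, h⟫_ℝ = ⟪z, T.V ξ h⟫_ℝ :=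
  ContinuousLinearMap.adjoint_inner_left _ _ _

theorem Vs_V (ξ η h : H) : T.Vs ξ (T.V η h) = ⟪ξ, η⟫_ℝ • h := by
  refine ext_inner_right ℝ fun g => ?_
  rw [T.inner_Vs, T.inner_V, real_inner_smul_left, real_inner_comm]

theorem norm_Vs_le (ξ z : H) : ‖T.Vs ξ z‖ ≤ ‖ξ‖ * ‖z‖ := by
  have h1 : ‖T.Vs ξ z‖ ^ 2 ≤ ‖z‖ * (‖ξ‖ * ‖T.Vs ξ z‖) := by
    rw [← real_inner_self_eq_norm_sq, T.inner_Vs, ← T.norm_V]
    exact real_inner_le_norm _ _
  rcases (norm_nonneg (T.Vs ξ z)).eq_or_lt with h | h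
  · rw [← h]; positivity
  · refine le_of_mul_le_mul_right ?_ h
    nlinarith

theorem Vs_sub (ξ η z : H) : T.Vs (ξ - η) z = T.Vs ξ z - T.Vs η z := by
  refine ext_inner_right ℝ fun g => ?_
  rw [inner_sub_left, T.inner_Vs, T.inner_Vs, T.inner_Vs, map_sub, sub_apply,
    inner_sub_right]

/-- `Vs` is linear in `ξ`, hence commutes with `mix` -/
theorem Vs_mix (G : ℤ → H → H) (S : Set ℤ) (a : H) (u : ℝ) (z : H) :
    T.Vs (mix G S a u) z = mix (fun j a => T.Vs (G j a) z) S a u := by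
  refine ext_inner_right ℝ fun g => ?_
  unfold mix
  rw [T.inner_Vs, map_sum, sum_apply, inner_sum, sum_inner]
  refine Finset.sum_congr rfl fun j _ => ?_
  rw [map_smul, smul_apply, real_inner_smul_right, real_inner_smul_left,
    T.inner_Vs]

theorem norm_mix_feat (a : H) (u : ℝ) : ‖mix T.feat univ a u‖ = 1 := by
  have hne : ⌊u⌋ ≠ ⌊u⌋ + 1 := by omega
  have h1 : ‖mix T.feat univ a u‖ ^ 2 = 1 := by
    unfold mix
    rw [Finset.sum_pair hne, norm_add_sq_real, real_inner_smul_left, real_inner_smul_right,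
      T.inner_feat_of_ne hne, norm_smul, norm_smul, T.norm_feat, T.norm_feat]
    simp only [mem_univ, if_true, mul_zero, add_zero, mul_one, Real.norm_eq_abs, sq_abs]
    exact kap_sq_add u
  have h2 := norm_nonneg (mix T.feat univ a u)
  nlinarith

theorem norm_vS_univ (n : ℕ) (w : MM H D) : ‖T.vS n univ w‖ = 1 := by
  exact T.norm_mix_feat _ _

theorem norm_vS_le (n : ℕ) (S : Set ℤ) (w : MM H D) : ‖T.vS n S w‖ ≤ 2 := by
  have := norm_mix_le (G := T.feat) (S := S) zero_le_one (fun j _ a => (T.norm_feat j a).le)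
    (T.Tn n w) (lv ‖w n‖)
  rw [mul_one] at this
  exact this

theorem min_mul_norm_vS_sub (n : ℕ) (S : Set ℤ) (w w' : MM H D) :
    min ‖w n‖ ‖w' n‖ * ‖T.vS n S w - T.vS n S w'‖
      ≤ ‖w - w'‖ / 8 + |‖w n‖ - ‖w' n‖| / 4 := by
  have h1 := min_mul_norm_mix_sub (G := T.feat) (S := S) (B := 1) (Λ := 1 / 16) zero_le_one
    (by norm_num) (fun j _ a => (T.norm_feat j a).le) (fun j _ a a' => T.norm_feat_sub j a a')
    (T.Tn n w) (T.Tn n w') (norm_nonneg (w n)) (norm_nonneg (w' n))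
  have h2 : ‖T.Tn n w - T.Tn n w'‖ ≤ ‖w - w'‖ := T.dd_le n w w'
  unfold vS
  linarith

theorem min_mul_norm_vS_sub' (n : ℕ) (S : Set ℤ) {w w' : MM H D} (h : ‖w n‖ ≤ ‖w' n‖) :
    ‖T.vS n S w - T.vS n S w'‖ * ‖w n‖ ≤ 3 / 8 * ‖w - w'‖ := by
  have h1 := T.min_mul_norm_vS_sub n S w w'
  rw [min_eq_left h, mul_comm] at h1
  have h2 : |‖w n‖ - ‖w' n‖| ≤ ‖w - w'‖ :=
    (abs_norm_sub_norm_le _ _).trans (norm_apply_le (w - w') n)
  linarith

theorem norm_J_sq (a : H) (d : D) : ‖T.J (WithLp.toLp 2 (a, d))‖ ^ 2 = ‖a‖ ^ 2 + ‖d‖ ^ 2 := by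
  rw [LinearIsometryEquiv.norm_map, WithLp.prod_norm_sq_eq_of_L2]
  rfl

theorem J_sub (a a' : H) (d d' : D) : T.J (WithLp.toLp 2 (a - a', d - d')) =
    T.J (WithLp.toLp 2 (a, d)) - T.J (WithLp.toLp 2 (a', d')) := by
  rw [← map_sub]; rfl

theorem norm_fst_le' (x : XX H D) : ‖x.fst‖ ≤ ‖x‖ := by
  have h := WithLp.prod_norm_sq_eq_of_L2 x
  exact abs_le_of_sq_le_sq' (by nlinarith [sq_nonneg ‖x.snd‖]) (norm_nonneg _) |>.2

theorem Yf_sub (ξ : H) (x x' : XX H D) : T.Yf ξ (x - x') = T.Yf ξ x - T.Yf ξ x' := by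
  unfold Yf
  rw [WithLp.sub_fst, WithLp.sub_snd, map_sub, T.J_sub]
  abel

theorem norm_Yf_le {ξ : H} (hξ : ‖ξ‖ = 1) (x : XX H D) : ‖T.Yf ξ x‖ ≤ 2 * ‖x‖ := by
  have h1 : ‖T.Vs ξ x.fst‖ ≤ ‖x.fst‖ := by simpa [hξ] using T.norm_Vs_le ξ x.fst
  have h2 : ‖T.J (WithLp.toLp 2 (T.Vs ξ x.fst, x.snd))‖ ≤ ‖x‖ := by
    refine (abs_le_of_sq_le_sq' ?_ (norm_nonneg _)).2
    rw [T.norm_J_sq, WithLp.prod_norm_sq_eq_of_L2]
    gcongr
  have h3 := norm_fst_le' x
  unfold Yf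
  refine (norm_sub_le _ _).trans ?_
  linarith

theorem norm_Yf_sub_le (ξ η : H) (x : XX H D) :
    ‖T.Yf ξ x - T.Yf η x‖ ≤ 2 * ‖ξ - η‖ * ‖x‖ := by
  have e : T.Yf ξ x - T.Yf η x =
      T.J (WithLp.toLp 2 (T.Vs (ξ - η) x.fst, (0 : D))) - T.Vs (ξ - η) x.fst := by
    unfold Yf
    rw [T.Vs_sub, ← sub_self x.snd, T.J_sub]
    abel
  have h1 : ‖T.J (WithLp.toLp 2 (T.Vs (ξ - η) x.fst, (0 : D)))‖ ≤ ‖T.Vs (ξ - η) x.fst‖ := by
    refine (abs_le_of_sq_le_sq' ?_ (norm_nonneg _)).2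
    rw [T.norm_J_sq]; simp
  have h2 : ‖T.Vs (ξ - η) x.fst‖ ≤ ‖ξ - η‖ * ‖x‖ :=
    (T.norm_Vs_le _ _).trans (mul_le_mul_of_nonneg_left (norm_fst_le' x) (norm_nonneg _))
  rw [e]
  refine (norm_sub_le _ _).trans ?_
  linarith

/-- with `Y w = Yf (vS n univ w) (w n)`: use the point with the smaller norm for the change of `ξ` -/
theorem norm_Yf_vS_sub (n : ℕ) (w w' : MM H D) :
    ‖T.Yf (T.vS n univ w) (w n) - T.Yf (T.vS n univ w') (w' n)‖ ≤ 3 * ‖w - w'‖ := by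
  wlog h : ‖w n‖ ≤ ‖w' n‖ generalizing w w'
  · have := this w' w (le_of_not_ge h)
    rwa [norm_sub_rev, norm_sub_rev w'] at this
  have h1 := T.norm_Yf_sub_le (T.vS n univ w) (T.vS n univ w') (w n)
  have h2 := T.min_mul_norm_vS_sub' n univ h
  have h3 := T.norm_Yf_le (T.norm_vS_univ n w') (w n - w' n)
  rw [T.Yf_sub] at h3
  have h4 : ‖w n - w' n‖ ≤ ‖w - w'‖ := norm_apply_le (w - w') n
  have h5 := norm_sub_le_norm_sub_add_norm_sub (T.Yf (T.vS n univ w) (w n))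
    (T.Yf (T.vS n univ w') (w n)) (T.Yf (T.vS n univ w') (w' n))
  have h6 := norm_nonneg (w - w')
  nlinarith

theorem Uf_sub (ξ : H) (x x' : XX H D) : T.Uf ξ (x - x') = T.Uf ξ x - T.Uf ξ x' := by
  unfold Uf
  rw [WithLp.sub_fst, T.Yf_sub, map_sub]
  abel

/-- `z - V V* z` is orthogonal to the range of the isometry `V ξ` -/
theorem norm_Uf {ξ : H} (hξ : ‖ξ‖ = 1) (x : XX H D) : ‖T.Uf ξ x‖ = ‖x‖ := by
  have horth : ∀ h, ⟪x.fst - T.V ξ (T.Vs ξ x.fst), T.V ξ h⟫_ℝ = 0 := by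
    intro h
    rw [inner_sub_left, T.inner_V, real_inner_self_eq_norm_sq, hξ, ← T.inner_Vs]
    ring
  have e1 : T.Uf ξ x = (x.fst - T.V ξ (T.Vs ξ x.fst)) +
      T.V ξ (T.J (WithLp.toLp 2 (T.Vs ξ x.fst, x.snd))) := by
    unfold Uf Yf
    rw [map_sub]; abel
  have e2 : x.fst = (x.fst - T.V ξ (T.Vs ξ x.fst)) + T.V ξ (T.Vs ξ x.fst) := by abel
  have h1 : ‖T.Uf ξ x‖ ^ 2 = ‖x.fst - T.V ξ (T.Vs ξ x.fst)‖ ^ 2 +
      (‖T.Vs ξ x.fst‖ ^ 2 + ‖x.snd‖ ^ 2) := by
    rw [e1, norm_add_sq_real, horth, T.norm_V, hξ, one_mul, T.norm_J_sq]; ring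
  have h2 : ‖x.fst‖ ^ 2 = ‖x.fst - T.V ξ (T.Vs ξ x.fst)‖ ^ 2 + ‖T.Vs ξ x.fst‖ ^ 2 := by
    conv_lhs => rw [e2]
    rw [norm_add_sq_real, horth, T.norm_V, hξ, one_mul]; ring
  have h3 := WithLp.prod_norm_sq_eq_of_L2 x
  rw [← sq_eq_sq₀ (norm_nonneg _) (norm_nonneg _)]
  linarith

/-- `Uf ξ x = z - V ξ (Vs ξ z) + V ξ (J (Vs ξ z, d))`: four terms -/
theorem norm_Uf_sub_le {ξ η : H} (hξ : ‖ξ‖ = 1) (hη : ‖η‖ = 1) (x : XX H D) :
    ‖T.Uf ξ x - T.Uf η x‖ ≤ 4 * ‖ξ - η‖ * ‖x‖ := by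
  have e : T.Uf ξ x - T.Uf η x =
      T.V (ξ - η) (T.Yf ξ x) + T.V η (T.Yf ξ x - T.Yf η x) := by
    unfold Uf
    rw [map_sub, sub_apply, map_sub]; abel
  rw [e]
  refine (norm_add_le _ _).trans ?_
  rw [T.norm_V, T.norm_V, hη, one_mul]
  have h1 := mul_le_mul_of_nonneg_left (T.norm_Yf_le hξ x) (norm_nonneg (ξ - η))
  have h2 := T.norm_Yf_sub_le ξ η x
  linarith

/-- take `p = J⁻¹ (Vs ξ y)` and `x = (y - V ξ (Vs ξ y) + V ξ p.fst, p.snd)` -/
theorem Uf_surjective {ξ : H} (hξ : ‖ξ‖ = 1) : Function.Surjective (T.Uf ξ) := by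
  intro y
  set p := T.J.symm (T.Vs ξ y) with hp
  refine ⟨WithLp.toLp 2 (y - T.V ξ (T.Vs ξ y) + T.V ξ p.fst, p.snd), ?_⟩
  have h1 : T.Vs ξ (y - T.V ξ (T.Vs ξ y) + T.V ξ p.fst) = p.fst := by
    rw [map_add, map_sub, T.Vs_V, T.Vs_V, real_inner_self_eq_norm_sq, hξ]
    simp
  have h2 : T.J (WithLp.toLp 2 (p.fst, p.snd)) = T.Vs ξ y := by
    have : WithLp.toLp 2 (p.fst, p.snd) = p := rfl
    rw [this, hp, LinearIsometryEquiv.apply_symm_apply]
  unfold Uf Yf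
  change y - T.V ξ (T.Vs ξ y) + T.V ξ p.fst +
    T.V ξ (T.J (WithLp.toLp 2 (T.Vs ξ (y - T.V ξ (T.Vs ξ y) + T.V ξ p.fst), p.snd)) -
      T.Vs ξ (y - T.V ξ (T.Vs ξ y) + T.V ξ p.fst)) = y
  rw [h1, h2, map_sub]
  abel

/-- the bi-Lipschitz bijection -/
noncomputable def Psi0 (w : MM H D) : C₀(ℕ, H) where
  toFun n := T.Uf (T.vS n univ w) (w n)
  continuous_toFun := continuous_of_discreteTopology
  zero_at_infty' := by
    rw [tendsto_zero_iff_norm_tendsto_zero]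
    simp only [T.norm_Uf (T.norm_vS_univ _ _)]
    exact tendsto_zero_iff_norm_tendsto_zero.1 w.zero_at_infty'

theorem Psi0_apply (w : MM H D) (n : ℕ) : T.Psi0 w n = (w n).fst + T.Th n univ w := rfl

theorem norm_Psi0_sub_le (w w' : MM H D) : ‖T.Psi0 w - T.Psi0 w'‖ ≤ 5 / 2 * ‖w - w'‖ := by
  refine norm_le_of_forall (by positivity) fun n => ?_
  change ‖T.Uf (T.vS n univ w) (w n) - T.Uf (T.vS n univ w') (w' n)‖ ≤ _
  wlog h : ‖w n‖ ≤ ‖w' n‖ generalizing w w'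
  · have := this w' w (le_of_not_ge h)
    rwa [norm_sub_rev, norm_sub_rev w'] at this
  have h1 := T.norm_Uf_sub_le (T.norm_vS_univ n w) (T.norm_vS_univ n w') (w n)
  have h2 := T.min_mul_norm_vS_sub' n univ h
  have h3 := T.norm_Uf (T.norm_vS_univ n w') (w n - w' n)
  rw [T.Uf_sub] at h3
  have h4 : ‖w n - w' n‖ ≤ ‖w - w'‖ := norm_apply_le (w - w') n
  have h5 := norm_sub_le_norm_sub_add_norm_sub (T.Uf (T.vS n univ w) (w n))
    (T.Uf (T.vS n univ w') (w n)) (T.Uf (T.vS n univ w') (w' n))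
  nlinarith

/-- `‖w n - w' n‖ ≤ 2 ‖Psi0 w - Psi0 w'‖ + ‖w - w'‖ / 2`, since `‖w n‖ = ‖Psi0 w n‖` -/
theorem le_norm_Psi0_sub (w w' : MM H D) : ‖w - w'‖ ≤ 4 * ‖T.Psi0 w - T.Psi0 w'‖ := by
  have key : ∀ n, ‖w n - w' n‖ ≤ 2 * ‖T.Psi0 w - T.Psi0 w'‖ + ‖w - w'‖ / 2 := by
    intro n
    wlog h : ‖w n‖ ≤ ‖w' n‖ generalizing w w'
    · have := this w' w (le_of_not_ge h)
      rwa [norm_sub_rev, norm_sub_rev w', norm_sub_rev (T.Psi0 w')] at this
    have h1 := T.norm_Uf_sub_le (T.norm_vS_univ n w') (T.norm_vS_univ n w) (w n)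
    have h2 := T.min_mul_norm_vS_sub n univ w w'
    rw [min_eq_left h, norm_sub_rev] at h2
    have h3 := T.norm_Uf (T.norm_vS_univ n w') (w n - w' n)
    rw [T.Uf_sub] at h3
    have h4 : ‖T.Uf (T.vS n univ w) (w n) - T.Uf (T.vS n univ w') (w' n)‖ ≤
        ‖T.Psi0 w - T.Psi0 w'‖ := norm_apply_le (T.Psi0 w - T.Psi0 w') n
    have h5 := norm_sub_le_norm_sub_add_norm_sub (T.Uf (T.vS n univ w') (w n))
      (T.Uf (T.vS n univ w) (w n)) (T.Uf (T.vS n univ w') (w' n))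
    have h6 := abs_norm_sub_norm_le (T.Uf (T.vS n univ w) (w n)) (T.Uf (T.vS n univ w') (w' n))
    rw [T.norm_Uf (T.norm_vS_univ n w), T.norm_Uf (T.norm_vS_univ n w')] at h6
    nlinarith
  have h := norm_le_of_forall (w := w - w') (by positivity) key
  linarith

/-- Solve level by level (level `n` only uses `Tn n w` and `‖w n‖ = ‖y n‖`): for instance build
`β : ℕ → ℕ → XX` by recursion, `β (n+1) = Function.update (β n) n (x n)` with
`Uf (mix feat univ (Tn n (ofFun n (β n))) (lv ‖y n‖)) (x n) = y n`. -/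
theorem Psi0_surjective : Function.Surjective T.Psi0 := by
  intro y
  have hsol : ∀ (n : ℕ) (β : ℕ → XX H D), ∃ x,
      T.Uf (mix T.feat univ (T.Tn n (ofFun n β)) (lv ‖y n‖)) x = y n :=
    fun n β => T.Uf_surjective (T.norm_mix_feat _ _) (y n)
  choose sol hsol using hsol
  let β : ℕ → ℕ → XX H D := fun n =>
    Nat.rec (fun _ => 0) (fun n b => Function.update b n (sol n b)) n
  have hβ : ∀ n, β (n + 1) = Function.update (β n) n (sol n (β n)) := fun n => rfl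
  have hagree : ∀ n i, i < n → β n i = sol i (β i) := by
    intro n
    induction n with
    | zero => intro i hi; omega
    | succ n ih =>
      intro i hi
      rw [hβ]
      rcases Nat.lt_succ_iff_lt_or_eq.1 hi with h | rfl
      · rw [Function.update_of_ne h.ne, ih i h]
      · rw [Function.update_self]
  have hnorm : ∀ n, ‖sol n (β n)‖ = ‖y n‖ := fun n => by
    rw [← hsol n (β n), T.norm_Uf (T.norm_mix_feat _ _)]
  let w : MM H D :=
    { toFun := fun n => sol n (β n)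
      continuous_toFun := continuous_of_discreteTopology
      zero_at_infty' := by
        rw [tendsto_zero_iff_norm_tendsto_zero]
        simp only [hnorm]
        exact tendsto_zero_iff_norm_tendsto_zero.1 y.zero_at_infty' }
  refine ⟨w, ?_⟩
  ext n
  have h1 : T.Tn n w = T.Tn n (ofFun n (β n)) :=
    T.Tn_congr fun i hi => by rw [ofFun_apply, if_pos hi, hagree n i hi]; rfl
  change T.Uf (mix T.feat univ (T.Tn n w) (lv ‖sol n (β n)‖)) (sol n (β n)) = y n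
  rw [h1, hnorm, hsol]

theorem Th_zero (n : ℕ) (S : Set ℤ) : T.Th n S 0 = 0 := by
  have h : T.Yf (T.vS n univ 0) ((0 : MM H D) n) = 0 := by
    have h1 := T.norm_Yf_le (T.norm_vS_univ n 0) ((0 : MM H D) n)
    have h2 : ‖(0 : MM H D) n‖ = 0 := by simp
    rw [h2, mul_zero] at h1
    exact norm_le_zero_iff.1 h1
  unfold Th
  rw [h, map_zero]

theorem norm_Th_sub_le (n : ℕ) (S : Set ℤ) (w w' : MM H D) :
    ‖T.Th n S w - T.Th n S w'‖ ≤ 7 * ‖w - w'‖ := by
  wlog h : ‖w n‖ ≤ ‖w' n‖ generalizing w w'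
  · have := this w' w (le_of_not_ge h)
    rwa [norm_sub_rev, norm_sub_rev w'] at this
  have e : T.Th n S w - T.Th n S w' =
      T.V (T.vS n S w - T.vS n S w') (T.Yf (T.vS n univ w) (w n)) +
        T.V (T.vS n S w') (T.Yf (T.vS n univ w) (w n) - T.Yf (T.vS n univ w') (w' n)) := by
    unfold Th
    rw [map_sub, sub_apply, map_sub]; abel
  rw [e]
  refine (norm_add_le _ _).trans ?_
  rw [T.norm_V, T.norm_V]
  have h1 := mul_le_mul_of_nonneg_left (T.norm_Yf_le (T.norm_vS_univ n w) (w n))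
    (norm_nonneg (T.vS n S w - T.vS n S w'))
  have h2 := T.min_mul_norm_vS_sub' n S h
  have h3 := mul_le_mul (T.norm_vS_le n S w') (T.norm_Yf_vS_sub n w w') (norm_nonneg _)
    (by norm_num)
  have h4 := norm_nonneg (w - w')
  nlinarith

theorem Th_congr {n : ℕ} (S : Set ℤ) {w w' : MM H D} (h : ∀ i < n + 1, w i = w' i) :
    T.Th n S w = T.Th n S w' := by
  have h1 : T.Tn n w = T.Tn n w' := T.Tn_congr fun i hi => h i (by omega)
  have h2 : w n = w' n := h n (by omega)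
  unfold Th vS
  rw [h1, h2]

theorem Th_split (n : ℕ) (S : Set ℤ) (J : Finset ℤ) (hJ : (J : Set ℤ) ⊆ S) (w : MM H D) :
    T.Th n S w = T.Th n (S \ J) w + ∑ j ∈ J, T.Th n {j} w := by
  have e : T.vS n S w = T.vS n (S \ J) w + ∑ j ∈ J, T.vS n {j} w := mix_split _ S J hJ _ _
  unfold Th
  rw [e, map_add, map_sum, add_apply, sum_apply]

theorem supp_Th {n : ℕ} {j : ℤ} {w : MM H D} (h : T.Th n {j} w ≠ 0) :
    sc (j - 1) ≤ ‖w n‖ ∧ ‖w n‖ ≤ sc (j + 1) := by
  have h1 : kap (lv ‖w n‖ - j) ≠ 0 := by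
    intro h0
    apply h
    unfold Th
    have : T.vS n {j} w = 0 := by
      unfold vS
      rw [mix_singleton, h0, zero_smul]
    rw [this, map_zero, zero_apply]
  have h2 : 0 < ‖w n‖ := by
    refine (norm_nonneg _).lt_of_ne fun h0 => h ?_
    have h3 := T.norm_Yf_le (T.norm_vS_univ n w) (w n)
    rw [← h0, mul_zero] at h3
    unfold Th
    rw [norm_le_zero_iff.1 h3, map_zero]
  exact sc_le_of_kap_ne_zero h2 h1

theorem norm_Th_le (n : ℕ) (j : ℤ) (w : MM H D) : ‖T.Th n {j} w‖ ≤ 2 * sc 1 * sc j := by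
  have h0 := sc_pos 1
  have h0' := sc_pos j
  by_cases h : T.Th n {j} w = 0
  · rw [h, norm_zero]; positivity
  have h1 := (T.supp_Th h).2
  rw [sc_add] at h1
  have h2 : ‖T.vS n {j} w‖ ≤ 1 := by
    unfold vS
    rw [mix_singleton, norm_smul, T.norm_feat, mul_one, Real.norm_of_nonneg (kap_nonneg _)]
    exact kap_le_one _
  have h3 := T.norm_Yf_le (T.norm_vS_univ n w) (w n)
  unfold Th
  rw [T.norm_V]
  have h4 := mul_le_mul h2 h3 (norm_nonneg _) zero_le_one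
  nlinarith

end Dat

end Crest.Agent.R91
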