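import Crest.Agent.R91.Defs

/-! Generic tools: slopes, Gram bound, pairing, ultrafilter combinatorics. -/

set_option autoImplicit false

namespace Crest.Agent.R91

open Filter Topology Set
open scoped InnerProductSpace ZeroAtInfty ENNReal

section lip

variable {M : Type*} [NormedAddCommGroup M] {f g : M → ℝ} {L L' : ℝ} {w : M}

theorem Lip.mono (h : Lip L f) (hL : L ≤ L') : Lip L' f := fun w w' =>
  (h w w').trans (mul_le_mul_of_nonneg_right hL (norm_nonneg _))

theorem Lip.add (h : Lip L f) (h' : Lip L' g) : Lip (L + L') (fun w => f w + g w) := by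
  intro w w'
  have e : f w + g w - (f w' + g w') = (f w - f w') + (g w - g w') := by ring
  rw [e, add_mul]
  exact (abs_add_le _ _).trans (add_le_add (h w w') (h' w w'))

theorem Lip.sub (h : Lip L f) (h' : Lip L' g) : Lip (L + L') (fun w => f w - g w) := by
  intro w w'
  have e : f w - g w - (f w' - g w') = (f w - f w') - (g w - g w') := by ring
  rw [e, add_mul]
  exact (abs_sub _ _).trans (add_le_add (h w w') (h' w w'))

theorem Lip.const_mul (h : Lip L f) (c : ℝ) : Lip (|c| * L) (fun w => c * f w) := by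
  intro w w'
  rw [← mul_sub, abs_mul, mul_assoc]
  exact mul_le_mul_of_nonneg_left (h w w') (abs_nonneg _)

theorem Lip.mul {A B : ℝ} (h : Lip L f) (h' : Lip L' g) (hA : ∀ w, |f w| ≤ A)
    (hB : ∀ w, |g w| ≤ B) : Lip (L * B + A * L') (fun w => f w * g w) := by
  intro w w'
  have e : f w * g w - f w' * g w' = (f w - f w') * g w + f w' * (g w - g w') := by ring
  rw [e]
  refine (abs_add_le _ _).trans ?_
  rw [abs_mul, abs_mul]
  have h1 := mul_le_mul (h w w') (hB w) (abs_nonneg _) ((abs_nonneg _).trans (h w w'))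
  have h2 := mul_le_mul (hA w') (h' w w') (abs_nonneg _) ((abs_nonneg _).trans (hA w'))
  nlinarith

theorem Lip.sl (h : Lip L f) (w : M) : Sl f w L := Eventually.of_forall fun w' => h w' w

theorem Sl.mono (h : Sl f w L) (hL : L ≤ L') : Sl f w L' := by
  filter_upwards [h] with w' hw'
  exact hw'.trans (mul_le_mul_of_nonneg_right hL (norm_nonneg _))

theorem Sl.congr (h : Sl f w L) (e : ∀ᶠ w' in 𝓝 w, g w' = f w') : Sl g w L := by
  filter_upwards [h, e] with w' h1 h2
  rw [h2, e.self_of_nhds]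
  exact h1

theorem sl_of_const {c : ℝ} (e : ∀ᶠ w' in 𝓝 w, f w' = c) : Sl f w 0 := by
  filter_upwards [e] with w' h2
  rw [h2, e.self_of_nhds]
  simp

theorem Sl.mul {B : ℝ} (h : Sl f w L) (h' : Sl g w L') (hL : 0 ≤ L) (hB : ∀ w, |g w| ≤ B) :
    Sl (fun w => f w * g w) w (L * B + |f w| * L') := by
  filter_upwards [h, h'] with w' h1 h2
  have e : f w' * g w' - f w * g w = (f w' - f w) * g w' + f w * (g w' - g w) := by ring
  rw [e]
  refine (abs_add_le _ _).trans ?_
  rw [abs_mul, abs_mul]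
  have h3 := mul_le_mul h1 (hB w') (abs_nonneg _) (by positivity)
  have h4 := mul_le_mul_of_nonneg_left h2 (abs_nonneg (f w))
  nlinarith

theorem sl_sum {ι : Type*} (F : Finset ι) {u : ι → M → ℝ} {Λ : ι → ℝ} {s : ι → ℝ}
    (hs : ∀ k, s k = 1 ∨ s k = -1) (h : ∀ k ∈ F, Sl (u k) w (Λ k)) :
    Sl (fun w => ∑ k ∈ F, s k * u k w) w (∑ k ∈ F, Λ k) := by
  have h1 : ∀ᶠ w' in 𝓝 w, ∀ k ∈ F, |u k w' - u k w| ≤ Λ k * ‖w' - w‖ :=
    (eventually_all_finset F).2 h
  filter_upwards [h1] with w' hw'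
  rw [← Finset.sum_sub_distrib, Finset.sum_mul]
  refine (Finset.abs_sum_le_sum_abs _ _).trans (Finset.sum_le_sum fun k hk => ?_)
  rw [← mul_sub, abs_mul]
  rcases hs k with h | h <;> simpa [h] using hw' k hk

theorem Sl.continuousAt (h : Sl f w L) : ContinuousAt f w := by
  rw [ContinuousAt, tendsto_iff_norm_sub_tendsto_zero]
  refine squeeze_zero' (Eventually.of_forall fun _ => norm_nonneg _) h ?_
  have : Tendsto (fun w' : M => L * ‖w' - w‖) (𝓝 w) (𝓝 (L * ‖w - w‖)) :=
    (Continuous.tendsto (by fun_prop) w)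
  simpa using this

theorem lip_of_sl [NormedSpace ℝ M] (h : ∀ w, Sl f w L) : Lip L f := by
  have key : ∀ (s : ℝ), (s = 1 ∨ s = -1) → ∀ w w' : M, s * (f w - f w') ≤ L * ‖w - w'‖ := by
    intro s hs w w'
    let p : ℝ → M := fun t => w' + t • (w - w')
    have hp : Continuous p := by fun_prop
    have hf : Continuous f := continuous_iff_continuousAt.2 fun w => (h w).continuousAt
    have := image_le_of_liminf_slope_right_le_deriv_boundary
      (f := fun t => s * (f (p t) - f w')) (a := 0) (b := 1)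
      (B := fun t => L * ‖w - w'‖ * t) (B' := fun _ => L * ‖w - w'‖)
      (by fun_prop) (by simp [p]) (by fun_prop)
      (fun x _ => by
        simpa using ((hasDerivAt_id x).const_mul (L * ‖w - w'‖)).hasDerivWithinAt)
      (fun x _ r hr => by
        have h1 : ∀ᶠ z in 𝓝 x, |f (p z) - f (p x)| ≤ L * ‖p z - p x‖ :=
          (hp.tendsto x).eventually (h (p x))
        refine Eventually.frequently ?_
        filter_upwards [nhdsWithin_le_nhds h1, self_mem_nhdsWithin] with z hz hzx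
        have hzx' : 0 < z - x := sub_pos.2 hzx
        have e1 : ‖p z - p x‖ = (z - x) * ‖w - w'‖ := by
          have : p z - p x = (z - x) • (w - w') := by simp only [p, sub_smul]; abel
          rw [this, norm_smul, Real.norm_eq_abs, abs_of_pos hzx']
        rw [e1] at hz
        rw [slope_def_field, div_lt_iff₀ hzx']
        have h2 := abs_le.1 hz
        have h3 := mul_lt_mul_of_pos_right hr hzx'
        rcases hs with rfl | rfl <;> nlinarith [h2.1, h2.2])
      (x := 1) ⟨zero_le_one, le_rfl⟩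
    simpa [p] using this
  intro w w'
  rw [abs_le]
  have h1 := key 1 (Or.inl rfl) w w'
  have h2 := key (-1) (Or.inr rfl) w w'
  constructor <;> linarith

/-- a signed sum of Lipschitz functions with disjoint supports -/
theorem lip_sum_of_disjoint {ι : Type*} (F : Finset ι) {u : ι → M → ℝ} {s : ι → ℝ}
    (hs : ∀ k, s k = 1 ∨ s k = -1) (hL : 0 ≤ L) (h : ∀ k ∈ F, Lip L (u k))
    (hd : ∀ k ∈ F, ∀ l ∈ F, k ≠ l → ∀ w, u k w = 0 ∨ u l w = 0) :
    Lip (2 * L) (fun w => ∑ k ∈ F, s k * u k w) := by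
  classical
  intro w w'
  have hcard : ∀ x : M, (F.filter fun k => u k x ≠ 0).card ≤ 1 := by
    intro x
    refine Finset.card_le_one.2 fun a ha b hb => ?_
    by_contra hab
    rcases hd a (Finset.mem_filter.1 ha).1 b (Finset.mem_filter.1 hb).1 hab x with h | h
    · exact (Finset.mem_filter.1 ha).2 h
    · exact (Finset.mem_filter.1 hb).2 h
  set E := (F.filter fun k => u k w ≠ 0) ∪ (F.filter fun k => u k w' ≠ 0) with hE
  have hEF : E ⊆ F := Finset.union_subset (Finset.filter_subset _ _) (Finset.filter_subset _ _)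
  have hE2 : (E.card : ℝ) ≤ 2 := by
    have := (Finset.card_union_le _ _).trans (add_le_add (hcard w) (hcard w'))
    exact_mod_cast this
  rw [← Finset.sum_sub_distrib, ← Finset.sum_subset hEF]
  · refine (Finset.abs_sum_le_sum_abs _ _).trans ?_
    refine (Finset.sum_le_card_nsmul _ _ (L * ‖w - w'‖) fun k hk => ?_).trans ?_
    · rw [← mul_sub, abs_mul]
      rcases hs k with h' | h' <;> simpa [h'] using h k (hEF hk) w w'
    · rw [nsmul_eq_mul, mul_assoc]
      exact mul_le_mul_of_nonneg_right hE2 (by positivity)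
  · intro k hk hkE
    simp only [hE, Finset.mem_union, Finset.mem_filter, hk, true_and, not_or, not_not] at hkE
    simp [hkE.1, hkE.2]

end lip

theorem norm_sum_sq_le {H ι : Type*} [NormedAddCommGroup H] [InnerProductSpace ℝ H] (F : Finset ι)
    (x : ι → H) {B κ : ℝ} (hκ0 : 0 ≤ κ) (hB : ∀ k ∈ F, ‖x k‖ ≤ B)
    (hκ : ∀ k ∈ F, ∀ l ∈ F, k ≠ l → |⟪x k, x l⟫_ℝ| ≤ κ) :
    ‖∑ k ∈ F, x k‖ ^ 2 ≤ B ^ 2 * F.card + κ * F.card ^ 2 := by
  classical
  rw [← real_inner_self_eq_norm_sq, sum_inner]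
  have h1 : ∀ k ∈ F, ⟪x k, ∑ l ∈ F, x l⟫_ℝ ≤ B ^ 2 + κ * F.card := by
    intro k hk
    rw [inner_sum, ← Finset.add_sum_erase F _ hk, real_inner_self_eq_norm_sq]
    refine add_le_add (pow_le_pow_left₀ (norm_nonneg _) (hB k hk) 2) ?_
    refine (Finset.sum_le_card_nsmul _ _ κ fun l hl => ?_).trans ?_
    · exact (le_abs_self _).trans
        (hκ k hk l (Finset.mem_of_mem_erase hl) (Finset.ne_of_mem_erase hl).symm)
    · rw [nsmul_eq_mul, mul_comm]
      exact mul_le_mul_of_nonneg_left (by exact_mod_cast Finset.card_erase_le) hκ0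
  refine (Finset.sum_le_card_nsmul _ _ _ h1).trans (le_of_eq ?_)
  rw [nsmul_eq_mul]
  ring

/-- greedy choice of a maximal separated family -/
theorem exists_maximal_family {α : Type*} (Q : α → Prop) (far : α → α → Prop)
    (hsymm : ∀ x y, far x y → far y x) (hirr : ∀ x, ¬ far x x) (N : ℕ)
    (h : ∀ F : Finset α, (∀ x ∈ F, Q x) → (∀ x ∈ F, ∀ y ∈ F, x ≠ y → far x y) → F.card ≤ N) :
    ∃ F : Finset α, F.card ≤ N ∧ (∀ x ∈ F, Q x) ∧ ∀ x, Q x → ∃ y ∈ F, ¬ far x y := by
  classical
  let P : ℕ → Prop := fun n => ∃ F : Finset α, (∀ x ∈ F, Q x) ∧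
    (∀ x ∈ F, ∀ y ∈ F, x ≠ y → far x y) ∧ F.card = n
  have h0 : P 0 := ⟨∅, by simp, by simp, rfl⟩
  obtain ⟨F, hQ, hfar, hcard⟩ : P (Nat.findGreatest P N) :=
    Nat.findGreatest_spec (Nat.zero_le N) h0
  refine ⟨F, h F hQ hfar, hQ, fun x hx => ?_⟩
  by_contra hcon
  push Not at hcon
  have hxF : x ∉ F := fun hxF => hirr x (hcon x hxF)
  have hQ' : ∀ y ∈ insert x F, Q y := by
    intro y hy
    rcases Finset.mem_insert.1 hy with rfl | hy
    exacts [hx, hQ y hy]
  have hfar' : ∀ y ∈ insert x F, ∀ z ∈ insert x F, y ≠ z → far y z := by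
    intro y hy z hz hyz
    rcases Finset.mem_insert.1 hy with rfl | hy' <;> rcases Finset.mem_insert.1 hz with rfl | hz'
    · exact absurd rfl hyz
    · exact hcon z hz'
    · exact hsymm _ _ (hcon y hy')
    · exact hfar y hy' z hz' hyz
  have h1 := Nat.le_findGreatest (P := P) (h _ hQ' hfar') ⟨_, hQ', hfar', rfl⟩
  rw [Finset.card_insert_of_notMem hxF, hcard] at h1
  omega

theorem exists_enum {α : Type*} [Nonempty α] (B : Finset α) :
    ∃ b : ℕ → α, (∀ x ∈ B, ∃ t < B.card, b t = x) ∧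
      ∀ f : α → ℝ, ∑ x ∈ B, f x = ∑ t ∈ Finset.range B.card, f (b t) := by
  classical
  let e := B.equivFin.symm
  refine ⟨fun t => if h : t < B.card then e ⟨t, h⟩ else Classical.arbitrary α, fun x hx => ?_,
    fun f => ?_⟩
  · refine ⟨B.equivFin ⟨x, hx⟩, (B.equivFin ⟨x, hx⟩).2, ?_⟩
    simp [e]
  · rw [Finset.sum_range, ← Finset.sum_coe_sort B, ← e.sum_comp]
    simp

section ev

variable {α : Type*} (μ : α →₀ ℝ) {f g : α → ℝ}

theorem ev_eq (g : α → ℝ) : ev μ g = ∑ w ∈ μ.support, μ w * g w := rfl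

theorem ev_congr (h : ∀ w ∈ μ.support, f w = g w) : ev μ f = ev μ g :=
  Finset.sum_congr rfl fun w hw => by simp only [h w hw]

theorem ev_add (f g : α → ℝ) : ev μ (fun w => f w + g w) = ev μ f + ev μ g := by
  simp only [ev_eq, mul_add, Finset.sum_add_distrib]

theorem ev_sub (f g : α → ℝ) : ev μ (fun w => f w - g w) = ev μ f - ev μ g := by
  simp only [ev_eq, mul_sub, Finset.sum_sub_distrib]

theorem ev_const_mul (c : ℝ) (f : α → ℝ) : ev μ (fun w => c * f w) = c * ev μ f := by
  simp only [ev_eq, Finset.mul_sum]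
  exact Finset.sum_congr rfl fun w _ => by ring

theorem ev_sum {ι : Type*} (F : Finset ι) (u : ι → α → ℝ) :
    ev μ (fun w => ∑ k ∈ F, u k w) = ∑ k ∈ F, ev μ (u k) := by
  simp only [ev_eq, Finset.mul_sum]
  exact Finset.sum_comm

theorem abs_ev_le {B : ℝ} (h : ∀ w, |f w| ≤ B) : |ev μ f| ≤ (∑ w ∈ μ.support, |μ w|) * B := by
  rw [ev_eq, Finset.sum_mul]
  refine (Finset.abs_sum_le_sum_abs _ _).trans (Finset.sum_le_sum fun w _ => ?_)
  rw [abs_mul]
  exact mul_le_mul_of_nonneg_left (h w) (abs_nonneg _)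

theorem tendsto_ev {ι : Type*} {l : Filter ι} {u : ι → α → ℝ}
    (h : ∀ w, Tendsto (fun k => u k w) l (𝓝 (f w))) :
    Tendsto (fun k => ev μ (u k)) l (𝓝 (ev μ f)) := by
  simp only [ev_eq]
  exact tendsto_finsetSum _ fun w _ => (h w).const_mul _

end ev

/-- there are signs for which the quadratic form dominates the trace -/
theorem exists_signs (a : ℕ → ℕ → ℝ) (F : Finset ℕ) :
    ∃ s : ℕ → ℝ, (∀ k, s k = 1 ∨ s k = -1) ∧
      ∑ k ∈ F, a k k ≤ ∑ k ∈ F, s k * ∑ l ∈ F, s l * a k l := by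
  classical
  induction F using Finset.induction_on with
  | empty => exact ⟨fun _ => 1, fun _ => Or.inl rfl, by simp⟩
  | insert x F hx ih =>
    obtain ⟨s, hs, h⟩ := ih
    set c := ∑ l ∈ F, s l * a x l + ∑ k ∈ F, s k * a k x with hc
    obtain ⟨σ, hσ, hσc⟩ : ∃ σ : ℝ, (σ = 1 ∨ σ = -1) ∧ 0 ≤ σ * c := by
      rcases le_total 0 c with h | h
      · exact ⟨1, Or.inl rfl, by linarith⟩
      · exact ⟨-1, Or.inr rfl, by linarith⟩
    refine ⟨Function.update s x σ, fun k => ?_, ?_⟩
    · by_cases hk : k = x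
      · subst hk; simpa using hσ
      · simpa [hk] using hs k
    · have hu : ∀ k ∈ F, Function.update s x σ k = s k := fun k hk =>
        Function.update_of_ne (fun h : k = x => hx (h ▸ hk)) _ _
      have e1 : ∀ k, ∑ l ∈ F, Function.update s x σ l * a k l = ∑ l ∈ F, s l * a k l :=
        fun k => Finset.sum_congr rfl fun l hl => by rw [hu l hl]
      simp only [Finset.sum_insert hx, Function.update_self, e1]
      have e2 : ∑ k ∈ F, Function.update s x σ k * (σ * a k x + ∑ l ∈ F, s l * a k l)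
          = σ * ∑ k ∈ F, s k * a k x + ∑ k ∈ F, s k * ∑ l ∈ F, s l * a k l := by
        rw [Finset.mul_sum, ← Finset.sum_add_distrib]
        exact Finset.sum_congr rfl fun k hk => by rw [hu k hk]; ring
      rw [e2]
      have e3 : σ * σ = 1 := by rcases hσ with rfl | rfl <;> norm_num
      have e4 : σ * (σ * a x x) = a x x := by rw [← mul_assoc, e3, one_mul]
      rw [hc] at hσc
      nlinarith

end Crest.Agent.R91
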