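import Crest.Agent.R91.Psi
import Crest.Agent.R91.Tools

/-! Scales, switches, the maps `Tn`, cut-offs and flattening. -/

set_option autoImplicit false
set_option linter.unusedSectionVars false

namespace Crest.Agent.R91

open Filter Topology Set
open scoped InnerProductSpace ZeroAtInfty ENNReal

theorem sc_pos (j : ℤ) : 0 < sc j := Real.exp_pos _

theorem sc_mono {j j' : ℤ} (h : j ≤ j') : sc j ≤ sc j' := by
  unfold sc
  have : (j : ℝ) ≤ j' := by exact_mod_cast h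
  exact Real.exp_le_exp.2 (by linarith)

theorem sc_add (j j' : ℤ) : sc (j + j') = sc j * sc j' := by
  unfold sc
  rw [← Real.exp_add]
  congr 1
  push_cast
  ring

theorem two_le_sc_one : 2 ≤ sc 1 := by
  unfold sc
  have := Real.add_one_le_exp (32 * ((1 : ℤ) : ℝ))
  push_cast at this ⊢
  linarith

theorem sc_lt_sc {j j' : ℤ} (h : j < j') : sc j < sc j' := by
  unfold sc
  have : (j : ℝ) < j' := by exact_mod_cast h
  exact Real.exp_lt_exp.2 (by linarith)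

theorem tendsto_sc_atBot : Tendsto sc atBot (𝓝 0) := by
  unfold sc
  exact Real.tendsto_exp_atBot.comp
    (Tendsto.const_mul_atBot (by norm_num) (tendsto_intCast_atBot_iff.2 tendsto_id))

theorem eta_pos (j : ℤ) (q : ℕ) : 0 < eta j q := by
  unfold eta
  have := sc_pos (j - 1)
  positivity

theorem sw_nonneg (x : ℝ) : 0 ≤ sw x := by
  exact le_max_left _ _

theorem sw_le_one (x : ℝ) : sw x ≤ 1 := by
  exact max_le zero_le_one (min_le_left _ _)

theorem sw_eq_one {x : ℝ} (h : x ≤ 1 / 2) : sw x = 1 := by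
  unfold sw
  rw [min_eq_left (by linarith), max_eq_right zero_le_one]

theorem sw_eq_zero {x : ℝ} (h : 1 ≤ x) : sw x = 0 := by
  unfold sw
  exact max_eq_left ((min_le_right _ _).trans (by linarith))

theorem abs_sw_sub (x y : ℝ) : |sw x - sw y| ≤ 2 * |x - y| := by
  unfold sw
  calc |max 0 (min 1 (2 - 2 * x)) - max 0 (min 1 (2 - 2 * y))|
      ≤ max |(0 : ℝ) - 0| |min 1 (2 - 2 * x) - min 1 (2 - 2 * y)| := abs_max_sub_max_le_max _ _ _ _
    _ = |min 1 (2 - 2 * x) - min 1 (2 - 2 * y)| := by simp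
    _ ≤ max |(1 : ℝ) - 1| |(2 - 2 * x) - (2 - 2 * y)| := abs_min_sub_min_le_max _ _ _ _
    _ = |(2 - 2 * x) - (2 - 2 * y)| := by simp
    _ = 2 * |x - y| := by
        rw [show (2 - 2 * x) - (2 - 2 * y) = -2 * (x - y) by ring, abs_mul]
        norm_num

section seq

variable {X : Type} [NormedAddCommGroup X]

@[simp] theorem ofFun_apply (ℓ : ℕ) (β : ℕ → X) (i : ℕ) :
    ofFun ℓ β i = if i < ℓ then β i else 0 := rfl

theorem norm_apply_le (w : C₀(ℕ, X)) (i : ℕ) : ‖w i‖ ≤ ‖w‖ := by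
  rw [← ZeroAtInftyContinuousMap.norm_toBCF_eq_norm]
  exact w.toBCF.norm_coe_le_norm i

theorem norm_le_of_forall {w : C₀(ℕ, X)} {t : ℝ} (ht : 0 ≤ t) (h : ∀ i, ‖w i‖ ≤ t) : ‖w‖ ≤ t := by
  rw [← ZeroAtInftyContinuousMap.norm_toBCF_eq_norm]
  exact (BoundedContinuousFunction.norm_le ht).2 h

theorem exists_tail_le (w : C₀(ℕ, X)) {t : ℝ} (ht : 0 < t) : ∃ n, ∀ i, n ≤ i → ‖w i‖ ≤ t := by
  have h := w.zero_at_infty'
  rw [cocompact_eq_cofinite, Nat.cofinite_eq_atTop] at h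
  have h2 := (NormedAddGroup.tendsto_nhds_zero.1 h) t ht
  obtain ⟨n, hn⟩ := eventually_atTop.1 h2
  exact ⟨n, fun i hi => (hn i hi).le⟩

open Classical in
theorem bddAbove_NI (I : Set ℕ) (w : C₀(ℕ, X)) :
    BddAbove (range fun i => if i ∈ I then ‖w i‖ else 0) := by
  refine ⟨‖w‖, ?_⟩
  rintro _ ⟨i, rfl⟩
  dsimp only
  split_ifs
  · exact norm_apply_le w i
  · exact norm_nonneg _

theorem NI_nonneg (I : Set ℕ) (w : C₀(ℕ, X)) : 0 ≤ NI I w := by
  refine Real.iSup_nonneg fun i => ?_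
  split_ifs
  · exact norm_nonneg _
  · exact le_rfl

theorem le_NI {I : Set ℕ} {i : ℕ} (hi : i ∈ I) (w : C₀(ℕ, X)) : ‖w i‖ ≤ NI I w := by
  classical
  have h := le_ciSup (bddAbove_NI I w) i
  rwa [if_pos hi] at h

theorem NI_le {I : Set ℕ} {w : C₀(ℕ, X)} {t : ℝ} (ht : 0 ≤ t) (h : ∀ i ∈ I, ‖w i‖ ≤ t) :
    NI I w ≤ t := by
  refine Real.iSup_le (fun i => ?_) ht
  split_ifs with hi
  · exact h i hi
  · exact ht

theorem abs_NI_sub (I : Set ℕ) (w w' : C₀(ℕ, X)) : |NI I w - NI I w'| ≤ ‖w - w'‖ := by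
  have key : ∀ w w' : C₀(ℕ, X), NI I w ≤ NI I w' + ‖w - w'‖ := fun w w' => by
    refine NI_le (add_nonneg (NI_nonneg _ _) (norm_nonneg _)) fun i hi => ?_
    have h1 := le_NI hi w'
    have h2 : ‖w i - w' i‖ ≤ ‖w - w'‖ := norm_apply_le (w - w') i
    have h3 := norm_le_norm_add_norm_sub' (w i) (w' i)
    linarith
  have h1 := key w w'
  have h2 := key w' w
  rw [norm_sub_rev] at h2
  rw [abs_le]
  constructor <;> linarith

theorem NI_congr {I : Set ℕ} {w w' : C₀(ℕ, X)} (h : ∀ i ∈ I, w i = w' i) : NI I w = NI I w' := by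
  unfold NI
  congr 1
  funext i
  split_ifs with hi
  · rw [h i hi]
  · rfl

/-- coordinates of norm at most `η/2` are invisible to the switch -/
theorem sw_NI_congr {I I' : Set ℕ} {w : C₀(ℕ, X)} {η : ℝ} (hη : 0 < η)
    (h : ∀ i, (i ∈ I ↔ i ∈ I') ∨ ‖w i‖ ≤ η / 2) : sw (NI I w / η) = sw (NI I' w / η) := by
  have key : ∀ {I I' : Set ℕ}, (∀ i, (i ∈ I ↔ i ∈ I') ∨ ‖w i‖ ≤ η / 2) →
      NI I w ≤ max (NI I' w) (η / 2) := fun {I I'} h => by
    refine NI_le ((NI_nonneg _ _).trans (le_max_left _ _)) fun i hi => ?_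
    rcases h i with h | h
    · exact (le_NI (h.1 hi) w).trans (le_max_left _ _)
    · exact h.trans (le_max_right _ _)
  have h1 := key h
  have h2 := key (I := I') (I' := I) fun i => (h i).imp_left Iff.symm
  have h3 : ∀ x : ℝ, x ≤ η / 2 → sw (x / η) = 1 := fun x hx =>
    sw_eq_one (by rw [div_le_iff₀ hη]; linarith)
  rcases le_or_gt (NI I w) (η / 2) with c1 | c1
  · rw [h3 _ c1, h3 _ (h2.trans (max_le c1 le_rfl))]
  · have c2 : NI I w ≤ NI I' w := (le_max_iff.1 h1).resolve_right (not_le.2 c1)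
    have c3 : NI I' w ≤ NI I w := h2.trans (max_le le_rfl c1.le)
    rw [le_antisymm c2 c3]

theorem tau_nonneg (m : ℕ) (j : ℤ) (I : ℕ → Set ℕ) (w : C₀(ℕ, X)) : 0 ≤ tau m j I w := by
  exact Finset.prod_nonneg fun q _ => sw_nonneg _

theorem tau_le_one (m : ℕ) (j : ℤ) (I : ℕ → Set ℕ) (w : C₀(ℕ, X)) : tau m j I w ≤ 1 := by
  exact Finset.prod_le_one (fun q _ => sw_nonneg _) fun q _ => sw_le_one _

theorem tau_eq_one {m : ℕ} (j : ℤ) {I : ℕ → Set ℕ} (h : ∀ q < m, I q = ∅) (w : C₀(ℕ, X)) :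
    tau m j I w = 1 := by
  refine Finset.prod_eq_one fun q hq => sw_eq_one ?_
  have h0 : NI (I q) w ≤ 0 := NI_le le_rfl fun i hi => by
    rw [h q (Finset.mem_range.1 hq)] at hi
    exact hi.elim
  have := div_nonpos_of_nonpos_of_nonneg h0 (eta_pos j q).le
  linarith

/-- `∑_{q<m} 2 / eta j q ≤ 2^(m+1) sc 1 / sc j` -/
theorem lip_tau (m : ℕ) (j : ℤ) (I : ℕ → Set ℕ) :
    Lip (2 ^ (m + 1) * sc 1 / sc j) (tau m j I : C₀(ℕ, X) → ℝ) := by
  have hs := sc_pos (j - 1)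
  have e : 2 ^ (m + 1) * sc 1 / sc j = 2 ^ (m + 1) / sc (j - 1) := by
    have h1 : sc j = sc (j - 1) * sc 1 := by rw [← sc_add]; congr 1; ring
    have := sc_pos 1
    rw [h1]
    field_simp
  rw [e]
  clear e
  induction m with
  | zero =>
    intro w w'
    simp only [tau, Finset.range_zero, Finset.prod_empty, sub_self, abs_zero]
    positivity
  | succ m ih =>
    have h1 : Lip (2 ^ (m + 1) / sc (j - 1))
        (fun w : C₀(ℕ, X) => sw (NI (I m) w / eta j m)) := fun w w' => by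
      refine (abs_sw_sub _ _).trans ?_
      rw [← sub_div, abs_div, abs_of_pos (eta_pos j m)]
      have h2 := abs_NI_sub (I m) w w'
      calc 2 * (|NI (I m) w - NI (I m) w'| / eta j m) ≤ 2 * (‖w - w'‖ / eta j m) := by
            have := eta_pos j m
            gcongr
        _ = _ := by
            unfold eta
            field_simp
            ring
    have h2 := ih.mul h1 (A := 1) (B := 1)
      (fun w => by rw [abs_of_nonneg (tau_nonneg _ _ _ _)]; exact tau_le_one _ _ _ _)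
      (fun w => by rw [abs_of_nonneg (sw_nonneg _)]; exact sw_le_one _)
    have e : (tau (m + 1) j I : C₀(ℕ, X) → ℝ) =
        fun w => tau m j I w * sw (NI (I m) w / eta j m) := by
      funext w
      exact Finset.prod_range_succ _ _
    rw [e]
    refine h2.mono (le_of_eq ?_)
    ring

end seq

namespace Dat

variable {H D : Type} [NormedAddCommGroup H] [InnerProductSpace ℝ H] [CompleteSpace H]
  [NormedAddCommGroup D] [InnerProductSpace ℝ D] (T : Dat H D)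

theorem norm_V (ξ h : H) : ‖T.V ξ h‖ = ‖ξ‖ * ‖h‖ := by
  have h1 := T.inner_V ξ ξ h h
  simp only [real_inner_self_eq_norm_sq] at h1
  rw [← mul_pow] at h1
  exact (pow_left_inj₀ (norm_nonneg _) (by positivity) two_ne_zero).1 h1

theorem norm_γ (a : H) : ‖T.γ a‖ = 1 := by
  have h1 := T.inner_γ a a
  rw [real_inner_self_eq_norm_sq] at h1
  simp only [sub_self, norm_zero, ne_eq, OfNat.ofNat_ne_zero, not_false_eq_true, zero_pow,
    neg_zero, Real.exp_zero] at h1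
  exact (pow_eq_one_iff_of_nonneg (norm_nonneg _) two_ne_zero).1 h1

/-- `‖γ a - γ b‖² = 2 - 2 exp (-‖a-b‖²) ≤ 2 ‖a-b‖²` -/
theorem norm_γ_sub (a b : H) : ‖T.γ a - T.γ b‖ ≤ 3 / 2 * ‖a - b‖ := by
  have h1 := norm_sub_sq_real (T.γ a) (T.γ b)
  rw [norm_γ, norm_γ, T.inner_γ] at h1
  have h2 := Real.add_one_le_exp (-‖a - b‖ ^ 2)
  refine (pow_le_pow_iff_left₀ (norm_nonneg _) (by positivity) two_ne_zero).1 ?_
  nlinarith [sq_nonneg ‖a - b‖]

theorem Tn_add (n : ℕ) (w w' : MM H D) : T.Tn n (w + w') = T.Tn n w + T.Tn n w' := by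
  simp only [Tn, ZeroAtInftyContinuousMap.add_apply, map_add, smul_add, Finset.sum_add_distrib]

theorem Tn_sub (n : ℕ) (w w' : MM H D) : T.Tn n (w - w') = T.Tn n w - T.Tn n w' := by
  simp only [Tn, ZeroAtInftyContinuousMap.sub_apply, map_sub, smul_sub, Finset.sum_sub_distrib]

theorem Tn_smul (n : ℕ) (c : ℝ) (w : MM H D) : T.Tn n (c • w) = c • T.Tn n w := by
  simp only [Tn, ZeroAtInftyContinuousMap.smul_apply, map_smul, Finset.smul_sum]
  exact Finset.sum_congr rfl fun i _ => smul_comm _ _ _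

theorem norm_Tn_sq (n : ℕ) (w : MM H D) :
    ‖T.Tn n w‖ ^ 2 = ∑ i ∈ Finset.range n, ((1 / 2 : ℝ) ^ (i + 1) * ‖w i‖) ^ 2 := by
  classical
  rw [← real_inner_self_eq_norm_sq, Tn, sum_inner]
  refine Finset.sum_congr rfl fun i hi => ?_
  rw [inner_sum, Finset.sum_eq_single i]
  · rw [real_inner_self_eq_norm_sq, norm_smul, norm_V, T.orth.1, one_mul,
      LinearIsometryEquiv.norm_map, Real.norm_eq_abs, abs_of_pos (by positivity)]
  · intro k _ hk
    have h0 : ⟪T.e i, T.e k⟫_ℝ = 0 := T.orth.2 fun h => hk (by exact_mod_cast h.symm)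
    rw [real_inner_smul_left, real_inner_smul_right, T.inner_V, h0]
    simp
  · exact fun h => (h hi).elim

theorem Tn_congr {n : ℕ} {w w' : MM H D} (h : ∀ i < n, w i = w' i) : T.Tn n w = T.Tn n w' := by
  exact Finset.sum_congr rfl fun i hi => by rw [h i (Finset.mem_range.1 hi)]

theorem dd_nonneg (n : ℕ) (w w' : MM H D) : 0 ≤ T.dd n w w' := norm_nonneg _

theorem dd_self (n : ℕ) (w : MM H D) : T.dd n w w = 0 := by simp [dd]

theorem dd_comm (n : ℕ) (w w' : MM H D) : T.dd n w w' = T.dd n w' w := norm_sub_rev _ _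

theorem dd_triangle (n : ℕ) (w w' w'' : MM H D) :
    T.dd n w w'' ≤ T.dd n w w' + T.dd n w' w'' := norm_sub_le_norm_sub_add_norm_sub _ _ _

theorem dd_sq (n : ℕ) (w w' : MM H D) :
    T.dd n w w' ^ 2 = ∑ i ∈ Finset.range n, ((1 / 2 : ℝ) ^ (i + 1) * ‖w i - w' i‖) ^ 2 := by
  rw [dd, ← Tn_sub, norm_Tn_sq]
  rfl

theorem dd_succ_le' (n : ℕ) (w w' : MM H D) :
    T.dd (n + 1) w w' ≤ T.dd n w w' + (1 / 2 : ℝ) ^ (n + 1) * ‖w n - w' n‖ := by
  have h0 := T.dd_nonneg n w w'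
  have h1 : 0 ≤ (1 / 2 : ℝ) ^ (n + 1) * ‖w n - w' n‖ := by positivity
  refine (pow_le_pow_iff_left₀ (T.dd_nonneg _ _ _) (by positivity) two_ne_zero).1 ?_
  rw [dd_sq, Finset.sum_range_succ, ← T.dd_sq]
  generalize (1 / 2 : ℝ) ^ (n + 1) * ‖w n - w' n‖ = c at h1 ⊢
  nlinarith [mul_nonneg h0 h1]

theorem dd_le (n : ℕ) (w w' : MM H D) : T.dd n w w' ≤ ‖w - w'‖ := by
  have key : ∀ n, T.dd n w w' ≤ (1 - (1 / 2) ^ n) * ‖w - w'‖ := fun n => by
    induction n with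
    | zero => simp [dd, Tn]
    | succ n ih =>
      have h1 := T.dd_succ_le' n w w'
      have h2 : ‖w n - w' n‖ ≤ ‖w - w'‖ := norm_apply_le (w - w') n
      have h3 : (1 / 2 : ℝ) ^ (n + 1) * ‖w n - w' n‖ ≤ (1 / 2) ^ (n + 1) * ‖w - w'‖ := by gcongr
      have h4 : (1 - (1 / 2 : ℝ) ^ (n + 1)) * ‖w - w'‖ =
          (1 - (1 / 2) ^ n) * ‖w - w'‖ + (1 / 2) ^ (n + 1) * ‖w - w'‖ := by ring
      rw [h4]
      exact h1.trans (add_le_add ih h3)
  exact (key n).trans (mul_le_of_le_one_left (norm_nonneg _) (sub_le_self _ (by positivity)))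

theorem dd_mono {n n' : ℕ} (h : n ≤ n') (w w' : MM H D) : T.dd n w w' ≤ T.dd n' w w' := by
  refine (pow_le_pow_iff_left₀ (T.dd_nonneg _ _ _) (T.dd_nonneg _ _ _) two_ne_zero).1 ?_
  rw [dd_sq, dd_sq]
  exact Finset.sum_le_sum_of_subset_of_nonneg (Finset.range_mono h) fun _ _ _ => sq_nonneg _

theorem dd_succ_le (n : ℕ) (w w' : MM H D) :
    T.dd (n + 1) w w' ≤ T.dd n w w' + ‖w n - w' n‖ := by
  refine (T.dd_succ_le' n w w').trans (add_le_add le_rfl ?_)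
  exact mul_le_of_le_one_left (norm_nonneg _) (pow_le_one₀ (by norm_num) (by norm_num))

theorem dd_le_sum (n : ℕ) (w w' : MM H D) :
    T.dd n w w' ≤ ∑ i ∈ Finset.range n, ‖w i - w' i‖ := by
  induction n with
  | zero => simp [dd, Tn]
  | succ n ih =>
    rw [Finset.sum_range_succ]
    exact (T.dd_succ_le n w w').trans (add_le_add ih le_rfl)

theorem norm_sub_le_dd {n i : ℕ} (hi : i < n) (w w' : MM H D) :
    ‖w i - w' i‖ ≤ 2 ^ (i + 1) * T.dd n w w' := by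
  have h1 : (1 / 2 : ℝ) ^ (i + 1) * ‖w i - w' i‖ ≤ T.dd n w w' := by
    refine (pow_le_pow_iff_left₀ (by positivity) (T.dd_nonneg _ _ _) two_ne_zero).1 ?_
    rw [dd_sq]
    exact Finset.single_le_sum (f := fun i => ((1 / 2 : ℝ) ^ (i + 1) * ‖w i - w' i‖) ^ 2)
      (fun _ _ => sq_nonneg _) (Finset.mem_range.2 hi)
  calc ‖w i - w' i‖ = 2 ^ (i + 1) * ((1 / 2 : ℝ) ^ (i + 1) * ‖w i - w' i‖) := by
        rw [← mul_assoc, ← mul_pow]; norm_num
    _ ≤ _ := by gcongr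

theorem abs_dd_sub (n : ℕ) (b w w' : MM H D) : |T.dd n w b - T.dd n w' b| ≤ ‖w - w'‖ := by
  have h1 := T.dd_triangle n w w' b
  have h2 := T.dd_triangle n w' w b
  have h3 := T.dd_le n w w'
  rw [T.dd_comm n w' w] at h2
  rw [abs_le]
  constructor <;> linarith

theorem continuous_dd (n : ℕ) (b : MM H D) : Continuous (fun w => T.dd n w b) := by
  refine (LipschitzWith.of_dist_le_mul (K := 1) fun w w' => ?_).continuous
  rw [Real.dist_eq, dist_eq_norm, NNReal.coe_one, one_mul]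
  exact T.abs_dd_sub n b w w'

/-- a Lipschitz function of the first `ℓ` coordinates (compare through `ofFun ℓ`) -/
theorem abs_sub_le_dd {g : MM H D → ℝ} {L : ℝ} (hL : 0 ≤ L) (hg : Lip L g) {ℓ : ℕ}
    (hdep : ∀ w w', (∀ i < ℓ, w i = w' i) → g w = g w') (w w' : MM H D) :
    |g w - g w'| ≤ L * (2 ^ ℓ * T.dd ℓ w w') := by
  rw [hdep w (ofFun ℓ w) fun i hi => by simp [hi], hdep w' (ofFun ℓ w') fun i hi => by simp [hi]]
  refine (hg _ _).trans (mul_le_mul_of_nonneg_left ?_ hL)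
  have h0 := T.dd_nonneg ℓ w w'
  refine norm_le_of_forall (by positivity) fun i => ?_
  rw [ZeroAtInftyContinuousMap.sub_apply, ofFun_apply, ofFun_apply]
  split_ifs with hi
  · refine (T.norm_sub_le_dd hi w w').trans ?_
    exact mul_le_mul_of_nonneg_right (pow_le_pow_right₀ one_le_two hi) h0
  · rw [sub_self, norm_zero]
    positivity

theorem bump_eq (ℓ : ℕ) {ρ : ℝ} (hρ : 0 < ρ) (b w : MM H D) :
    T.bump ℓ ρ b w = psi ℓ (Real.exp (-(2 ^ ℓ / ρ * T.dd ℓ w b) ^ 2)) := by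
  unfold bump
  rw [T.inner_γ, ← smul_sub, norm_smul, Real.norm_eq_abs, abs_of_pos (by positivity), dd_comm]
  rfl

theorem bump_nonneg (ℓ : ℕ) (ρ : ℝ) (b w : MM H D) : 0 ≤ T.bump ℓ ρ b w := (isPsi ℓ).nonneg _

theorem bump_le_one (ℓ : ℕ) (ρ : ℝ) (b w : MM H D) : T.bump ℓ ρ b w ≤ 1 := (isPsi ℓ).le_one _

/-- `exp (-1) ≤ 1/2` -/
theorem bump_eq_zero {ℓ : ℕ} {ρ : ℝ} (hρ : 0 < ρ) {b w : MM H D}
    (h : ρ ≤ 2 ^ ℓ * T.dd ℓ w b) : T.bump ℓ ρ b w = 0 := by
  rw [T.bump_eq ℓ hρ]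
  refine (isPsi ℓ).zero _ ?_
  have h1 : 1 ≤ 2 ^ ℓ / ρ * T.dd ℓ w b := by
    rw [div_mul_eq_mul_div, le_div_iff₀ hρ, one_mul]
    exact h
  have h2 : Real.exp (-(2 ^ ℓ / ρ * T.dd ℓ w b) ^ 2) ≤ Real.exp (-1) :=
    Real.exp_le_exp.2 (by nlinarith)
  refine h2.trans ?_
  rw [Real.exp_neg, one_div]
  refine inv_anti₀ two_pos ?_
  have := Real.add_one_le_exp 1
  linarith

theorem exists_bump_eq_one (ℓ : ℕ) {ρ : ℝ} (hρ : 0 < ρ) :
    ∃ r : ℝ, 0 < r ∧ r ≤ ρ ∧ ∀ b w, T.dd ℓ w b < r → T.bump ℓ ρ b w = 1 := by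
  obtain ⟨θ, hθ, h⟩ := (isPsi ℓ).one
  have h1 : 0 < min 1 θ := lt_min one_pos hθ
  have h2 : (1 : ℝ) ≤ 2 ^ ℓ := one_le_pow₀ one_le_two
  refine ⟨ρ / 2 ^ ℓ * min 1 θ, by positivity, ?_, fun b w hw => ?_⟩
  · exact (mul_le_of_le_one_right (by positivity) (min_le_left _ _)).trans (div_le_self hρ.le h2)
  · rw [T.bump_eq ℓ hρ]
    refine h _ ?_
    have h3 : 2 ^ ℓ / ρ * T.dd ℓ w b ≤ min 1 θ := by
      calc 2 ^ ℓ / ρ * T.dd ℓ w b ≤ 2 ^ ℓ / ρ * (ρ / 2 ^ ℓ * min 1 θ) := by gcongr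
        _ = min 1 θ := by field_simp
    have h4 : 0 ≤ 2 ^ ℓ / ρ * T.dd ℓ w b := mul_nonneg (by positivity) (T.dd_nonneg _ _ _)
    have h5 := h3.trans (min_le_left _ _)
    have h6 := h3.trans (min_le_right _ _)
    have h7 := Real.add_one_le_exp (-(2 ^ ℓ / ρ * T.dd ℓ w b) ^ 2)
    nlinarith

section flat

variable {T} {g : MM H D → ℝ} {L ρ : ℝ} {ℓ : ℕ} {B : Finset (MM H D)}

theorem flat_eq_zero (hρ : 0 < ρ) {w : MM H D} (h : ∀ b ∈ B, ρ ≤ 2 ^ ℓ * T.dd ℓ w b) :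
    T.flat g ℓ ρ B w = 0 := by
  exact Finset.sum_eq_zero fun b hb => by rw [T.bump_eq_zero hρ (h b hb), mul_zero]

/-- near `b` only the term of `b` survives -/
theorem flat_eq_single (hρ : 0 < ρ) {b w : MM H D} (hb : b ∈ B)
    (h : ∀ b' ∈ B, b' ≠ b → T.dd ℓ w b + ρ ≤ T.dd ℓ b b') :
    T.flat g ℓ ρ B w = (g w - g b) * T.bump ℓ ρ b w := by
  refine Finset.sum_eq_single_of_mem b hb fun b' hb' hne => ?_
  rw [T.bump_eq_zero hρ, mul_zero]
  have h1 := h b' hb' hne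
  have h2 := T.dd_triangle ℓ b w b'
  rw [T.dd_comm ℓ b w] at h2
  have h3 : T.dd ℓ w b' ≤ 2 ^ ℓ * T.dd ℓ w b' :=
    le_mul_of_one_le_left (T.dd_nonneg _ _ _) (one_le_pow₀ one_le_two)
  linarith

theorem abs_flat_le (hL : 0 ≤ L) (hg : Lip L g)
    (hdep : ∀ w w', (∀ i < ℓ, w i = w' i) → g w = g w') (hρ : 0 < ρ)
    (hsep : ∀ b ∈ B, ∀ b' ∈ B, b ≠ b' → 2 * ρ < T.dd ℓ b b') (w : MM H D) :
    |T.flat g ℓ ρ B w| ≤ L * ρ := by
  by_cases h : ∃ b ∈ B, T.dd ℓ w b ≤ ρ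
  · obtain ⟨b, hb, hw⟩ := h
    rw [flat_eq_single hρ hb fun b' hb' hne => by linarith [hsep b hb b' hb' hne.symm]]
    rcases le_total ρ (2 ^ ℓ * T.dd ℓ w b) with h1 | h1
    · rw [T.bump_eq_zero hρ h1, mul_zero, abs_zero]
      positivity
    · rw [abs_mul, abs_of_nonneg (T.bump_nonneg _ _ _ _)]
      refine (mul_le_of_le_one_right (abs_nonneg _) (T.bump_le_one _ _ _ _)).trans ?_
      exact (T.abs_sub_le_dd hL hg hdep w b).trans (mul_le_mul_of_nonneg_left h1 hL)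
  · push Not at h
    rw [flat_eq_zero hρ fun b hb => (h b hb).le.trans
      (le_mul_of_one_le_left (T.dd_nonneg _ _ _) (one_le_pow₀ one_le_two)), abs_zero]
    positivity

/-- Use `lip_of_sl`.  At a point `w` with `ρ < dd ℓ w b` for all `b ∈ B` the function vanishes
near `w`; if `dd ℓ w b ≤ ρ` then near `w` only the term of `b` survives (strict separation), and
`|(g w' - g b) χ w' - (g w - g b) χ w| ≤ L ‖w' - w‖ + |g w - g b| |χ w' - χ w|` with
`|g w - g b| ≤ L ρ s`, `s = 2^ℓ/ρ * dd ℓ w b`, and `IsPsi.slope` at `s`. -/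
theorem lip_flat (hL : 0 ≤ L) (hg : Lip L g)
    (hdep : ∀ w w', (∀ i < ℓ, w i = w' i) → g w = g w') (hρ : 0 < ρ)
    (hsep : ∀ b ∈ B, ∀ b' ∈ B, b ≠ b' → 2 * ρ < T.dd ℓ b b') :
    Lip (2 * L) (T.flat g ℓ ρ B) := by
  refine lip_of_sl fun w => ?_
  by_cases h : ∃ b ∈ B, T.dd ℓ w b ≤ ρ
  · obtain ⟨b, hb, hw⟩ := h
    have hev : ∀ᶠ w' in 𝓝 w, ∀ b' ∈ B, b' ≠ b → T.dd ℓ w' b + ρ ≤ T.dd ℓ b b' := by
      refine (eventually_all_finset B).2 fun b' hb' => ?_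
      by_cases hne : b' = b
      · exact Eventually.of_forall fun _ h => (h hne).elim
      · have h1 : T.dd ℓ w b + ρ < T.dd ℓ b b' := by
          linarith [hsep b hb b' hb' (Ne.symm hne)]
        have h2 : ContinuousAt (fun w' => T.dd ℓ w' b + ρ) w :=
          ((T.continuous_dd ℓ b).add continuous_const).continuousAt
        filter_upwards [h2.eventually (gt_mem_nhds h1)] with w' hw' _ using hw'.le
    have hc : (0 : ℝ) < 2 ^ ℓ / ρ := by positivity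
    obtain ⟨Λ, hΛ, hΛ1, hΛ2⟩ :=
      (isPsi ℓ).slope (2 ^ ℓ / ρ * T.dd ℓ w b) (mul_nonneg hc.le (T.dd_nonneg _ _ _))
    have s1 : Sl (fun w' => g w' - g b) w L := Eventually.of_forall fun w' => by
      rw [sub_sub_sub_cancel_right]
      exact hg w' w
    have s2 : Sl (fun w' => T.bump ℓ ρ b w') w (Λ * (2 ^ ℓ / ρ)) := by
      have h2 : ContinuousAt (fun w' => 2 ^ ℓ / ρ * T.dd ℓ w' b) w :=
        (continuous_const.mul (T.continuous_dd ℓ b)).continuousAt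
      filter_upwards [h2.eventually hΛ2] with w' hw'
      rw [T.bump_eq ℓ hρ, T.bump_eq ℓ hρ]
      refine hw'.trans ?_
      rw [← mul_sub, abs_mul, abs_of_pos hc, mul_assoc]
      gcongr
      exact T.abs_dd_sub ℓ b w' w
    have s3 := s1.mul s2 hL (B := 1) fun w' => by
      rw [abs_of_nonneg (T.bump_nonneg _ _ _ _)]
      exact T.bump_le_one _ _ _ _
    refine (s3.mono ?_).congr ?_
    · have h1 := T.abs_sub_le_dd hL hg hdep w b
      have h2 : |g w - g b| * (Λ * (2 ^ ℓ / ρ)) ≤ L := by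
        calc |g w - g b| * (Λ * (2 ^ ℓ / ρ))
            ≤ L * (2 ^ ℓ * T.dd ℓ w b) * (Λ * (2 ^ ℓ / ρ)) := by gcongr
          _ = L * (2 ^ ℓ / ρ * T.dd ℓ w b * Λ * 2 ^ ℓ) := by ring
          _ ≤ L := mul_le_of_le_one_right hL hΛ1
      linarith
    · filter_upwards [hev] with w' hw' using flat_eq_single hρ hb hw'
  · push Not at h
    have hev : ∀ᶠ w' in 𝓝 w, ∀ b ∈ B, ρ < T.dd ℓ w' b :=
      (eventually_all_finset B).2 fun b hb =>
        (T.continuous_dd ℓ b).continuousAt.eventually (lt_mem_nhds (h b hb))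
    refine (sl_of_const (c := 0) ?_).mono (by positivity)
    filter_upwards [hev] with w' hw'
    exact flat_eq_zero hρ fun b hb => (hw' b hb).le.trans
      (le_mul_of_one_le_left (T.dd_nonneg _ _ _) (one_le_pow₀ one_le_two))

end flat

end Dat

end Crest.Agent.R91
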