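import Crest.Agent.R91.Kill

/-! The space `Z`, absence of `c₀`, and the bi-Lipschitz bijection. -/

set_option autoImplicit false
set_option linter.unusedSectionVars false

namespace Crest.Agent.R91

open Filter Topology Set
open scoped InnerProductSpace ZeroAtInfty ENNReal

theorem l1_hasSum {E : ℕ → Type} [∀ m, NormedAddCommGroup (E m)] (x : lp E 1) :
    HasSum (fun m => ‖x m‖) ‖x‖ := by
  simpa using lp.hasSum_norm (p := 1) (by simp) x

theorem hasSum_geom (c : ℝ) : HasSum (fun m : ℕ => (1 / 2 : ℝ) ^ (m + 6) * c) (1 / 32 * c) := by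
  have h := (hasSum_geometric_two.mul_right ((1 / 2 : ℝ) ^ 6)).mul_right c
  have e : (2 : ℝ) * (1 / 2) ^ 6 = 1 / 32 := by norm_num
  rw [e] at h
  simpa only [pow_add] using h

section pair

variable {H D : Type} [NormedAddCommGroup H] [NormedAddCommGroup D]

theorem norm_toLp_le (a : H) (x : D) : ‖WithLp.toLp 2 (a, x)‖ ≤ ‖a‖ + ‖x‖ := by
  have e : WithLp.toLp 2 (a, x) = WithLp.toLp 2 (a, (0 : D)) + WithLp.toLp 2 ((0 : H), x) := by
    rw [← WithLp.toLp_add, Prod.mk_add_mk, add_zero, zero_add]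
  rw [e]
  refine (norm_add_le _ _).trans ?_
  rw [WithLp.norm_toLp_fst, WithLp.norm_toLp_snd]

/-- the sequence of pairs -/
noncomputable def pairSeq (a : C₀(ℕ, H)) (x : C₀(ℕ, D)) : MM H D where
  toFun n := WithLp.toLp 2 (a n, x n)
  continuous_toFun := continuous_of_discreteTopology
  zero_at_infty' := by
    rw [tendsto_zero_iff_norm_tendsto_zero]
    refine squeeze_zero (fun _ => norm_nonneg _) (fun n => norm_toLp_le (a n) (x n)) ?_
    simpa using (tendsto_zero_iff_norm_tendsto_zero.1 a.zero_at_infty').add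
      (tendsto_zero_iff_norm_tendsto_zero.1 x.zero_at_infty')

theorem pairSeq_apply (a : C₀(ℕ, H)) (x : C₀(ℕ, D)) (n : ℕ) :
    pairSeq a x n = WithLp.toLp 2 (a n, x n) := rfl

/-- the sequence of first components -/
noncomputable def fstSeq (w : MM H D) : C₀(ℕ, H) where
  toFun n := (w n).fst
  continuous_toFun := continuous_of_discreteTopology
  zero_at_infty' := by
    rw [tendsto_zero_iff_norm_tendsto_zero]
    exact squeeze_zero (fun _ => norm_nonneg _) (fun n => WithLp.norm_fst_le _ (w n))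
      (tendsto_zero_iff_norm_tendsto_zero.1 w.zero_at_infty')

/-- the sequence of second components -/
noncomputable def sndSeq (w : MM H D) : C₀(ℕ, D) where
  toFun n := (w n).snd
  continuous_toFun := continuous_of_discreteTopology
  zero_at_infty' := by
    rw [tendsto_zero_iff_norm_tendsto_zero]
    exact squeeze_zero (fun _ => norm_nonneg _) (fun n => WithLp.norm_snd_le _ (w n))
      (tendsto_zero_iff_norm_tendsto_zero.1 w.zero_at_infty')

theorem pairSeq_sub (a a' : C₀(ℕ, H)) (x x' : C₀(ℕ, D)) :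
    pairSeq a x - pairSeq a' x' = pairSeq (a - a') (x - x') := by
  ext1 n
  rfl

theorem norm_pairSeq_le (a : C₀(ℕ, H)) (x : C₀(ℕ, D)) : ‖pairSeq a x‖ ≤ ‖a‖ + ‖x‖ :=
  norm_le_of_forall (by positivity) fun n =>
    (norm_toLp_le _ _).trans (add_le_add (norm_apply_le a n) (norm_apply_le x n))

theorem norm_fst_le_pairSeq (a : C₀(ℕ, H)) (x : C₀(ℕ, D)) : ‖a‖ ≤ ‖pairSeq a x‖ :=
  norm_le_of_forall (norm_nonneg _) fun n =>
    (WithLp.norm_fst_le _ (pairSeq a x n)).trans (norm_apply_le _ n)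

theorem norm_snd_le_pairSeq (a : C₀(ℕ, H)) (x : C₀(ℕ, D)) : ‖x‖ ≤ ‖pairSeq a x‖ :=
  norm_le_of_forall (norm_nonneg _) fun n =>
    (WithLp.norm_snd_le _ (pairSeq a x n)).trans (norm_apply_le _ n)

end pair

theorem c0_sum_apply {X : Type} [NormedAddCommGroup X] {ι : Type*} (F : Finset ι)
    (u : ι → C₀(ℕ, X)) (n : ℕ) : (∑ k ∈ F, u k) n = ∑ k ∈ F, u k n := by
  classical
  induction F using Finset.induction_on with
  | empty => simp
  | insert a F ha ih => rw [Finset.sum_insert ha, Finset.sum_insert ha, ← ih]; rfl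

namespace Dat

variable {H D : Type} [NormedAddCommGroup H] [InnerProductSpace ℝ H] [CompleteSpace H]
  [NormedAddCommGroup D] [InnerProductSpace ℝ D] (T : Dat H D)

/-- bounded functions on `Gam m` -/
abbrev BB (m : ℕ) : Type := lp (fun _ : T.Gam m => ℝ) ∞

/-- the `ℓ₁`-sum of the spaces `BB m` -/
abbrev WW : Type := lp (fun m : ℕ => T.BB m) 1

/-! shortcut instances (the search is slow otherwise) -/
noncomputable instance instAddCommMonoidWW : AddCommMonoid T.WW :=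
  (lp (fun m => T.BB m) 1).toAddCommGroup.toAddCommMonoid
noncomputable instance instUniformSpaceWW : UniformSpace T.WW := PseudoMetricSpace.toUniformSpace
noncomputable instance instTopologicalSpaceWW : TopologicalSpace T.WW :=
  PseudoMetricSpace.toUniformSpace.toTopologicalSpace
noncomputable instance instSMulWW : SMul ℝ T.WW := DistribMulAction.toDistribSMul.toSMul

theorem abs_le_of_mem_Gam {m : ℕ} {g : MM H D → ℝ} (hg : g ∈ T.Gam m) (w : MM H D) :
    |g w| ≤ (1 / 2) ^ (m + 6) * ‖w‖ := by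
  simpa [hg.1] using hg.2.1 w 0

/-- evaluation at `w` -/
noncomputable def fB (m : ℕ) (w : MM H D) : T.BB m :=
  ⟨fun g => g.1 w, memℓp_infty ⟨(1 / 2) ^ (m + 6) * ‖w‖, by
    rintro _ ⟨g, rfl⟩
    exact T.abs_le_of_mem_Gam g.2 w⟩⟩

theorem norm_fB_le (m : ℕ) (w : MM H D) : ‖T.fB m w‖ ≤ (1 / 2) ^ (m + 6) * ‖w‖ :=
  lp.norm_le_of_forall_le (by positivity) fun g => T.abs_le_of_mem_Gam g.2 w

theorem memℓp_fB (w : MM H D) : Memℓp (fun m => T.fB m w) 1 := by
  refine memℓp_gen ?_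
  simp only [ENNReal.toReal_one, Real.rpow_one]
  exact Summable.of_nonneg_of_le (fun _ => norm_nonneg _) (fun m => T.norm_fB_le m w)
    (hasSum_geom ‖w‖).summable

/-- evaluation at `w` -/
noncomputable def fW (w : MM H D) : T.WW := ⟨fun m => T.fB m w, T.memℓp_fB w⟩

/-- `∑_m (1/2)^(m+6) = 1/32` -/
theorem norm_fW_sub_le (w w' : MM H D) : ‖T.fW w - T.fW w'‖ ≤ 1 / 32 * ‖w - w'‖ := by
  refine hasSum_le (fun m => ?_) (l1_hasSum _) (hasSum_geom ‖w - w'‖)
  exact lp.norm_le_of_forall_le (by positivity) fun g => g.2.2.1 w w'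

theorem exists_pr1 : ∃ p : MM H D →L[ℝ] C₀(ℕ, H), ∀ w n, p w n = (w n).fst := by
  refine ⟨LinearMap.mkContinuous
    { toFun := fstSeq
      map_add' := fun _ _ => by ext1 n; rfl
      map_smul' := fun _ _ => by ext1 n; rfl } 1 fun w => ?_, fun _ _ => rfl⟩
  rw [one_mul]
  exact norm_le_of_forall (norm_nonneg _) fun n =>
    (WithLp.norm_fst_le _ (w n)).trans (norm_apply_le w n)

/-- the projection on the first components -/
noncomputable def pr1 : MM H D →L[ℝ] C₀(ℕ, H) := (exists_pr1 (H := H) (D := D)).choose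

theorem pr1_apply (w : MM H D) (n : ℕ) : pr1 w n = (w n).fst :=
  (exists_pr1 (H := H) (D := D)).choose_spec w n

/-- the Lipschitz lift of `Psi0 - pr1` -/
noncomputable def ff (w : MM H D) : C₀(ℕ, H) × T.WW := (T.Psi0 w - pr1 w, T.fW w)

/-- the space `Z` -/
noncomputable def ZZ : Submodule ℝ (C₀(ℕ, H) × T.WW) :=
  (Submodule.span ℝ (range T.ff)).topologicalClosure

instance : CompleteSpace T.ZZ :=
  (Submodule.isClosed_topologicalClosure _).completeSpace_coe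

/-- `ff` is Lipschitz, `IsSeparable.span`, `IsSeparable.closure` -/
theorem separable_ZZ [TopologicalSpace.SeparableSpace (MM H D)] :
    TopologicalSpace.SeparableSpace T.ZZ := by
  have h1 : Continuous T.Psi0 := by
    refine (LipschitzWith.of_dist_le_mul (K := 5 / 2) fun w w' => ?_).continuous
    rw [dist_eq_norm, dist_eq_norm]
    exact_mod_cast T.norm_Psi0_sub_le w w'
  have h2 : Continuous T.fW := by
    refine (LipschitzWith.of_dist_le_mul (K := 1 / 32) fun w w' => ?_).continuous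
    rw [dist_eq_norm, dist_eq_norm]
    exact_mod_cast T.norm_fW_sub_le w w'
  have h3 : Continuous T.ff := (h1.sub pr1.continuous).prodMk h2
  exact (TopologicalSpace.isSeparable_range h3).span.closure.separableSpace

/-- the element of `Z` given by a finitely supported measure -/
noncomputable def lin (μ : MM H D →₀ ℝ) : C₀(ℕ, H) × T.WW := Finsupp.linearCombination ℝ T.ff μ

theorem lin_snd (μ : MM H D →₀ ℝ) (m : ℕ) (g : T.Gam m) : (T.lin μ).2 m g = ev μ g.1 := by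
  rw [lin, Finsupp.linearCombination_apply, Finsupp.sum, Prod.snd_sum, lp.coeFn_sum,
    Finset.sum_apply, lp.coeFn_sum, Finset.sum_apply, ev_eq]
  rfl

theorem inner_lin_fst (μ : MM H D →₀ ℝ) (n : ℕ) (e : H) :
    ⟪e, (T.lin μ).1 n⟫_ℝ = ev μ (T.atom n univ e) := by
  rw [lin, Finsupp.linearCombination_apply, Finsupp.sum, Prod.fst_sum, c0_sum_apply, inner_sum,
    ev_eq]
  refine Finset.sum_congr rfl fun w _ => ?_
  have : (μ w • T.ff w).1 n = μ w • T.Th n univ w := by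
    show μ w • (T.Psi0 w n - pr1 w n) = _
    rw [Psi0_apply, pr1_apply, add_sub_cancel_left]
  rw [this, real_inner_smul_right]
  rfl

/-- `(1/448) • atom n univ e ∈ Gam 0` for `‖e‖ ≤ 1` (`norm_Th_sub_le`, `Th_zero`) -/
theorem norm_lin_fst_le (μ : MM H D →₀ ℝ) : ‖(T.lin μ).1‖ ≤ 448 * ‖(T.lin μ).2‖ := by
  refine norm_le_of_forall (by positivity) fun n => ?_
  have key : ∀ e : H, ‖e‖ ≤ 1 → ⟪e, (T.lin μ).1 n⟫_ℝ ≤ 448 * ‖(T.lin μ).2‖ := by
    intro e he
    have hg : (fun w => (1 / 448 : ℝ) * T.atom n univ e w) ∈ T.Gam 0 := by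
      refine ⟨by simp [atom, Th_zero], fun w w' => ?_, fun ν t ht => ?_⟩
      · have h1 : |T.atom n univ e w - T.atom n univ e w'| ≤ 7 * ‖w - w'‖ := by
          rw [atom, atom, ← inner_sub_right]
          refine (abs_real_inner_le_norm _ _).trans ?_
          exact (mul_le_of_le_one_left (norm_nonneg _) he).trans (T.norm_Th_sub_le n univ w w')
        rw [← mul_sub, abs_mul, abs_of_pos (by norm_num : (0 : ℝ) < 1 / 448)]
        norm_num
        linarith
      · have h1 := ht _ (Or.inl ⟨n, univ, e, he, rfl⟩)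
        have h2 := abs_nonneg (ev ν (T.atom n univ e))
        rw [ev_const_mul, abs_mul, abs_of_pos (by norm_num : (0 : ℝ) < 1 / 448)]
        linarith
    have h1 := T.lin_snd μ 0 ⟨_, hg⟩
    have h2 : ‖(T.lin μ).2 0 ⟨_, hg⟩‖ ≤ ‖(T.lin μ).2‖ :=
      (lp.norm_apply_le_norm (by simp) _ _).trans (lp.norm_apply_le_norm (by simp) _ _)
    rw [h1, ev_const_mul, ← inner_lin_fst, Real.norm_eq_abs] at h2
    have := le_abs_self (1 / 448 * ⟪e, (T.lin μ).1 n⟫_ℝ)
    linarith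
  by_cases h0 : (T.lin μ).1 n = 0
  · rw [h0, norm_zero]
    positivity
  · have hp : 0 < ‖(T.lin μ).1 n‖ := norm_pos_iff.2 h0
    have := key (‖(T.lin μ).1 n‖⁻¹ • (T.lin μ).1 n) (by
      rw [norm_smul, norm_inv, norm_norm, inv_mul_cancel₀ hp.ne'])
    rwa [real_inner_smul_left, real_inner_self_eq_norm_sq, sq, ← mul_assoc,
      inv_mul_cancel₀ hp.ne', one_mul] at this

/-- If `δ < ‖(lin (μ k)).2 m‖` pick `g ∈ Gam m` with `δ < |ev (μ k) g|`; by `Dom` (contrapositive) there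
is `h` with `GG m h` and `δ / 2^m < |ev (μ k) h|`; now use `kill`. -/
theorem tendsto_lin_snd {μ : ℕ → MM H D →₀ ℝ} {K : ℝ} (hμ : T.Wuc μ K) (m : ℕ) :
    Tendsto (fun k => ‖(T.lin (μ k)).2 m‖) (UU : Filter ℕ) (𝓝 0) := by
  refine Metric.tendsto_nhds.2 fun δ hδ => ?_
  have hex : ∀ k, ∃ h, T.GG m h ∧ (|ev (μ k) h| ≤ δ / 2 / 2 ^ m → ‖(T.lin (μ k)).2 m‖ ≤ δ / 2) := by
    intro k
    by_cases hk : ∀ h, T.GG m h → |ev (μ k) h| ≤ δ / 2 / 2 ^ m
    · refine ⟨T.atom 0 univ 0, Or.inl ⟨0, univ, 0, by simp, rfl⟩, fun _ => ?_⟩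
      refine lp.norm_le_of_forall_le (by positivity) fun g => ?_
      rw [lin_snd, Real.norm_eq_abs]
      refine (g.2.2.2 _ _ hk).trans (le_of_eq ?_)
      field_simp
    · push Not at hk
      obtain ⟨h, h1, h2⟩ := hk
      exact ⟨h, h1, fun h3 => absurd h2 (not_lt.2 h3)⟩
  choose h hh hh' using hex
  have := Metric.tendsto_nhds.1 (T.kill hμ m h hh) (δ / 2 / 2 ^ m) (by positivity)
  filter_upwards [this] with k hk
  rw [Real.dist_eq, sub_zero] at hk ⊢
  rw [abs_norm]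
  linarith [hh' k hk.le]

end Dat

/-- Gliding hump in an `ℓ₁`-sum: by induction on `N` there is `F` with `N δ / 2 ≤ ‖∑_{k ∈ F} x k‖`;
given `s = ∑_{k ∈ F} x k` choose `M` with small tail of `s` beyond `M` and then `k ∉ F` with
`∑_{m<M} ‖x k m‖` small, so that `‖s‖ + δ / 2 ≤ ‖s + x k‖`. -/
theorem l1_hump {E : ℕ → Type} [∀ m, NormedAddCommGroup (E m)] (x : ℕ → lp E 1) {δ : ℝ}
    (hδ : 0 < δ) (h1 : ∀ k, δ ≤ ‖x k‖)
    (h2 : ∀ m, Tendsto (fun k => ‖x k m‖) (UU : Filter ℕ) (𝓝 0)) (K : ℝ) :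
    ∃ F : Finset ℕ, K < ‖∑ k ∈ F, x k‖ := by
  have key : ∀ N : ℕ, ∃ F : Finset ℕ, N * (δ / 2) ≤ ‖∑ k ∈ F, x k‖ := by
    intro N
    induction N with
    | zero => exact ⟨∅, by simp⟩
    | succ N ih =>
      obtain ⟨F, hF⟩ := ih
      set s := ∑ k ∈ F, x k with hs
      obtain ⟨M, hM⟩ : ∃ M : ℕ, ‖s‖ - δ / 8 < ∑ m ∈ Finset.range M, ‖s m‖ :=
        ((l1_hasSum s).tendsto_sum_nat.eventually (lt_mem_nhds (by linarith))).exists
      have h3 : Tendsto (fun k => ∑ m ∈ Finset.range M, ‖x k m‖) (UU : Filter ℕ) (𝓝 0) := by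
        simpa using tendsto_finsetSum (Finset.range M) fun m _ => h2 m
      have h4 : ∀ᶠ k in (UU : Filter ℕ), k ∉ F :=
        hyperfilter_le_cofinite F.eventually_cofinite_notMem
      obtain ⟨k, hk, hkF⟩ := ((h3.eventually (gt_mem_nhds (show (0 : ℝ) < δ / 8 by linarith))).and
        h4).exists
      refine ⟨insert k F, ?_⟩
      rw [Finset.sum_insert hkF, ← hs]
      have h5 : HasSum (fun m => if m ∈ Finset.range M then 2 * (‖s m‖ - ‖x k m‖) else 0)
          (∑ m ∈ Finset.range M, 2 * (‖s m‖ - ‖x k m‖)) := by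
        have := hasSum_sum_of_ne_finset_zero (L := SummationFilter.unconditional ℕ)
          (f := fun m => if m ∈ Finset.range M then 2 * (‖s m‖ - ‖x k m‖) else 0)
          (s := Finset.range M) (fun m hm => if_neg hm)
        rwa [Finset.sum_congr rfl fun m hm => if_pos hm] at this
      have h6 := hasSum_le (fun m => ?_) (((l1_hasSum (x k)).sub (l1_hasSum s)).add h5)
        (l1_hasSum (x k + s))
      · rw [← Finset.mul_sum, Finset.sum_sub_distrib] at h6
        have := h1 k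
        push_cast
        linarith
      · have e : (x k + s) m = x k m + s m := rfl
        rw [e]
        split_ifs
        · have := norm_sub_norm_le (s m) (-x k m)
          rw [norm_neg, sub_neg_eq_add, add_comm] at this
          linarith
        · have := norm_sub_norm_le (x k m) (-s m)
          rw [norm_neg, sub_neg_eq_add] at this
          linarith
  obtain ⟨N, hN⟩ := exists_nat_gt (K / (δ / 2))
  obtain ⟨F, hF⟩ := key N
  rw [div_lt_iff₀ (by linarith)] at hN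
  exact ⟨F, hN.trans_le hF⟩

namespace Dat

variable {H D : Type} [NormedAddCommGroup H] [InnerProductSpace ℝ H] [CompleteSpace H]
  [NormedAddCommGroup D] [InnerProductSpace ℝ D] (T : Dat H D)

/-- Approximate `z k` by `lin (μ k)` up to `min δ 1 / 2^(k+1)`; then `Wuc μ (K+1)` by `lin_snd`, the
second components have norm `≥ δ / (2 * 448)` by `norm_lin_fst_le`; conclude with
`tendsto_lin_snd` and `l1_hump`. -/
theorem no_wuc (z : ℕ → T.ZZ) {δ K : ℝ} (hδ : 0 < δ) (h1 : ∀ k, δ ≤ ‖z k‖)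
    (h2 : ∀ (F : Finset ℕ) (s : ℕ → ℝ), (∀ k, s k = 1 ∨ s k = -1) → ‖∑ k ∈ F, s k • z k‖ ≤ K) :
    False := by
  have hη : 0 < min δ 1 := lt_min hδ one_pos
  have hex : ∀ k : ℕ, ∃ ν : MM H D →₀ ℝ, ‖(z k).1 - T.lin ν‖ ≤ min δ 1 * (1 / 2) ^ (k + 1) := by
    intro k
    obtain ⟨y, hy, hy'⟩ := Metric.mem_closure_iff.1 (z k).2 (min δ 1 * (1 / 2) ^ (k + 1))
      (by positivity)
    rw [← Finsupp.range_linearCombination] at hy
    obtain ⟨ν, rfl⟩ := hy
    rw [dist_eq_norm] at hy'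
    exact ⟨ν, hy'.le⟩
  choose μ hμ using hex
  have hb : ∀ (F : Finset ℕ) (s : ℕ → ℝ), (∀ k, s k = 1 ∨ s k = -1) →
      ‖∑ k ∈ F, s k • T.lin (μ k)‖ ≤ K + 1 := by
    intro F s hs
    have e : ∑ k ∈ F, s k • T.lin (μ k) =
        (∑ k ∈ F, s k • z k : T.ZZ).1 - ∑ k ∈ F, s k • ((z k).1 - T.lin (μ k)) := by
      simp only [Submodule.coe_sum, Submodule.coe_smul, smul_sub, Finset.sum_sub_distrib,
        sub_sub_cancel]
    rw [e]
    refine (norm_sub_le _ _).trans (add_le_add (h2 F s hs) ((norm_sum_le _ _).trans ?_))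
    have h3 : ∑ k ∈ F, ‖s k • ((z k).1 - T.lin (μ k))‖ ≤ ∑ k ∈ F, (1 / 2 : ℝ) ^ (k + 1) := by
      refine Finset.sum_le_sum fun k _ => ?_
      have : ‖s k‖ = 1 := by rcases hs k with h | h <;> simp [h]
      rw [norm_smul, this, one_mul]
      exact (hμ k).trans (mul_le_of_le_one_left (by positivity) (min_le_right _ _))
    have h4 : HasSum (fun k : ℕ => (1 / 2 : ℝ) ^ (k + 1)) 1 := by
      simpa [pow_succ] using hasSum_geometric_two.mul_right (1 / 2 : ℝ)
    exact h3.trans (sum_le_hasSum F (fun _ _ => by positivity) h4)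
  have hW : T.Wuc μ (K + 1) := by
    intro m g hg F s hs
    have e : ∑ k ∈ F, s k * ev (μ k) g = (∑ k ∈ F, s k • T.lin (μ k)).2 m ⟨g, hg⟩ := by
      rw [Prod.snd_sum, lp.coeFn_sum, Finset.sum_apply, lp.coeFn_sum, Finset.sum_apply]
      refine Finset.sum_congr rfl fun k _ => ?_
      rw [← T.lin_snd (μ k) m ⟨g, hg⟩]
      rfl
    rw [e, ← Real.norm_eq_abs]
    exact (lp.norm_apply_le_norm (by simp) _ _).trans ((lp.norm_apply_le_norm (by simp) _ _).trans
      ((norm_snd_le _).trans (hb F s hs)))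
  have hl : ∀ k, δ / (2 * 448) ≤ ‖(T.lin (μ k)).2‖ := by
    intro k
    have h3 : ‖(z k).1 - T.lin (μ k)‖ ≤ δ / 2 := by
      refine (hμ k).trans ?_
      have : (1 / 2 : ℝ) ^ (k + 1) ≤ 1 / 2 := by
        rw [pow_succ]
        exact mul_le_of_le_one_left (by norm_num) (pow_le_one₀ (by norm_num) (by norm_num))
      calc _ ≤ δ * (1 / 2) := mul_le_mul (min_le_left _ _) this (by positivity) hδ.le
        _ = δ / 2 := by ring
    have h4 : ‖(z k).1‖ - ‖T.lin (μ k)‖ ≤ δ / 2 := (norm_sub_norm_le _ _).trans h3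
    have h5 : δ ≤ ‖(z k).1‖ := h1 k
    have h6 : ‖T.lin (μ k)‖ ≤ 448 * ‖(T.lin (μ k)).2‖ := by
      rw [Prod.norm_def]
      refine max_le (T.norm_lin_fst_le _) ?_
      linarith [norm_nonneg (T.lin (μ k)).2]
    rw [div_le_iff₀ (by norm_num)]
    linarith
  obtain ⟨F, hF⟩ := l1_hump (fun k => (T.lin (μ k)).2) (by positivity) hl
    (T.tendsto_lin_snd hW) (K + 1)
  have h7 := (norm_snd_le _).trans (hb F (fun _ => 1) fun _ => Or.inl rfl)
  simp only [one_smul, Prod.snd_sum] at h7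
  exact absurd hF (not_lt.2 h7)

/-- apply `no_wuc` to the preimages of the unit vectors `ofFun (k+1) (Pi.single k d)` -/
theorem no_c0 (E : Type) [NormedAddCommGroup E] [NormedSpace ℝ E] [Nontrivial E]
    (S : Submodule ℝ T.ZZ) : IsEmpty (S ≃L[ℝ] C₀(ℕ, E)) := by
  refine ⟨fun e => ?_⟩
  obtain ⟨d, hd⟩ := exists_ne (0 : E)
  have hd' : 0 < ‖d‖ := norm_pos_iff.2 hd
  obtain ⟨C, hC, hC'⟩ := ContinuousLinearMap.bound (E := S) (F := C₀(ℕ, E)) (σ₁₂ := RingHom.id ℝ)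
    e.toContinuousLinearMap
  obtain ⟨C', -, hC''⟩ := ContinuousLinearMap.bound (E := C₀(ℕ, E)) (F := S) (σ₁₂ := RingHom.id ℝ)
    e.symm.toContinuousLinearMap
  let u : ℕ → C₀(ℕ, E) := fun k => ofFun (k + 1) (Pi.single k d)
  have hu : ∀ k i, u k i = if i = k then d else 0 := by
    intro k i
    simp only [u, ofFun_apply, Pi.single_apply]
    split_ifs with h1 h2 h3
    · rfl
    · rfl
    · omega
    · rfl
  refine T.no_wuc (fun k => (e.symm (u k) : T.ZZ)) (δ := ‖d‖ / C) (K := |C'| * ‖d‖)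
    (by positivity) (fun k => ?_) (fun F s hs => ?_)
  · have h1 := hC' (e.symm (u k))
    have h2 := norm_apply_le (u k) k
    rw [hu, if_pos rfl] at h2
    simp only [ContinuousLinearEquiv.coe_coe, ContinuousLinearEquiv.apply_symm_apply] at h1
    rw [div_le_iff₀ hC, mul_comm]
    exact h2.trans h1
  · have e1 : ∑ k ∈ F, s k • (e.symm (u k) : T.ZZ) = (e.symm (∑ k ∈ F, s k • u k) : T.ZZ) := by
      simp only [map_sum, map_smul, Submodule.coe_sum, Submodule.coe_smul]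
    rw [e1]
    refine (hC'' (∑ k ∈ F, s k • u k)).trans ?_
    refine mul_le_mul (le_abs_self _) (norm_le_of_forall hd'.le fun i => ?_) (norm_nonneg _)
      (abs_nonneg _)
    rw [c0_sum_apply]
    have : ∀ k, (s k • u k) i = if i = k then s k • d else 0 := by
      intro k
      show s k • u k i = _
      rw [hu]
      split_ifs <;> simp
    simp only [this, Finset.sum_ite_eq]
    split_ifs
    · have : ‖s i‖ = 1 := by rcases hs i with h | h <;> simp [h]
      rw [norm_smul, this, one_mul]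
    · simp

/-- the space `X` -/
noncomputable def XS : Submodule ℝ (MM H D × T.WW) :=
  T.ZZ.comap ((pr1.prodMap (ContinuousLinearMap.id ℝ T.WW) :
    MM H D × T.WW →L[ℝ] C₀(ℕ, H) × T.WW) : MM H D × T.WW →ₗ[ℝ] C₀(ℕ, H) × T.WW)

theorem mem_XS {x : MM H D × T.WW} : x ∈ T.XS ↔ (pr1 x.1, x.2) ∈ T.ZZ := Iff.rfl

theorem complete_XS [CompleteSpace D] : CompleteSpace T.XS := by
  have h : IsClosed (T.XS : Set (MM H D × T.WW)) :=
    (Submodule.isClosed_topologicalClosure _).preimage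
      ((pr1 (H := H) (D := D)).prodMap (ContinuousLinearMap.id ℝ T.WW)).continuous
  exact h.completeSpace_coe

theorem ff_mem (w : MM H D) : T.ff w ∈ T.ZZ :=
  Submodule.le_topologicalClosure _ (Submodule.subset_span ⟨w, rfl⟩)

theorem Psi_mem (x : T.XS) : (T.Psi0 x.1.1, x.1.2 + T.fW x.1.1) ∈ T.ZZ := by
  have := T.ZZ.add_mem (T.mem_XS.1 x.2) (T.ff_mem x.1.1)
  rwa [ff, Prod.mk_add_mk, add_sub_cancel] at this

/-- the bi-Lipschitz bijection -/
noncomputable def Psi (x : T.XS) : T.ZZ := ⟨(T.Psi0 x.1.1, x.1.2 + T.fW x.1.1), T.Psi_mem x⟩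

theorem norm_Psi_sub_eq (s t : T.XS) : ‖T.Psi s - T.Psi t‖ =
    max ‖T.Psi0 s.1.1 - T.Psi0 t.1.1‖ ‖(s.1.2 - t.1.2) + (T.fW s.1.1 - T.fW t.1.1)‖ := by
  rw [← add_sub_add_comm]
  rfl

theorem norm_XS_sub_eq (s t : T.XS) : ‖s - t‖ = max ‖s.1.1 - t.1.1‖ ‖s.1.2 - t.1.2‖ := rfl

theorem norm_Psi_sub_le (s t : T.XS) : ‖T.Psi s - T.Psi t‖ ≤ 5 / 2 * ‖s - t‖ := by
  have h1 : ‖s.1.1 - t.1.1‖ ≤ ‖s - t‖ := le_max_left _ _
  have h2 : ‖s.1.2 - t.1.2‖ ≤ ‖s - t‖ := le_max_right _ _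
  have h3 := T.norm_Psi0_sub_le s.1.1 t.1.1
  have h4 := T.norm_fW_sub_le s.1.1 t.1.1
  have h5 := norm_add_le (s.1.2 - t.1.2) (T.fW s.1.1 - T.fW t.1.1)
  have h6 := norm_nonneg (s - t)
  rw [norm_Psi_sub_eq]
  exact max_le (by linarith) (by linarith)

theorem le_norm_Psi_sub (s t : T.XS) : ‖s - t‖ ≤ 4 * ‖T.Psi s - T.Psi t‖ := by
  have h1 : ‖T.Psi0 s.1.1 - T.Psi0 t.1.1‖ ≤ ‖T.Psi s - T.Psi t‖ := by
    rw [norm_Psi_sub_eq]; exact le_max_left _ _
  have h2 : ‖(s.1.2 - t.1.2) + (T.fW s.1.1 - T.fW t.1.1)‖ ≤ ‖T.Psi s - T.Psi t‖ := by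
    rw [norm_Psi_sub_eq]; exact le_max_right _ _
  have h3 := T.le_norm_Psi0_sub s.1.1 t.1.1
  have h4 := T.norm_fW_sub_le s.1.1 t.1.1
  have h5 := norm_sub_le ((s.1.2 - t.1.2) + (T.fW s.1.1 - T.fW t.1.1)) (T.fW s.1.1 - T.fW t.1.1)
  rw [add_sub_cancel_right] at h5
  have h6 := norm_nonneg (T.Psi s - T.Psi t)
  rw [norm_XS_sub_eq]
  exact max_le (by linarith) (by linarith)

theorem Psi_surjective : Function.Surjective T.Psi := by
  rintro ⟨⟨y, ω⟩, hz⟩
  obtain ⟨w, rfl⟩ := T.Psi0_surjective y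
  refine ⟨⟨(w, ω - T.fW w), T.mem_XS.2 ?_⟩, Subtype.ext ?_⟩
  · have := T.ZZ.sub_mem hz (T.ff_mem w)
    rwa [ff, Prod.mk_sub_mk, sub_sub_cancel] at this
  · simp [Psi]

theorem pr1_pairSeq (a : C₀(ℕ, H)) (x : C₀(ℕ, D)) : pr1 (pairSeq a x) = a := by
  ext1 n
  rw [pr1_apply]
  rfl

/-- `x ↦ ((n ↦ (0, x n)), 0)` -/
theorem exists_isometry : Nonempty (C₀(ℕ, D) →ₗᵢ[ℝ] T.XS) := by
  refine ⟨{ toFun := fun x => ⟨(pairSeq 0 x, 0), T.mem_XS.2 ?_⟩
            map_add' := fun x y => Subtype.ext (Prod.ext ?_ (by simp))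
            map_smul' := fun c x => Subtype.ext (Prod.ext ?_ (by simp))
            norm_map' := fun x => ?_ }⟩
  · rw [pr1_pairSeq]
    exact T.ZZ.zero_mem
  · ext1 n
    show WithLp.toLp 2 ((0 : H), x n + y n) =
      WithLp.toLp 2 ((0 : H), x n) + WithLp.toLp 2 ((0 : H), y n)
    rw [← WithLp.toLp_add, Prod.mk_add_mk, add_zero]
  · ext1 n
    show WithLp.toLp 2 ((0 : H), c • x n) = c • WithLp.toLp 2 ((0 : H), x n)
    rw [← WithLp.toLp_smul, Prod.smul_mk, smul_zero]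
  · show max ‖pairSeq (0 : C₀(ℕ, H)) x‖ ‖(0 : T.WW)‖ = ‖x‖
    rw [norm_zero, max_eq_left (norm_nonneg _)]
    refine le_antisymm ?_ (norm_snd_le_pairSeq _ _)
    simpa using norm_pairSeq_le (0 : C₀(ℕ, H)) x

/-- `((a, ω), x) ↦ ((n ↦ (a n, x n)), ω)` -/
theorem exists_prod_map : ∃ G : T.ZZ × C₀(ℕ, D) → T.XS, Function.Surjective G ∧
    ∀ u v, ‖u - v‖ ≤ ‖G u - G v‖ ∧ ‖G u - G v‖ ≤ 2 * ‖u - v‖ := by
  refine ⟨fun u => ⟨(pairSeq u.1.1.1 u.2, u.1.1.2), T.mem_XS.2 ?_⟩, ?_, fun u v => ?_⟩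
  · rw [pr1_pairSeq]
    exact u.1.2
  · rintro ⟨⟨w, ω⟩, hx⟩
    refine ⟨(⟨(pr1 w, ω), T.mem_XS.1 hx⟩, sndSeq w), Subtype.ext (Prod.ext ?_ rfl)⟩
    ext1 n
    show WithLp.toLp 2 (pr1 w n, (w n).snd) = w n
    rw [pr1_apply]
    rfl
  · rw [norm_XS_sub_eq]
    simp only [pairSeq_sub]
    have e : ‖u - v‖ = max (max ‖u.1.1.1 - v.1.1.1‖ ‖u.1.1.2 - v.1.1.2‖) ‖u.2 - v.2‖ := rfl
    have h1 := norm_pairSeq_le (u.1.1.1 - v.1.1.1) (u.2 - v.2)
    have h2 := norm_fst_le_pairSeq (u.1.1.1 - v.1.1.1) (u.2 - v.2)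
    have h3 := norm_snd_le_pairSeq (u.1.1.1 - v.1.1.1) (u.2 - v.2)
    have h4 : ‖u.1.1.1 - v.1.1.1‖ ≤ ‖u - v‖ := by
      rw [e]; exact (le_max_left _ _).trans (le_max_left _ _)
    have h5 : ‖u.1.1.2 - v.1.1.2‖ ≤ ‖u - v‖ := by
      rw [e]; exact (le_max_right _ _).trans (le_max_left _ _)
    have h6 : ‖u.2 - v.2‖ ≤ ‖u - v‖ := by
      rw [e]; exact le_max_right _ _
    have h7 := norm_nonneg (u - v)
    refine ⟨?_, max_le (by linarith) (by linarith)⟩
    rw [e]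
    exact max_le (max_le (h2.trans (le_max_left _ _)) (le_max_right _ _))
      (h3.trans (le_max_left _ _))

end Dat

end Crest.Agent.R91
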